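import Vale.Agent.Lib.P154Q4.TT.Class
import Vale.Agent.Lib.P154Q4.Rec

/-!
The channel conditions for the class function of the full simplex.
-/

namespace Vale.Agent.Lib.P154Q4.TT

open Vale.Agent.Lib.P154Q4.Cells Vale.Agent.Lib.P154Q4.K2

theorem pii_le_sig1 {a b c d : ℝ} (h : Simp a b c d) :
    6 * pii (f1 a b c d) (f2 a b c d) (f3 a b c d) ≤ sig1 (f1 a b c d) (f2 a b c d) (f3 a b c d) := by
  have ha := h.ha
  have hb := h.hb
  have hc := h.hc
  have hd := h.hd
  have hs := h.hs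
  have b1 : |f1 a b c d| ≤ 1 / 2 := by
    unfold f1
    rw [abs_le]
    constructor <;> linarith
  have b2 : |f2 a b c d| ≤ 1 / 2 := by
    unfold f2
    rw [abs_le]
    constructor <;> linarith
  have b3 : |f3 a b c d| ≤ 1 / 2 := by
    unfold f3
    rw [abs_le]
    constructor <;> linarith
  obtain ⟨x, hx⟩ : ∃ x, x = f1 a b c d := ⟨_, rfl⟩
  obtain ⟨y, hy⟩ : ∃ y, y = f2 a b c d := ⟨_, rfl⟩
  obtain ⟨z, hz⟩ : ∃ z, z = f3 a b c d := ⟨_, rfl⟩
  rw [← hx] at b1
  rw [← hy] at b2
  rw [← hz] at b3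
  rw [← hx, ← hy, ← hz]
  unfold pii sig1
  have k1 : x * y * z ≤ (1 / 2) * (|x| * |y|) := by
    have : x * y * z ≤ |x * y * z| := le_abs_self _
    rw [abs_mul, abs_mul] at this
    have h2 : |x| * |y| * |z| ≤ |x| * |y| * (1 / 2) :=
      mul_le_mul_of_nonneg_left b3 (by positivity)
    linarith
  have k2 : x * y * z ≤ (1 / 2) * (|x| * |z|) := by
    have : x * y * z ≤ |x * y * z| := le_abs_self _
    rw [abs_mul, abs_mul] at this
    have h2 : |x| * |z| * |y| ≤ |x| * |z| * (1 / 2) :=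
      mul_le_mul_of_nonneg_left b2 (by positivity)
    linarith
  have k3 : x * y * z ≤ (1 / 2) * (|y| * |z|) := by
    have : x * y * z ≤ |x * y * z| := le_abs_self _
    rw [abs_mul, abs_mul] at this
    have h2 : |y| * |z| * |x| ≤ |y| * |z| * (1 / 2) :=
      mul_le_mul_of_nonneg_left b1 (by positivity)
    linarith
  have s1 : |x| ^ 2 = x ^ 2 := sq_abs x
  have s2 : |y| ^ 2 = y ^ 2 := sq_abs y
  have s3 : |z| ^ 2 = z ^ 2 := sq_abs z
  nlinarith [sq_nonneg (|x| - |y|), sq_nonneg (|x| - |z|), sq_nonneg (|y| - |z|)]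

theorem cls_alg {lam A B C : ℝ} (h0 : 0 ≤ lam) (h1 : lam ≤ 1) (hA : 0 ≤ A) (hC : 0 ≤ C)
    (hp : 6 * B ≤ A) : lam ^ 3 * fI A B C ≤ fI (lam ^ 2 * A) (lam ^ 3 * B) (lam ^ 4 * C) := by
  have hbr : 0 ≤ (46 / 25) * A ^ 2 + (4 / 3) * C - (16 / 3) * (1 + lam) * (A * B) := by
    rcases le_total B 0 with hB | hB
    · have : A * B ≤ 0 := mul_nonpos_of_nonneg_of_nonpos hA hB
      have h2 : (16 / 3) * (1 + lam) * (A * B) ≤ 0 :=
        mul_nonpos_of_nonneg_of_nonpos (by positivity) this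
      nlinarith [sq_nonneg A]
    · have h3 : A * B ≤ A * (A / 6) := mul_le_mul_of_nonneg_left (by linarith) hA
      have h4 : 0 ≤ A * B := mul_nonneg hA hB
      have h5 : (16 / 3) * (1 + lam) * (A * B) ≤ (16 / 3) * 2 * (A * B) :=
        mul_le_mul_of_nonneg_right (by linarith) h4
      nlinarith [sq_nonneg A]
  have hfin : 0 ≤ lam ^ 3 * (1 - lam) *
      ((46 / 25) * A ^ 2 + (4 / 3) * C - (16 / 3) * (1 + lam) * (A * B)) := by
    have : 0 ≤ 1 - lam := by linarith
    positivity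
  unfold fI
  nlinarith [hfin]

theorem chanOK_T {lam : ℝ} (h0 : 0 ≤ lam) (h1 : lam ≤ 1) : ChanOK fT fT Simp lam where
  h0 := h0
  h1 := h1
  msg := by
    intro a b c d h
    have ha := h.ha
    have hb := h.hb
    have hc := h.hc
    have hd := h.hd
    have hs := h.hs
    have key : ∀ x : ℝ, 0 ≤ x → 0 ≤ chanPt lam x := by
      intro x hx
      unfold chanPt
      have : 0 ≤ lam * x := by positivity
      linarith
    refine ⟨key a ha, key b hb, key c hc, key d hd, ?_⟩
    unfold chanPt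
    linear_combination lam * hs
  cls := by
    intro a b c d h
    have e1 : f1 (chanPt lam a) (chanPt lam b) (chanPt lam c) (chanPt lam d) = lam * f1 a b c d := by
      unfold f1 chanPt
      ring
    have e2 : f2 (chanPt lam a) (chanPt lam b) (chanPt lam c) (chanPt lam d) = lam * f2 a b c d := by
      unfold f2 chanPt
      ring
    have e3 : f3 (chanPt lam a) (chanPt lam b) (chanPt lam c) (chanPt lam d) = lam * f3 a b c d := by
      unfold f3 chanPt
      ring
    have hp := pii_le_sig1 h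
    unfold fT
    rw [e1, e2, e3]
    have s1 : ∀ x y z : ℝ, sig1 (lam * x) (lam * y) (lam * z) = lam ^ 2 * sig1 x y z := by
      intro x y z
      unfold sig1
      ring
    have s2 : ∀ x y z : ℝ, pii (lam * x) (lam * y) (lam * z) = lam ^ 3 * pii x y z := by
      intro x y z
      unfold pii
      ring
    have s3 : ∀ x y z : ℝ, sig2 (lam * x) (lam * y) (lam * z) = lam ^ 4 * sig2 x y z := by
      intro x y z
      unfold sig2
      ring
    rw [s1, s2, s3]
    have hA : 0 ≤ sig1 (f1 a b c d) (f2 a b c d) (f3 a b c d) := by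
      unfold sig1
      positivity
    have hC : 0 ≤ sig2 (f1 a b c d) (f2 a b c d) (f3 a b c d) := by
      unfold sig2
      positivity
    exact cls_alg h0 h1 hA hC hp

end Vale.Agent.Lib.P154Q4.TT
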