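import Vale.Agent.Lib.P154Q4.TT.Base

/-!
The class function of the full simplex kernel of the four-state channel.
-/

namespace Vale.Agent.Lib.P154Q4.TT

open Vale.Agent.Lib.P154Q4.Kron Vale.Agent.Lib.P154Q4.Kron.Ex Vale.Agent.Lib.P154Q4.Cells Vale.Agent.Lib.P154Q4.K2

/-- the class function in the three invariants -/
noncomputable def fI (A B C : ℝ) : ℝ := 8 * B + (-46 / 25) * A ^ 2 + (-4 / 3) * C + (16 / 3) * (A * B)

/-- the class function of a quadruple -/
noncomputable def fT (a b c d : ℝ) : ℝ :=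
  fI (sig1 (f1 a b c d) (f2 a b c d) (f3 a b c d)) (pii (f1 a b c d) (f2 a b c d) (f3 a b c d))
    (sig2 (f1 a b c d) (f2 a b c d) (f3 a b c d))

theorem bd_fT : Bd fT := by
  unfold fT fI
  exact (((bd_pii.smul _).add ((bd_sig1.pow 2).smul _)).add (bd_sig2.smul _)).add
    ((bd_sig1.mul bd_pii).smul _)

theorem fT_centre : 0 ≤ fT (1 / 4) (1 / 4) (1 / 4) (1 / 4) := by
  unfold fT fI sig1 pii sig2 f1 f2 f3
  norm_num

theorem fT_vertex : 0 ≤ vertexEx fT := by
  unfold vertexEx fT fI sig1 pii sig2 f1 f2 f3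
  norm_num

end Vale.Agent.Lib.P154Q4.TT
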