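import Vale.Agent.Lib.P154Q4.TT.K1Data

/-!
Reflective certificates of nonnegativity of the multipliers of the first kernel.
-/

namespace Vale.Agent.Lib.P154Q4.TT.K1

open Vale.Agent.Lib.P154Q4.Kron Vale.Agent.Lib.P154Q4.Kron.Ex Vale.Agent.Lib.P154Q4.Cells Vale.Agent.Lib.P154Q4.K2

/-- subdivision and exponents for the multiplier on the second point -/
def trA : CT := (CT.leaf [42, 42, 42, 42, 363, 2929])

theorem okA : treeOK TA 8 0 10 trA K2.S0 K2.Z0 = true := by decide +kernel

/-- subdivision and exponents for the multiplier on the first point -/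
def trB : CT := (CT.leaf [42, 42, 42, 42, 363, 2929])

theorem okB : treeOK TB 8 0 10 trB K2.S0 K2.Z0 = true := by decide +kernel

end Vale.Agent.Lib.P154Q4.TT.K1
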