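import Vale.Agent.Lib.P154Q4.TT.K1Data

/-!
Reflective certificate of nonnegativity of the difference polynomial of the first kernel.
-/

namespace Vale.Agent.Lib.P154Q4.TT.K1

open Vale.Agent.Lib.P154Q4.Kron Vale.Agent.Lib.P154Q4.Kron.Ex Vale.Agent.Lib.P154Q4.Cells Vale.Agent.Lib.P154Q4.K2

/-- subdivision and exponents for the difference polynomial -/
def trK : CT := (CT.leaf [84, 740, 5986, 37459, 337115, 2734362])

theorem okK : treeOK TK 8 8 10 trK K2.S0 K2.S0 = true := by decide +kernel

end Vale.Agent.Lib.P154Q4.TT.K1
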