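import Vale.Agent.Lib.P154Q4.TT.K1CertId
import Vale.Agent.Lib.P154Q4.TT.K1CertA
import Vale.Agent.Lib.P154Q4.TT.K1CertP

/-!
The first kernel of the full simplex: upper bound for the weighted second moment, averaged
over the arrangements of the message.
-/

namespace Vale.Agent.Lib.P154Q4.TT.K1

open Vale.Agent.Lib.P154Q4.Kron Vale.Agent.Lib.P154Q4.Kron.Ex Vale.Agent.Lib.P154Q4.Cells Vale.Agent.Lib.P154Q4.K2

/-- the multiplier on the second point -/
noncomputable def A1m (p q r s : ℝ) : ℝ :=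
  Pval TA (f1 p q r s) (f2 p q r s) (f3 p q r s) 0 0 0 / 8

/-- the multiplier on the first point -/
noncomputable def B1m (a b c d : ℝ) : ℝ :=
  Pval TB (f1 a b c d) (f2 a b c d) (f3 a b c d) 0 0 0 / 8

theorem nonneg_sym (T : Terms) (hok : ∀ x y z, InCell K2.S0 x y z → 0 ≤ Pval T x y z 0 0 0) :
    ∀ a b c d, Simp a b c d → 0 ≤ Pval T (f1 a b c d) (f2 a b c d) (f3 a b c d) 0 0 0 := by
  refine wlog4 _ ?_ ?_ ?_ ?_
  · intro a b c d h h'
    obtain ⟨i1, i2, i3⟩ := inv12 a b c d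
    have h2 := h h'.swap
    rw [Pval_congr T i1.symm i2.symm i3.symm rfl rfl rfl]
    exact h2
  · intro a b c d h h'
    obtain ⟨i1, i2, i3⟩ := inv23 a b c d
    have h2 := h h'.swap23
    rw [Pval_congr T i1.symm i2.symm i3.symm rfl rfl rfl]
    exact h2
  · intro a b c d h h'
    obtain ⟨i1, i2, i3⟩ := inv34 a b c d
    have h2 := h h'.swap34
    rw [Pval_congr T i1.symm i2.symm i3.symm rfl rfl rfl]
    exact h2
  · intro a b c d hab hbc hcd h'
    exact hok _ _ _ (inCell_S0 hab hbc hcd h'.hd h'.hs)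

theorem A1m_nonneg : ∀ p q r s, Simp p q r s → 0 ≤ A1m p q r s := by
  intro p q r s h
  have := nonneg_sym TA (fun x y z hc => treeOK_sound TA 8 0 10 trA K2.S0 K2.Z0 okA x y z 0 0 0 hc inCell_Z0) p q r s h
  unfold A1m
  positivity

theorem B1m_nonneg : ∀ a b c d, Simp a b c d → 0 ≤ B1m a b c d := by
  intro p q r s h
  have := nonneg_sym TB (fun x y z hc => treeOK_sound TB 8 0 10 trB K2.S0 K2.Z0 okB x y z 0 0 0 hc inCell_Z0) p q r s h
  unfold B1m
  positivity

/-- a polynomial nonnegative on the product of the fundamental cells is nonnegative on the product of the simplices -/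
theorem pair_sym (T : Terms) (hok : ∀ x y z x' y' z', InCell K2.S0 x y z → InCell K2.S0 x' y' z' → 0 ≤ Pval T x y z x' y' z')
    (a b c d p q r s : ℝ) (h : Simp a b c d) (h' : Simp p q r s) :
    0 ≤ Pval T (f1 a b c d) (f2 a b c d) (f3 a b c d) (f1 p q r s) (f2 p q r s) (f3 p q r s) := by
  revert p q r s
  have hmain : ∀ a b c d, Simp a b c d → ∀ p q r s, Simp p q r s →
      0 ≤ Pval T (f1 a b c d) (f2 a b c d) (f3 a b c d) (f1 p q r s) (f2 p q r s) (f3 p q r s) := by
    refine wlog4 _ ?_ ?_ ?_ ?_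
    · intro a b c d h h' p q r s hm
      obtain ⟨i1, i2, i3⟩ := inv12 a b c d
      rw [Pval_congr T i1.symm i2.symm i3.symm rfl rfl rfl]
      exact h h'.swap p q r s hm
    · intro a b c d h h' p q r s hm
      obtain ⟨i1, i2, i3⟩ := inv23 a b c d
      rw [Pval_congr T i1.symm i2.symm i3.symm rfl rfl rfl]
      exact h h'.swap23 p q r s hm
    · intro a b c d h h' p q r s hm
      obtain ⟨i1, i2, i3⟩ := inv34 a b c d
      rw [Pval_congr T i1.symm i2.symm i3.symm rfl rfl rfl]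
      exact h h'.swap34 p q r s hm
    · intro a b c d hab hbc hcd h'
      refine wlog4 _ ?_ ?_ ?_ ?_
      · intro p q r s h2 hm
        obtain ⟨i1, i2, i3⟩ := inv12 p q r s
        rw [Pval_congr T rfl rfl rfl i1.symm i2.symm i3.symm]
        exact h2 hm.swap
      · intro p q r s h2 hm
        obtain ⟨i1, i2, i3⟩ := inv23 p q r s
        rw [Pval_congr T rfl rfl rfl i1.symm i2.symm i3.symm]
        exact h2 hm.swap23
      · intro p q r s h2 hm
        obtain ⟨i1, i2, i3⟩ := inv34 p q r s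
        rw [Pval_congr T rfl rfl rfl i1.symm i2.symm i3.symm]
        exact h2 hm.swap34
      · intro p q r s hpq hqr hrs hm
        exact hok _ _ _ _ _ _
          (inCell_S0 hab hbc hcd h'.hd h'.hs) (inCell_S0 hpq hqr hrs hm.hd hm.hs)
  intro p q r s h'
  exact hmain a b c d h p q r s h'

theorem K_nonneg (a b c d p q r s : ℝ) (h : Simp a b c d) (h' : Simp p q r s) :
    0 ≤ Pval TK (f1 a b c d) (f2 a b c d) (f3 a b c d) (f1 p q r s) (f2 p q r s) (f3 p q r s) :=
  pair_sym TK (fun x y z x' y' z' h1 h2 => treeOK_sound TK 8 8 10 trK K2.S0 K2.S0 okK x y z x' y' z' h1 h2)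
    a b c d p q r s h h'

/-- the real identity obtained from the certificate -/
theorem id_real {a b c d p q r s : ℝ} (h1 : a + b + c + d = 1) (h2 : p + q + r + s = 1) :
    25 * (24 * (8388608 * avg24 (fun p q r s => G (4 * a * (4 * p)) (4 * b * (4 * q))
        (4 * c * (4 * r)) (4 * d * (4 * s))) p q r s))
      + (-5033164800) * (sig1 (f1 a b c d) (f2 a b c d) (f3 a b c d)
          + sig1 (f1 p q r s) (f2 p q r s) (f3 p q r s))
      + 314572800 * (sig1 (f1 a b c d) (f2 a b c d) (f3 a b c d)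
          * (sig1 (f1 p q r s) (f2 p q r s) (f3 p q r s)
          * (sig1 (f1 a b c d) (f2 a b c d) (f3 a b c d)
            + sig1 (f1 p q r s) (f2 p q r s) (f3 p q r s))))
      + 4194304 * Pval TK (f1 a b c d) (f2 a b c d) (f3 a b c d) (f1 p q r s) (f2 p q r s) (f3 p q r s)
      + 8388608 * (Pval TA (f1 p q r s) (f2 p q r s) (f3 p q r s) 0 0 0 * (75 * fT a b c d))
      + 8388608 * (Pval TB (f1 a b c d) (f2 a b c d) (f3 a b c d) 0 0 0 * (75 * fT p q r s)) = 0 := by
  let Y : ℕ → ℝ := fun i =>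
    match i with
    | 0 => f1 p q r s
    | 1 => f2 p q r s
    | 2 => f3 p q r s
    | 3 => f1 a b c d
    | 4 => f2 a b c d
    | _ => f3 a b c d
  have hz := certZZ_sound 6 _ idEx okId Y
  have v0 : Y 0 = f1 p q r s := rfl
  have v1 : Y 1 = f2 p q r s := rfl
  have v2 : Y 2 = f3 p q r s := rfl
  have v3 : Y 3 = f1 a b c d := rfl
  have v4 : Y 4 = f2 a b c d := rfl
  have v5 : Y 5 = f3 a b c d := rfl
  have eA1 : A1.eval Y = 4 * a := by
    simp only [K2.A1, Ex.eval, v3, v4, v5, f1, f2, f3]; push_cast; linarith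
  have eA2 : A2.eval Y = 4 * b := by
    simp only [K2.A2, Ex.eval, v3, v4, v5, f1, f2, f3]; push_cast; linarith
  have eA3 : A3.eval Y = 4 * c := by
    simp only [K2.A3, Ex.eval, v3, v4, v5, f1, f2, f3]; push_cast; linarith
  have eA4 : A4.eval Y = 4 * d := by
    simp only [K2.A4, Ex.eval, v3, v4, v5, f1, f2, f3]; push_cast; linarith
  have eP1 : P1.eval Y = 4 * p := by
    simp only [K2.P1, Ex.eval, v0, v1, v2, f1, f2, f3]; push_cast; linarith
  have eP2 : P2.eval Y = 4 * q := by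
    simp only [K2.P2, Ex.eval, v0, v1, v2, f1, f2, f3]; push_cast; linarith
  have eP3 : P3.eval Y = 4 * r := by
    simp only [K2.P3, Ex.eval, v0, v1, v2, f1, f2, f3]; push_cast; linarith
  have eP4 : P4.eval Y = 4 * s := by
    simp only [K2.P4, Ex.eval, v0, v1, v2, f1, f2, f3]; push_cast; linarith
  have hGg : ∀ x y z w : Ex, (Gg x y z w).eval Y
      = (fun x y z w => 8388608 * G (4 * a * x) (4 * b * y) (4 * c * z) (4 * d * w))
          (x.eval Y) (y.eval Y) (z.eval Y) (w.eval Y) := by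
    intro x y z w
    simp only [Gg, eval_GEx, Ex.eval, eA1, eA2, eA3, eA4]
  have hs := eval_sum24 Y Gg (fun x y z w => 8388608 * G (4 * a * x) (4 * b * y) (4 * c * z) (4 * d * w))
    hGg P1 P2 P3 P4
  have hFs : ∀ m, (Fs m).eval Y = monoVal (sig1 (f1 a b c d) (f2 a b c d) (f3 a b c d))
      (pii (f1 a b c d) (f2 a b c d) (f3 a b c d)) (sig2 (f1 a b c d) (f2 a b c d) (f3 a b c d)) m := by
    intro m
    simp only [Fs, eval_monoEx, eval_sig1Ex, eval_piiEx, eval_sig2Ex, Ex.eval, v3, v4, v5]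
  have hFt : ∀ m, (Ft m).eval Y = monoVal (sig1 (f1 p q r s) (f2 p q r s) (f3 p q r s))
      (pii (f1 p q r s) (f2 p q r s) (f3 p q r s)) (sig2 (f1 p q r s) (f2 p q r s) (f3 p q r s)) m := by
    intro m
    simp only [Ft, eval_monoEx, eval_sig1Ex, eval_piiEx, eval_sig2Ex, Ex.eval, v0, v1, v2]
  have hF0 : ∀ m, (F0 m).eval Y = monoVal (sig1 0 0 0) (pii 0 0 0) (sig2 0 0 0) m := by
    intro m
    simp only [F0, eval_monoEx]
    simp [Ex.eval, sig1, pii, sig2]
  have ePP := eval_outerEx Y Fs Ft _ _ hFs hFt TK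
  have ePA := eval_outerEx Y Ft F0 _ _ hFt hF0 TA
  have ePB := eval_outerEx Y Fs F0 _ _ hFs hF0 TB
  have ef : fxEx.eval Y = 75 * fT a b c d := by
    simp only [fxEx, Ex.eval, eval_sig1Ex, eval_piiEx, eval_sig2Ex, v3, v4, v5, fT, fI]
    push_cast
    ring
  have eg : fyEx.eval Y = 75 * fT p q r s := by
    simp only [fyEx, Ex.eval, eval_sig1Ex, eval_piiEx, eval_sig2Ex, v0, v1, v2, fT, fI]
    push_cast
    ring
  have esx : sx.eval Y = sig1 (f1 a b c d) (f2 a b c d) (f3 a b c d) := by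
    simp only [sx, eval_sig1Ex, Ex.eval, v3, v4, v5]
  have esy : sy.eval Y = sig1 (f1 p q r s) (f2 p q r s) (f3 p q r s) := by
    simp only [sy, eval_sig1Ex, Ex.eval, v0, v1, v2]
  have ehz := hz
  unfold idEx at ehz
  simp only [Ex.eval] at ehz
  rw [hs, ePP, ePA, ePB, ef, eg, eP1, eP2, eP3, eP4, esx, esy] at ehz
  push_cast at ehz
  have hav : avg24 (fun x y z w => 8388608 * G (4 * a * x) (4 * b * y) (4 * c * z) (4 * d * w))
        (4 * p) (4 * q) (4 * r) (4 * s)
      = 8388608 * avg24 (fun p q r s => G (4 * a * (4 * p)) (4 * b * (4 * q)) (4 * c * (4 * r))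
        (4 * d * (4 * s))) p q r s := by
    simp only [avg24]
    ring
  rw [hav] at ehz
  unfold Pval
  linarith

/-- the first kernel on the product of the simplices -/
theorem k1_main {a b c d p q r s : ℝ} (h : Simp a b c d) (h' : Simp p q r s) :
    avg24 (fun p q r s => wt I2 a b c d p q r s) p q r s
      ≤ I2 a b c d + I2 p q r s - (1 / 16) * I2 a b c d * I2 p q r s * (I2 a b c d + I2 p q r s)
        - A1m p q r s * fT a b c d - B1m a b c d * fT p q r s := by
  have hid := id_real h.hs h'.hs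
  have hP := K_nonneg a b c d p q r s h h'
  have hle : avg24 (fun p q r s => wt I2 a b c d p q r s) p q r s
      ≤ avg24 (fun p q r s => G (4 * a * (4 * p)) (4 * b * (4 * q)) (4 * c * (4 * r))
        (4 * d * (4 * s))) p q r s := by
    have i0 := wt_le_G (p := p) (q := q) (r := r) (s := s) h ⟨h'.ha, h'.hb, h'.hc, h'.hd, by linarith [h'.hs]⟩
    have i1 := wt_le_G (p := p) (q := q) (r := s) (s := r) h ⟨h'.ha, h'.hb, h'.hd, h'.hc, by linarith [h'.hs]⟩
    have i2 := wt_le_G (p := p) (q := r) (r := q) (s := s) h ⟨h'.ha, h'.hc, h'.hb, h'.hd, by linarith [h'.hs]⟩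
    have i3 := wt_le_G (p := p) (q := r) (r := s) (s := q) h ⟨h'.ha, h'.hc, h'.hd, h'.hb, by linarith [h'.hs]⟩
    have i4 := wt_le_G (p := p) (q := s) (r := q) (s := r) h ⟨h'.ha, h'.hd, h'.hb, h'.hc, by linarith [h'.hs]⟩
    have i5 := wt_le_G (p := p) (q := s) (r := r) (s := q) h ⟨h'.ha, h'.hd, h'.hc, h'.hb, by linarith [h'.hs]⟩
    have i6 := wt_le_G (p := q) (q := p) (r := r) (s := s) h ⟨h'.hb, h'.ha, h'.hc, h'.hd, by linarith [h'.hs]⟩
    have i7 := wt_le_G (p := q) (q := p) (r := s) (s := r) h ⟨h'.hb, h'.ha, h'.hd, h'.hc, by linarith [h'.hs]⟩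
    have i8 := wt_le_G (p := q) (q := r) (r := p) (s := s) h ⟨h'.hb, h'.hc, h'.ha, h'.hd, by linarith [h'.hs]⟩
    have i9 := wt_le_G (p := q) (q := r) (r := s) (s := p) h ⟨h'.hb, h'.hc, h'.hd, h'.ha, by linarith [h'.hs]⟩
    have i10 := wt_le_G (p := q) (q := s) (r := p) (s := r) h ⟨h'.hb, h'.hd, h'.ha, h'.hc, by linarith [h'.hs]⟩
    have i11 := wt_le_G (p := q) (q := s) (r := r) (s := p) h ⟨h'.hb, h'.hd, h'.hc, h'.ha, by linarith [h'.hs]⟩
    have i12 := wt_le_G (p := r) (q := p) (r := q) (s := s) h ⟨h'.hc, h'.ha, h'.hb, h'.hd, by linarith [h'.hs]⟩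
    have i13 := wt_le_G (p := r) (q := p) (r := s) (s := q) h ⟨h'.hc, h'.ha, h'.hd, h'.hb, by linarith [h'.hs]⟩
    have i14 := wt_le_G (p := r) (q := q) (r := p) (s := s) h ⟨h'.hc, h'.hb, h'.ha, h'.hd, by linarith [h'.hs]⟩
    have i15 := wt_le_G (p := r) (q := q) (r := s) (s := p) h ⟨h'.hc, h'.hb, h'.hd, h'.ha, by linarith [h'.hs]⟩
    have i16 := wt_le_G (p := r) (q := s) (r := p) (s := q) h ⟨h'.hc, h'.hd, h'.ha, h'.hb, by linarith [h'.hs]⟩
    have i17 := wt_le_G (p := r) (q := s) (r := q) (s := p) h ⟨h'.hc, h'.hd, h'.hb, h'.ha, by linarith [h'.hs]⟩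
    have i18 := wt_le_G (p := s) (q := p) (r := q) (s := r) h ⟨h'.hd, h'.ha, h'.hb, h'.hc, by linarith [h'.hs]⟩
    have i19 := wt_le_G (p := s) (q := p) (r := r) (s := q) h ⟨h'.hd, h'.ha, h'.hc, h'.hb, by linarith [h'.hs]⟩
    have i20 := wt_le_G (p := s) (q := q) (r := p) (s := r) h ⟨h'.hd, h'.hb, h'.ha, h'.hc, by linarith [h'.hs]⟩
    have i21 := wt_le_G (p := s) (q := q) (r := r) (s := p) h ⟨h'.hd, h'.hb, h'.hc, h'.ha, by linarith [h'.hs]⟩
    have i22 := wt_le_G (p := s) (q := r) (r := p) (s := q) h ⟨h'.hd, h'.hc, h'.ha, h'.hb, by linarith [h'.hs]⟩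
    have i23 := wt_le_G (p := s) (q := r) (r := q) (s := p) h ⟨h'.hd, h'.hc, h'.hb, h'.ha, by linarith [h'.hs]⟩
    unfold avg24
    linarith
  rw [I2_eq h.hs, I2_eq h'.hs]
  unfold A1m B1m
  refine le_trans hle ?_
  nlinarith [hid, hP]

theorem bd_A1m : Bd A1m := by
  have := (bd_Pval0 TA).smul (1 / 8)
  refine (funext (fun a => funext (fun b => funext (fun c => funext (fun d => ?_)))) : A1m = _) ▸ this
  unfold A1m
  ring

theorem bd_B1m : Bd B1m := by
  have := (bd_Pval0 TB).smul (1 / 8)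
  refine (funext (fun a => funext (fun b => funext (fun c => funext (fun d => ?_)))) : B1m = _) ▸ this
  unfold B1m
  ring

end Vale.Agent.Lib.P154Q4.TT.K1
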