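import Vale.Agent.Lib.P154Q4.TT.K1Id

/-!
Reflective certificate of the identity of the first kernel.
-/

namespace Vale.Agent.Lib.P154Q4.TT.K1

open Vale.Agent.Lib.P154Q4.Kron Vale.Agent.Lib.P154Q4.Kron.Ex Vale.Agent.Lib.P154Q4.Cells Vale.Agent.Lib.P154Q4.K2

/-- the certificate of the identity -/
theorem okId : certZZ 6 (nth [75, 660, 5340, 42780, 385006, 3122814]) idEx = true := by
  decide +kernel

end Vale.Agent.Lib.P154Q4.TT.K1
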