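import Vale.Agent.Lib.P154Q4.TT.K1Point

/-!
The polynomial identity of the first kernel as an integer expression.
-/

namespace Vale.Agent.Lib.P154Q4.TT.K1

open Vale.Agent.Lib.P154Q4.Kron Vale.Agent.Lib.P154Q4.Kron.Ex Vale.Agent.Lib.P154Q4.Cells Vale.Agent.Lib.P154Q4.K2

/-- coefficients of the polynomial lower bound for the inverse, in the shifted sum -/
def cL : List ℤ := [1048576, (-262144), 65536, (-16384), 3296, (-384), 13]

/-- the surrogate in four expressions, scaled by the common denominator -/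
def GEx (x1 x2 x3 x4 : Ex) : Ex :=
  add (mul (c 1572864) (add x1 (add x2 (add x3 x4))))
    (mul (c (-1)) (mul (add (mul x1 x2) (add (mul x1 x3) (add (mul x1 x4) (add (mul x2 x3)
          (add (mul x2 x4) (mul x3 x4))))))
        (polyEx (add x1 (add x2 (add x3 (add x4 (c (-4)))))) cL)))

theorem polyV_cL (T : ℝ) : polyV T cL = 1048576 * L1 (T / 4) := by
  simp only [cL, polyV, L1]
  push_cast
  ring

theorem eval_GEx (y : ℕ → ℝ) (x1 x2 x3 x4 : Ex) :
    (GEx x1 x2 x3 x4).eval y
      = 8388608 * G (x1.eval y) (x2.eval y) (x3.eval y) (x4.eval y) := by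
  simp only [GEx, Ex.eval, eval_polyEx, polyV_cL, G]
  have e : (x1.eval y + (x2.eval y + (x3.eval y + (x4.eval y + ((-4 : ℤ) : ℝ))))) / 4
      = (x1.eval y + x2.eval y + x3.eval y + x4.eval y) / 4 - 1 := by
    push_cast
    ring
  rw [e]
  push_cast
  ring

/-- the surrogate at one arrangement -/
def Gg (p q r s : Ex) : Ex := GEx (mul A1 p) (mul A2 q) (mul A3 r) (mul A4 s)

/-- the squared length at the first point -/
def sx : Ex := sig1Ex (v 3) (v 4) (v 5)

/-- the squared length at the second point -/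
def sy : Ex := sig1Ex (v 0) (v 1) (v 2)

/-- the scaled class function at the first point -/
def fxEx : Ex :=
  add (mul (c (600)) (piiEx (v 3) (v 4) (v 5)))
    (add (mul (c (-138)) (mul (sig1Ex (v 3) (v 4) (v 5)) (sig1Ex (v 3) (v 4) (v 5))))
      (add (mul (c (-100)) (sig2Ex (v 3) (v 4) (v 5)))
        (mul (c (400)) (mul (sig1Ex (v 3) (v 4) (v 5)) (piiEx (v 3) (v 4) (v 5))))))

/-- the scaled class function at the second point -/
def fyEx : Ex :=
  add (mul (c (600)) (piiEx (v 0) (v 1) (v 2)))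
    (add (mul (c (-138)) (mul (sig1Ex (v 0) (v 1) (v 2)) (sig1Ex (v 0) (v 1) (v 2))))
      (add (mul (c (-100)) (sig2Ex (v 0) (v 1) (v 2)))
        (mul (c (400)) (mul (sig1Ex (v 0) (v 1) (v 2)) (piiEx (v 0) (v 1) (v 2))))))

/-- the vanishing expression of the identity -/
def idEx : Ex :=
  add (mul (c 25) (sum24 Gg P1 P2 P3 P4))
    (add (mul (c (-5033164800)) (add sx sy))
      (add (mul (c 314572800) (mul sx (mul sy (add sx sy))))
        (add (mul (c 4194304) (outerEx Fs Ft TK))
          (add (mul (c 8388608) (mul (outerEx Ft F0 TA) fxEx))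
            (mul (c 8388608) (mul (outerEx Fs F0 TB) fyEx))))))

end Vale.Agent.Lib.P154Q4.TT.K1
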