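import Vale.Agent.Lib.P154Q4.TT.K1Data

/-!
Pointwise polynomial upper bound of the weighted second moment of the first kernel.
-/

namespace Vale.Agent.Lib.P154Q4.TT.K1

open Vale.Agent.Lib.P154Q4.K2

/-- polynomial lower bound for the inverse -/
noncomputable def L1 (t : ℝ) : ℝ := (1) * t ^ 0 + (-1) * t ^ 1 + (1) * t ^ 2 + (-1) * t ^ 3 + (103 / 128) * t ^ 4 + (-3 / 8) * t ^ 5 + (13 / 256) * t ^ 6

/-- the cofactor of the bound for the inverse -/
noncomputable def qL (t : ℝ) : ℝ := (50) * t ^ 0 + (-110) * t ^ 1 + (83) * t ^ 2 + (-13) * t ^ 3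

theorem qL_nonneg (t : ℝ) (h3 : -1 ≤ t) (h4 : t ≤ 3) : 0 ≤ qL t := by
  unfold qL
  nlinarith [mul_nonneg (sub_nonneg.2 h4) (sq_nonneg (t - 4 / 5)), sq_nonneg (t - 4 / 5)]

theorem L1_le (t : ℝ) (h3 : -1 < t) (h4 : t ≤ 3) : L1 t ≤ 1 / (1 + t) := by
  have hD : 0 < 1 + t := by linarith
  have hq := qL_nonneg t (by linarith) h4
  have key : 1 / (1 + t) - L1 t = t ^ 4 * qL t / (256 * (1 + t)) := by
    unfold L1 qL
    field_simp
    ring
  have hpos : 0 ≤ t ^ 4 * qL t / (256 * (1 + t)) := by positivity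
  linarith

/-- the surrogate as a function of four products -/
noncomputable def G (x1 x2 x3 x4 : ℝ) : ℝ :=
  (3 / 4) * ((x1 + x2 + x3 + x4) / 4)
    - (1 / 8) * (x1 * x2 + x1 * x3 + x1 * x4 + x2 * x3 + x2 * x4 + x3 * x4)
      * L1 ((x1 + x2 + x3 + x4) / 4 - 1)

/-- the exact weighted second moment -/
theorem wt_core (n1 n2 n3 n4 : ℝ) (hS : 0 < n1 + n2 + n3 + n4) :
    4 * (n1 + n2 + n3 + n4) * I2 (n1 / (n1 + n2 + n3 + n4)) (n2 / (n1 + n2 + n3 + n4))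
        (n3 / (n1 + n2 + n3 + n4)) (n4 / (n1 + n2 + n3 + n4))
      = (3 / 4) * (4 * (n1 + n2 + n3 + n4))
        - 32 * (n1 * n2 + n1 * n3 + n1 * n4 + n2 * n3 + n2 * n4 + n3 * n4)
          / (4 * (n1 + n2 + n3 + n4)) := by
  unfold I2
  field_simp
  ring

/-- the pointwise upper bound for nonnegative products of bounded total mass -/
theorem le_G (n1 n2 n3 n4 : ℝ) (h1 : 0 ≤ n1) (h2 : 0 ≤ n2) (h3 : 0 ≤ n3) (h4 : 0 ≤ n4)
    (hS' : n1 + n2 + n3 + n4 ≤ 1) :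
    4 * (n1 + n2 + n3 + n4) * I2 (n1 / (n1 + n2 + n3 + n4)) (n2 / (n1 + n2 + n3 + n4))
        (n3 / (n1 + n2 + n3 + n4)) (n4 / (n1 + n2 + n3 + n4))
      ≤ G (16 * n1) (16 * n2) (16 * n3) (16 * n4) := by
  have hS0 : 0 ≤ n1 + n2 + n3 + n4 := by positivity
  rcases hS0.eq_or_lt with hz | hpos
  · have z1 : n1 = 0 := by linarith
    have z2 : n2 = 0 := by linarith
    have z3 : n3 = 0 := by linarith
    have z4 : n4 = 0 := by linarith
    subst z1 z2 z3 z4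
    unfold G
    norm_num
  rw [wt_core n1 n2 n3 n4 hpos]
  have e2 : (16 * n1 * (16 * n2) + 16 * n1 * (16 * n3) + 16 * n1 * (16 * n4)
        + 16 * n2 * (16 * n3) + 16 * n2 * (16 * n4) + 16 * n3 * (16 * n4))
      = 256 * (n1 * n2 + n1 * n3 + n1 * n4 + n2 * n3 + n2 * n4 + n3 * n4) := by ring
  have e3 : (16 * n1 + 16 * n2 + 16 * n3 + 16 * n4) / 4 = 4 * (n1 + n2 + n3 + n4) := by ring
  unfold G
  rw [e2, e3]
  obtain ⟨E, hE⟩ : ∃ E, E = n1 * n2 + n1 * n3 + n1 * n4 + n2 * n3 + n2 * n4 + n3 * n4 := ⟨_, rfl⟩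
  obtain ⟨D, hD⟩ : ∃ D, D = 4 * (n1 + n2 + n3 + n4) := ⟨_, rfl⟩
  have hE0 : 0 ≤ E := by rw [hE]; positivity
  rw [← hE, ← hD]
  have hD0 : 0 < D := by rw [hD]; linarith
  have hL := L1_le (D - 1) (by linarith) (by rw [hD]; linarith)
  have e : 1 + (D - 1) = D := by ring
  rw [e] at hL
  have hm := mul_le_mul_of_nonneg_left hL hE0
  have e4 : 32 * E / D = 32 * (E * (1 / D)) := by ring
  have e5 : 1 / 8 * (256 * E) * L1 (D - 1) = 32 * (E * L1 (D - 1)) := by ring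
  rw [e4, e5]
  linarith

/-- the surrogate dominates the weighted second moment at one arrangement -/
theorem wt_le_G {a b c d p q r s : ℝ} (h : Simp a b c d) (h' : Simp p q r s) :
    wt I2 a b c d p q r s
      ≤ G (4 * a * (4 * p)) (4 * b * (4 * q)) (4 * c * (4 * r)) (4 * d * (4 * s)) := by
  have ha := h.ha
  have hb := h.hb
  have hc := h.hc
  have hd := h.hd
  have hs1 := h.hs
  obtain ⟨hp1, hq1, hr1, hs2⟩ := h'.le_one
  have hp0 := h'.ha
  have hq0 := h'.hb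
  have hr0 := h'.hc
  have hs0 := h'.hd
  have e1 : 4 * a * (4 * p) = 16 * (a * p) := by ring
  have e2 : 4 * b * (4 * q) = 16 * (b * q) := by ring
  have e3 : 4 * c * (4 * r) = 16 * (c * r) := by ring
  have e4 : 4 * d * (4 * s) = 16 * (d * s) := by ring
  rw [e1, e2, e3, e4]
  unfold wt
  refine le_G _ _ _ _ (by positivity) (by positivity) (by positivity) (by positivity) ?_
  nlinarith [mul_le_mul_of_nonneg_left hp1 ha, mul_le_mul_of_nonneg_left hq1 hb,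
      mul_le_mul_of_nonneg_left hr1 hc, mul_le_mul_of_nonneg_left hs2 hd]

end Vale.Agent.Lib.P154Q4.TT.K1
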