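import Vale.Agent.Lib.P154Q4.TT.K2Data

/-!
Reflective certificates of nonnegativity of the multipliers of the second kernel.
-/

namespace Vale.Agent.Lib.P154Q4.TT.K2T

open Vale.Agent.Lib.P154Q4.Cells Vale.Agent.Lib.P154Q4.K2

/-- subdivision and exponents for the first multiplier -/
def trA : CT := (CT.s 2 (CT.s 1 (CT.s 0 (CT.leaf [74, 74, 74, 74, 650, 5257]) (CT.leaf [73, 73, 73, 73, 640, 5177])) (CT.leaf [64, 64, 64, 64, 560, 4527])) (CT.s 4 (CT.leaf [63, 63, 63, 63, 552, 4463]) (CT.leaf [63, 63, 63, 63, 551, 4455])))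

theorem okA : treeOK Tal 8 0 10 trA K2.S0 K2.Z0 = true := by decide +kernel

/-- subdivision and exponents for the second multiplier -/
def trB : CT := (CT.s 2 (CT.s 1 (CT.leaf [64, 64, 64, 64, 558, 4512]) (CT.leaf [62, 62, 62, 62, 542, 4381])) (CT.leaf [53, 53, 53, 53, 462, 3733]))

theorem okB : treeOK Tbe 8 0 10 trB K2.S0 K2.Z0 = true := by decide +kernel

end Vale.Agent.Lib.P154Q4.TT.K2T
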