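import Vale.Agent.Lib.P154Q4.TT.Class

/-!
A polynomial expression of small degree in one variable vanishes identically when it vanishes
after substitution of each point of a list of integers for that variable.
-/

namespace Vale.Agent.Lib.P154Q4.TT

open Vale.Agent.Lib.P154Q4.Kron Vale.Agent.Lib.P154Q4.Kron.Ex Polynomial

/-- substitution of an integer for one variable -/
def substE (i : ℕ) (a : ℤ) : Ex → Ex
  | Ex.c z => Ex.c z
  | Ex.v j => if Nat.beq j i then Ex.c a else Ex.v j
  | Ex.add x y => Ex.add (substE i a x) (substE i a y)
  | Ex.mul x y => Ex.mul (substE i a x) (substE i a y)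

/-- the expression is the constant zero -/
def isZeroC : Ex → Bool
  | Ex.c z => decide (z = 0)
  | _ => false

/-- syntactic degree in one variable -/
def degIn (i : ℕ) : Ex → ℕ
  | Ex.c _ => 0
  | Ex.v j => if Nat.beq j i then 1 else 0
  | Ex.add x y => max (degIn i x) (degIn i y)
  | Ex.mul x y => if isZeroC x then 0 else if isZeroC y then 0 else degIn i x + degIn i y

theorem beq_false_of_ne {j i : ℕ} (h : j ≠ i) : Nat.beq j i = false := by
  cases hh : Nat.beq j i with
  | false => rfl
  | true => exact absurd (Nat.eq_of_beq_eq_true hh) h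

/-- the expression as a polynomial in one variable, with the other variables fixed -/
noncomputable def toPoly (i : ℕ) (y : ℕ → ℝ) : Ex → ℝ[X]
  | Ex.c z => C (z : ℝ)
  | Ex.v j => if Nat.beq j i then X else C (y j)
  | Ex.add a b => toPoly i y a + toPoly i y b
  | Ex.mul a b => toPoly i y a * toPoly i y b

theorem eval_toPoly (i : ℕ) (y : ℕ → ℝ) (a : ℝ) (e : Ex) :
    (toPoly i y e).eval a = e.eval (Function.update y i a) := by
  induction e with
  | c z => simp [toPoly, Ex.eval]
  | v j =>
    by_cases h : j = i
    · subst h
      simp [toPoly, Ex.eval]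
    · have hb : Nat.beq j i = false := beq_false_of_ne h
      simp [toPoly, Ex.eval, hb, Function.update_of_ne h]
  | add a b iha ihb => simp [toPoly, Ex.eval, iha, ihb]
  | mul a b iha ihb => simp [toPoly, Ex.eval, iha, ihb]

theorem toPoly_zero (i : ℕ) (y : ℕ → ℝ) (a : Ex) (hz : isZeroC a = true) : toPoly i y a = 0 := by
  cases a with
  | c z =>
    have hz0 : z = 0 := by simpa [isZeroC] using hz
    simp [toPoly, hz0]
  | v j => simp [isZeroC] at hz
  | add u w => simp [isZeroC] at hz
  | mul u w => simp [isZeroC] at hz

theorem natDegree_toPoly_le (i : ℕ) (y : ℕ → ℝ) (e : Ex) : (toPoly i y e).natDegree ≤ degIn i e := by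
  induction e with
  | c z => simp [toPoly, degIn]
  | v j =>
    by_cases h : j = i
    · subst h
      simp [toPoly, degIn]
    · have hb : Nat.beq j i = false := beq_false_of_ne h
      simp [toPoly, degIn, hb]
  | add a b iha ihb =>
    simp only [toPoly, degIn]
    exact le_trans (natDegree_add_le _ _) (max_le_max iha ihb)
  | mul a b iha ihb =>
    by_cases hz : isZeroC a = true
    · have h0 := toPoly_zero i y a hz
      simp [toPoly, degIn, h0, hz]
    · by_cases hz2 : isZeroC b = true
      · have h0 := toPoly_zero i y b hz2
        simp [toPoly, degIn, h0, hz2]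
      · simp only [toPoly, degIn, hz, hz2]
        exact le_trans natDegree_mul_le (Nat.add_le_add iha ihb)

theorem eval_substE (i : ℕ) (a : ℤ) (y : ℕ → ℝ) (e : Ex) :
    (substE i a e).eval y = e.eval (Function.update y i (a : ℝ)) := by
  induction e with
  | c z => simp [substE, Ex.eval]
  | v j =>
    by_cases h : j = i
    · subst h
      simp [substE, Ex.eval]
    · have hb : Nat.beq j i = false := beq_false_of_ne h
      simp [substE, Ex.eval, hb, Function.update_of_ne h]
  | add a b iha ihb => simp [substE, Ex.eval, iha, ihb]
  | mul a b iha ihb => simp [substE, Ex.eval, iha, ihb]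

/-- vanishing at the points of a list of integers gives vanishing everywhere -/
theorem zero_of_grid (i : ℕ) (e : Ex) (pts : List ℤ) (hnd : pts.Nodup) (hdeg : degIn i e < pts.length)
    (h : ∀ a ∈ pts, ∀ y : ℕ → ℝ, (substE i a e).eval y = 0) (y : ℕ → ℝ) : e.eval y = 0 := by
  classical
  have hcast : Function.Injective (fun z : ℤ => (z : ℝ)) := Int.cast_injective
  let s : Finset ℝ := (pts.map (fun z : ℤ => (z : ℝ))).toFinset
  have hcard : s.card = pts.length := by
    have hnd' : (pts.map (fun z : ℤ => (z : ℝ))).Nodup := List.Nodup.map hcast hnd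
    simp only [s]
    rw [List.toFinset_card_of_nodup hnd', List.length_map]
  have hp : toPoly i y e = 0 := by
    refine Polynomial.eq_zero_of_natDegree_lt_card_of_eval_eq_zero' _ s ?_ ?_
    · intro b hb
      simp only [s, List.mem_toFinset, List.mem_map] at hb
      obtain ⟨a, ha, rfl⟩ := hb
      rw [eval_toPoly, ← eval_substE]
      exact h a ha y
    · rw [hcard]
      exact lt_of_le_of_lt (natDegree_toPoly_le i y e) hdeg
  have hev := eval_toPoly i y (y i) e
  rw [hp, Function.update_eq_self] at hev
  simpa using hev.symm

end Vale.Agent.Lib.P154Q4.TT
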