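import Vale.Agent.Lib.P154Q4.TT.K2Data

/-!
Reflective certificate of nonnegativity of a difference polynomial on one pair of cells.
-/

namespace Vale.Agent.Lib.P154Q4.TT.K2T

open Vale.Agent.Lib.P154Q4.Cells Vale.Agent.Lib.P154Q4.K2 Vale.Agent.Lib.P154Q4.TT

theorem leafFN : pairOK TPx0 (bisA 2 S0x) (bisB 2 S0x) 10 10 (nth [120, 1303, 13131, 107752, 1185251, 11960240]) 12 = true := by decide +kernel

end Vale.Agent.Lib.P154Q4.TT.K2T
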