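import Vale.Agent.Lib.P154Q4.TT.K2Data

/-!
Reflective certificate of nonnegativity of a difference polynomial on one pair of cells.
-/

namespace Vale.Agent.Lib.P154Q4.TT.K2T

open Vale.Agent.Lib.P154Q4.Cells Vale.Agent.Lib.P154Q4.K2 Vale.Agent.Lib.P154Q4.TT

theorem leafNN : pairOK TPx0 (bisB 2 S0x) (bisB 2 S0x) 10 10 (nth [116, 1258, 12677, 104027, 1144279, 11546798]) 12 = true := by decide +kernel

end Vale.Agent.Lib.P154Q4.TT.K2T
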