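import Vale.Agent.Lib.P154Q4.TT.Class

/-!
Reduction of nonnegativity statements from the simplex to the fundamental cell.
-/

namespace Vale.Agent.Lib.P154Q4.TT

open Vale.Agent.Lib.P154Q4.Cells Vale.Agent.Lib.P154Q4.K2

theorem nonneg_symT (T : Terms) (hok : ∀ x y z, InCell K2.S0 x y z → 0 ≤ Pval T x y z 0 0 0) :
    ∀ a b c d, Simp a b c d → 0 ≤ Pval T (f1 a b c d) (f2 a b c d) (f3 a b c d) 0 0 0 := by
  refine wlog4 _ ?_ ?_ ?_ ?_
  · intro a b c d h h'
    obtain ⟨i1, i2, i3⟩ := inv12 a b c d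
    have h2 := h h'.swap
    rw [Pval_congr T i1.symm i2.symm i3.symm rfl rfl rfl]
    exact h2
  · intro a b c d h h'
    obtain ⟨i1, i2, i3⟩ := inv23 a b c d
    have h2 := h h'.swap23
    rw [Pval_congr T i1.symm i2.symm i3.symm rfl rfl rfl]
    exact h2
  · intro a b c d h h'
    obtain ⟨i1, i2, i3⟩ := inv34 a b c d
    have h2 := h h'.swap34
    rw [Pval_congr T i1.symm i2.symm i3.symm rfl rfl rfl]
    exact h2
  · intro a b c d hab hbc hcd h'
    exact hok _ _ _ (inCell_S0 hab hbc hcd h'.hd h'.hs)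

/-- a pair of polynomials of which one is nonnegative at each pair of points of the fundamental cell:
the same on the simplices -/
theorem pair_orT (T T' : Terms)
    (hok : ∀ x y z x' y' z', InCell K2.S0 x y z → InCell K2.S0 x' y' z' →
      0 ≤ Pval T x y z x' y' z' ∨ 0 ≤ Pval T' x y z x' y' z')
    (a b c d p q r s : ℝ) (h : Simp a b c d) (h' : Simp p q r s) :
    0 ≤ Pval T (f1 a b c d) (f2 a b c d) (f3 a b c d) (f1 p q r s) (f2 p q r s) (f3 p q r s)
      ∨ 0 ≤ Pval T' (f1 a b c d) (f2 a b c d) (f3 a b c d) (f1 p q r s) (f2 p q r s) (f3 p q r s) := by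
  revert p q r s
  have hmain : ∀ a b c d, Simp a b c d → ∀ p q r s, Simp p q r s →
      0 ≤ Pval T (f1 a b c d) (f2 a b c d) (f3 a b c d) (f1 p q r s) (f2 p q r s) (f3 p q r s)
        ∨ 0 ≤ Pval T' (f1 a b c d) (f2 a b c d) (f3 a b c d) (f1 p q r s) (f2 p q r s) (f3 p q r s) := by
    refine wlog4 _ ?_ ?_ ?_ ?_
    · intro a b c d h h' p q r s hm
      obtain ⟨i1, i2, i3⟩ := inv12 a b c d
      rw [Pval_congr T i1.symm i2.symm i3.symm rfl rfl rfl,
        Pval_congr T' i1.symm i2.symm i3.symm rfl rfl rfl]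
      exact h h'.swap p q r s hm
    · intro a b c d h h' p q r s hm
      obtain ⟨i1, i2, i3⟩ := inv23 a b c d
      rw [Pval_congr T i1.symm i2.symm i3.symm rfl rfl rfl,
        Pval_congr T' i1.symm i2.symm i3.symm rfl rfl rfl]
      exact h h'.swap23 p q r s hm
    · intro a b c d h h' p q r s hm
      obtain ⟨i1, i2, i3⟩ := inv34 a b c d
      rw [Pval_congr T i1.symm i2.symm i3.symm rfl rfl rfl,
        Pval_congr T' i1.symm i2.symm i3.symm rfl rfl rfl]
      exact h h'.swap34 p q r s hm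
    · intro a b c d hab hbc hcd h'
      refine wlog4 _ ?_ ?_ ?_ ?_
      · intro p q r s h2 hm
        obtain ⟨i1, i2, i3⟩ := inv12 p q r s
        rw [Pval_congr T rfl rfl rfl i1.symm i2.symm i3.symm,
          Pval_congr T' rfl rfl rfl i1.symm i2.symm i3.symm]
        exact h2 hm.swap
      · intro p q r s h2 hm
        obtain ⟨i1, i2, i3⟩ := inv23 p q r s
        rw [Pval_congr T rfl rfl rfl i1.symm i2.symm i3.symm,
          Pval_congr T' rfl rfl rfl i1.symm i2.symm i3.symm]
        exact h2 hm.swap23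
      · intro p q r s h2 hm
        obtain ⟨i1, i2, i3⟩ := inv34 p q r s
        rw [Pval_congr T rfl rfl rfl i1.symm i2.symm i3.symm,
          Pval_congr T' rfl rfl rfl i1.symm i2.symm i3.symm]
        exact h2 hm.swap34
      · intro p q r s hpq hqr hrs hm
        exact hok _ _ _ _ _ _
          (inCell_S0 hab hbc hcd h'.hd h'.hs) (inCell_S0 hpq hqr hrs hm.hd hm.hs)
  intro p q r s h'
  exact hmain a b c d h p q r s h'

end Vale.Agent.Lib.P154Q4.TT
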