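import Vale.Agent.Lib.P154Q4.TT.K2IdGa
import Vale.Agent.Lib.P154Q4.TT.K2IdGb
import Vale.Agent.Lib.P154Q4.TT.K2CertA
import Vale.Agent.Lib.P154Q4.TT.Sym
import Vale.Agent.Lib.P154Q4.TT.K2LeafFF
import Vale.Agent.Lib.P154Q4.TT.K2LeafFN
import Vale.Agent.Lib.P154Q4.TT.K2LeafNF
import Vale.Agent.Lib.P154Q4.TT.K2LeafNN

/-!
The second kernel of the full simplex: lower bound for the weighted class function, averaged over
the arrangements of the message.
-/

namespace Vale.Agent.Lib.P154Q4.TT.K2T

open Vale.Agent.Lib.P154Q4.Kron Vale.Agent.Lib.P154Q4.Kron.Ex Vale.Agent.Lib.P154Q4.Cells Vale.Agent.Lib.P154Q4.K2 Vale.Agent.Lib.P154Q4.TT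

/-- the multiplier of the class function of the first point -/
noncomputable def alT (p q r s : ℝ) : ℝ :=
  Pval Tal (f1 p q r s) (f2 p q r s) (f3 p q r s) 0 0 0 / 128

/-- the multiplier of the class function of the second point -/
noncomputable def beT (a b c d : ℝ) : ℝ :=
  Pval Tbe (f1 a b c d) (f2 a b c d) (f3 a b c d) 0 0 0 / 32

theorem alT_nonneg : ∀ p q r s, Simp p q r s → 0 ≤ alT p q r s := by
  intro p q r s h
  have := nonneg_symT Tal (fun x y z hc => treeOK_sound Tal 8 0 10 trA K2.S0 K2.Z0 okA x y z 0 0 0 hc inCell_Z0) p q r s h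
  unfold alT
  positivity

theorem beT_nonneg : ∀ a b c d, Simp a b c d → 0 ≤ beT a b c d := by
  intro p q r s h
  have := nonneg_symT Tbe (fun x y z hc => treeOK_sound Tbe 8 0 10 trB K2.S0 K2.Z0 okB x y z 0 0 0 hc inCell_Z0) p q r s h
  unfold beT
  positivity

theorem bd_alT : Bd alT := by
  have := (bd_Pval0 Tal).smul (1 / 128)
  refine (funext (fun a => funext (fun b => funext (fun c => funext (fun d => ?_)))) : alT = _) ▸ this
  unfold alT
  ring

theorem bd_beT : Bd beT := by
  have := (bd_Pval0 Tbe).smul (1 / 32)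
  refine (funext (fun a => funext (fun b => funext (fun c => funext (fun d => ?_)))) : beT = _) ▸ this
  unfold beT
  ring

/-- on each pair of points of the fundamental cell one of the two difference polynomials is nonnegative -/
theorem k2_cell : ∀ x y z x' y' z', InCell K2.S0 x y z → InCell K2.S0 x' y' z' →
    0 ≤ Pval TP0 x y z x' y' z' ∨ 0 ≤ Pval TP1 x y z x' y' z' := by
  intro x y z x' y' z' hS hS'
  rcases inCell_bis 2 S0x (inCell_S0x hS) with hA | hB <;> rcases inCell_bis 2 S0x (inCell_S0x hS') with hA' | hB'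
  · right
    rw [TP1, Pval_scaleT]
    exact pair_sound TPx1 _ _ 10 10 _ 12 leafFF _ _ _ _ _ _ hA hA'
  · left
    rw [TP0, Pval_scaleT]
    exact pair_sound TPx0 _ _ 10 10 _ 12 leafFN _ _ _ _ _ _ hA hB'
  · left
    rw [TP0, Pval_scaleT]
    exact pair_sound TPx0 _ _ 10 10 _ 12 leafNF _ _ _ _ _ _ hB hA'
  · left
    rw [TP0, Pval_scaleT]
    exact pair_sound TPx0 _ _ 10 10 _ 12 leafNN _ _ _ _ _ _ hB hB'

/-- the second kernel on the product of the simplices -/
theorem k2_main {a b c d p q r s : ℝ} (h : Simp a b c d) (h' : Simp p q r s) :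
    alT p q r s * fT a b c d + beT a b c d * fT p q r s
      ≤ avg24 (fun p q r s => wt fT a b c d p q r s) p q r s := by
  rcases pair_orT TP0 TP1 k2_cell a b c d p q r s h h' with hP | hP
  · have hid := id_real coOKa zeroa (a := a) (b := b) (c := c) (d := d) (p := p) (q := q) (r := r)
      (s := s) h.hs h'.hs
    have hle := avg_SF_le_wt valida h h'
    refine le_trans ?_ hle
    unfold alT beT
    push_cast at hid
    nlinarith [hid, hP]
  · have hid := id_real coOKb zerob (a := a) (b := b) (c := c) (d := d) (p := p) (q := q) (r := r)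
      (s := s) h.hs h'.hs
    have hle := avg_SF_le_wt validb h h'
    refine le_trans ?_ hle
    unfold alT beT
    push_cast at hid
    nlinarith [hid, hP]

end Vale.Agent.Lib.P154Q4.TT.K2T
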