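import Vale.Agent.Lib.P154Q4.TT.K2Point

/-!
Two families of polynomial bounds for the powers of the inverse mass, and their validity.
-/

namespace Vale.Agent.Lib.P154Q4.TT.K2T

/-- polynomial bound of a power of the inverse mass -/
noncomputable def L1a (t : ℝ) : ℝ := (1) + (-1) * t ^ 1 + (31 / 32) * t ^ 2 + (-75 / 128) * t ^ 3 + (-187 / 256) * t ^ 4 + (35 / 32) * t ^ 5 + (97 / 128) * t ^ 6 + (-173 / 128) * t ^ 7 + (43 / 128) * t ^ 8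

/-- polynomial bound of a power of the inverse mass -/
noncomputable def L2a (t : ℝ) : ℝ := (1) + (-2) * t ^ 1 + (1535 / 512) * t ^ 2 + (-4) * t ^ 3 + (39 / 8) * t ^ 4 + (-77 / 16) * t ^ 5 + (191 / 64) * t ^ 6 + (-205 / 256) * t ^ 7

/-- polynomial bound of a power of the inverse mass -/
noncomputable def L4a (t : ℝ) : ℝ := (1) + (-4) * t ^ 1 + (77 / 8) * t ^ 2 + (-245 / 16) * t ^ 3 + (211 / 16) * t ^ 4 + (-9 / 2) * t ^ 5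

/-- polynomial bound of a power of the inverse mass -/
noncomputable def U3a (t : ℝ) : ℝ := (1) + (-3) * t ^ 1 + (95 / 16) * t ^ 2 + (-143 / 16) * t ^ 3 + (71 / 8) * t ^ 4 + (-147 / 32) * t ^ 5 + (865 / 1024) * t ^ 6

/-- the remaining factor of a validity condition -/
noncomputable def H1a (t : ℝ) : ℝ := (1 / 32) + (-49 / 128) * t ^ 1 + (337 / 256) * t ^ 2 + (-93 / 256) * t ^ 3 + (-237 / 128) * t ^ 4 + (19 / 32) * t ^ 5 + (65 / 64) * t ^ 6 + (-43 / 128) * t ^ 7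

theorem H1a_p0 (a b : ℝ) (ha : 0 ≤ a) (hb : 0 ≤ b) : 0 ≤ (1) * a ^ 0 * b ^ 7 + (1235 / 256) * a ^ 1 * b ^ 6 + (499 / 32) * a ^ 2 * b ^ 5 + (1377 / 64) * a ^ 3 * b ^ 4 + (441 / 32) * a ^ 4 * b ^ 3 + (1093 / 256) * a ^ 5 * b ^ 2 + (77 / 128) * a ^ 6 * b ^ 1 + (1 / 32) * a ^ 7 * b ^ 0 := by
  positivity

theorem H1a_p1 (a b : ℝ) (ha : 0 ≤ a) (hb : 0 ≤ b) : 0 ≤ (65536) * a ^ 0 * b ^ 7 + (358400) * a ^ 1 * b ^ 6 + (817280) * a ^ 2 * b ^ 5 + (1002672) * a ^ 3 * b ^ 4 + (711180) * a ^ 4 * b ^ 3 + (290602) * a ^ 5 * b ^ 2 + (508865 / 8) * a ^ 6 * b ^ 1 + (759013 / 128) * a ^ 7 * b ^ 0 := by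
  positivity

theorem H1a_p2 (a b : ℝ) (ha : 0 ≤ a) (hb : 0 ≤ b) : 0 ≤ (759013 / 128) * a ^ 0 * b ^ 7 + (1242171 / 64) * a ^ 1 * b ^ 6 + (813017 / 32) * a ^ 2 * b ^ 5 + (619095 / 16) * a ^ 3 * b ^ 4 + (645551 / 8) * a ^ 4 * b ^ 3 + (389841 / 4) * a ^ 5 * b ^ 2 + (111059 / 2) * a ^ 6 * b ^ 1 + (11997) * a ^ 7 * b ^ 0 := by
  positivity

theorem H1a_p3 (a b : ℝ) (ha : 0 ≤ a) (hb : 0 ≤ b) : 0 ≤ (11997 / 128) * a ^ 0 * b ^ 7 + (70439 / 64) * a ^ 1 * b ^ 6 + (164553 / 32) * a ^ 2 * b ^ 5 + (193283 / 16) * a ^ 3 * b ^ 4 + (124863 / 8) * a ^ 4 * b ^ 3 + (45005 / 4) * a ^ 5 * b ^ 2 + (8475 / 2) * a ^ 6 * b ^ 1 + (649) * a ^ 7 * b ^ 0 := by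
  positivity

theorem H1a_p4 (a b : ℝ) (ha : 0 ≤ a) (hb : 0 ≤ b) : 0 ≤ (649) * a ^ 0 * b ^ 7 + (9697 / 2) * a ^ 1 * b ^ 6 + (59669 / 4) * a ^ 2 * b ^ 5 + (194997 / 8) * a ^ 3 * b ^ 4 + (363315 / 16) * a ^ 4 * b ^ 3 + (383291 / 32) * a ^ 5 * b ^ 2 + (210799 / 64) * a ^ 6 * b ^ 1 + (46831 / 128) * a ^ 7 * b ^ 0 := by
  positivity

theorem H1a_p5 (a b : ℝ) (ha : 0 ≤ a) (hb : 0 ≤ b) : 0 ≤ (46831) * a ^ 0 * b ^ 7 + (561853 / 2) * a ^ 1 * b ^ 6 + (2795459 / 4) * a ^ 2 * b ^ 5 + (7430505 / 8) * a ^ 3 * b ^ 4 + (11329437 / 16) * a ^ 4 * b ^ 3 + (9909383 / 32) * a ^ 5 * b ^ 2 + (4718833 / 64) * a ^ 6 * b ^ 1 + (1037971 / 128) * a ^ 7 * b ^ 0 := by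
  positivity

theorem H1a_p6 (a b : ℝ) (ha : 0 ≤ a) (hb : 0 ≤ b) : 0 ≤ (1037971 / 128) * a ^ 0 * b ^ 7 + (636741 / 16) * a ^ 1 * b ^ 6 + (212111 / 2) * a ^ 2 * b ^ 5 + (235248) * a ^ 3 * b ^ 4 + (394864) * a ^ 4 * b ^ 3 + (407040) * a ^ 5 * b ^ 2 + (222208) * a ^ 6 * b ^ 1 + (49152) * a ^ 7 * b ^ 0 := by
  positivity

theorem H1a_p7 (a b : ℝ) (ha : 0 ≤ a) (hb : 0 ≤ b) : 0 ≤ (3 / 16384) * a ^ 0 * b ^ 7 + (35 / 4096) * a ^ 1 * b ^ 6 + (2433 / 16384) * a ^ 2 * b ^ 5 + (8527 / 8192) * a ^ 3 * b ^ 4 + (55989 / 16384) * a ^ 4 * b ^ 3 + (2701 / 512) * a ^ 5 * b ^ 2 + (50823 / 16384) * a ^ 6 * b ^ 1 + (59 / 8192) * a ^ 7 * b ^ 0 := by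
  positivity

theorem H1a_on0 (t : ℝ) (h0 : (-1) ≤ t) (h3 : t ≤ (0)) : 0 ≤ H1a t := by
  have e : H1a t = (1) * (t - (-1)) ^ 0 * ((0) - t) ^ 7 + (1235 / 256) * (t - (-1)) ^ 1 * ((0) - t) ^ 6 + (499 / 32) * (t - (-1)) ^ 2 * ((0) - t) ^ 5 + (1377 / 64) * (t - (-1)) ^ 3 * ((0) - t) ^ 4 + (441 / 32) * (t - (-1)) ^ 4 * ((0) - t) ^ 3 + (1093 / 256) * (t - (-1)) ^ 5 * ((0) - t) ^ 2 + (77 / 128) * (t - (-1)) ^ 6 * ((0) - t) ^ 1 + (1 / 32) * (t - (-1)) ^ 7 * ((0) - t) ^ 0 := by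
    unfold H1a
    ring
  rw [e]
  exact H1a_p0 _ _ (by linarith) (by linarith)

theorem H1a_on1 (t : ℝ) (h0 : (0) ≤ t) (h3 : t ≤ (1 / 8)) : 0 ≤ H1a t := by
  have e : H1a t = (65536) * (t - (0)) ^ 0 * ((1 / 8) - t) ^ 7 + (358400) * (t - (0)) ^ 1 * ((1 / 8) - t) ^ 6 + (817280) * (t - (0)) ^ 2 * ((1 / 8) - t) ^ 5 + (1002672) * (t - (0)) ^ 3 * ((1 / 8) - t) ^ 4 + (711180) * (t - (0)) ^ 4 * ((1 / 8) - t) ^ 3 + (290602) * (t - (0)) ^ 5 * ((1 / 8) - t) ^ 2 + (508865 / 8) * (t - (0)) ^ 6 * ((1 / 8) - t) ^ 1 + (759013 / 128) * (t - (0)) ^ 7 * ((1 / 8) - t) ^ 0 := by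
    unfold H1a
    ring
  rw [e]
  exact H1a_p1 _ _ (by linarith) (by linarith)

theorem H1a_on2 (t : ℝ) (h0 : (1 / 8) ≤ t) (h3 : t ≤ (1 / 4)) : 0 ≤ H1a t := by
  have e : H1a t = (759013 / 128) * (t - (1 / 8)) ^ 0 * ((1 / 4) - t) ^ 7 + (1242171 / 64) * (t - (1 / 8)) ^ 1 * ((1 / 4) - t) ^ 6 + (813017 / 32) * (t - (1 / 8)) ^ 2 * ((1 / 4) - t) ^ 5 + (619095 / 16) * (t - (1 / 8)) ^ 3 * ((1 / 4) - t) ^ 4 + (645551 / 8) * (t - (1 / 8)) ^ 4 * ((1 / 4) - t) ^ 3 + (389841 / 4) * (t - (1 / 8)) ^ 5 * ((1 / 4) - t) ^ 2 + (111059 / 2) * (t - (1 / 8)) ^ 6 * ((1 / 4) - t) ^ 1 + (11997) * (t - (1 / 8)) ^ 7 * ((1 / 4) - t) ^ 0 := by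
    unfold H1a
    ring
  rw [e]
  exact H1a_p2 _ _ (by linarith) (by linarith)

theorem H1a_on3 (t : ℝ) (h0 : (1 / 4) ≤ t) (h3 : t ≤ (1 / 2)) : 0 ≤ H1a t := by
  have e : H1a t = (11997 / 128) * (t - (1 / 4)) ^ 0 * ((1 / 2) - t) ^ 7 + (70439 / 64) * (t - (1 / 4)) ^ 1 * ((1 / 2) - t) ^ 6 + (164553 / 32) * (t - (1 / 4)) ^ 2 * ((1 / 2) - t) ^ 5 + (193283 / 16) * (t - (1 / 4)) ^ 3 * ((1 / 2) - t) ^ 4 + (124863 / 8) * (t - (1 / 4)) ^ 4 * ((1 / 2) - t) ^ 3 + (45005 / 4) * (t - (1 / 4)) ^ 5 * ((1 / 2) - t) ^ 2 + (8475 / 2) * (t - (1 / 4)) ^ 6 * ((1 / 2) - t) ^ 1 + (649) * (t - (1 / 4)) ^ 7 * ((1 / 2) - t) ^ 0 := by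
    unfold H1a
    ring
  rw [e]
  exact H1a_p3 _ _ (by linarith) (by linarith)

theorem H1a_on4 (t : ℝ) (h0 : (1 / 2) ≤ t) (h3 : t ≤ (3 / 4)) : 0 ≤ H1a t := by
  have e : H1a t = (649) * (t - (1 / 2)) ^ 0 * ((3 / 4) - t) ^ 7 + (9697 / 2) * (t - (1 / 2)) ^ 1 * ((3 / 4) - t) ^ 6 + (59669 / 4) * (t - (1 / 2)) ^ 2 * ((3 / 4) - t) ^ 5 + (194997 / 8) * (t - (1 / 2)) ^ 3 * ((3 / 4) - t) ^ 4 + (363315 / 16) * (t - (1 / 2)) ^ 4 * ((3 / 4) - t) ^ 3 + (383291 / 32) * (t - (1 / 2)) ^ 5 * ((3 / 4) - t) ^ 2 + (210799 / 64) * (t - (1 / 2)) ^ 6 * ((3 / 4) - t) ^ 1 + (46831 / 128) * (t - (1 / 2)) ^ 7 * ((3 / 4) - t) ^ 0 := by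
    unfold H1a
    ring
  rw [e]
  exact H1a_p4 _ _ (by linarith) (by linarith)

theorem H1a_on5 (t : ℝ) (h0 : (3 / 4) ≤ t) (h3 : t ≤ (7 / 8)) : 0 ≤ H1a t := by
  have e : H1a t = (46831) * (t - (3 / 4)) ^ 0 * ((7 / 8) - t) ^ 7 + (561853 / 2) * (t - (3 / 4)) ^ 1 * ((7 / 8) - t) ^ 6 + (2795459 / 4) * (t - (3 / 4)) ^ 2 * ((7 / 8) - t) ^ 5 + (7430505 / 8) * (t - (3 / 4)) ^ 3 * ((7 / 8) - t) ^ 4 + (11329437 / 16) * (t - (3 / 4)) ^ 4 * ((7 / 8) - t) ^ 3 + (9909383 / 32) * (t - (3 / 4)) ^ 5 * ((7 / 8) - t) ^ 2 + (4718833 / 64) * (t - (3 / 4)) ^ 6 * ((7 / 8) - t) ^ 1 + (1037971 / 128) * (t - (3 / 4)) ^ 7 * ((7 / 8) - t) ^ 0 := by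
    unfold H1a
    ring
  rw [e]
  exact H1a_p5 _ _ (by linarith) (by linarith)

theorem H1a_on6 (t : ℝ) (h0 : (7 / 8) ≤ t) (h3 : t ≤ (1)) : 0 ≤ H1a t := by
  have e : H1a t = (1037971 / 128) * (t - (7 / 8)) ^ 0 * ((1) - t) ^ 7 + (636741 / 16) * (t - (7 / 8)) ^ 1 * ((1) - t) ^ 6 + (212111 / 2) * (t - (7 / 8)) ^ 2 * ((1) - t) ^ 5 + (235248) * (t - (7 / 8)) ^ 3 * ((1) - t) ^ 4 + (394864) * (t - (7 / 8)) ^ 4 * ((1) - t) ^ 3 + (407040) * (t - (7 / 8)) ^ 5 * ((1) - t) ^ 2 + (222208) * (t - (7 / 8)) ^ 6 * ((1) - t) ^ 1 + (49152) * (t - (7 / 8)) ^ 7 * ((1) - t) ^ 0 := by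
    unfold H1a
    ring
  rw [e]
  exact H1a_p6 _ _ (by linarith) (by linarith)

theorem H1a_on7 (t : ℝ) (h0 : (1) ≤ t) (h3 : t ≤ (3)) : 0 ≤ H1a t := by
  have e : H1a t = (3 / 16384) * (t - (1)) ^ 0 * ((3) - t) ^ 7 + (35 / 4096) * (t - (1)) ^ 1 * ((3) - t) ^ 6 + (2433 / 16384) * (t - (1)) ^ 2 * ((3) - t) ^ 5 + (8527 / 8192) * (t - (1)) ^ 3 * ((3) - t) ^ 4 + (55989 / 16384) * (t - (1)) ^ 4 * ((3) - t) ^ 3 + (2701 / 512) * (t - (1)) ^ 5 * ((3) - t) ^ 2 + (50823 / 16384) * (t - (1)) ^ 6 * ((3) - t) ^ 1 + (59 / 8192) * (t - (1)) ^ 7 * ((3) - t) ^ 0 := by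
    unfold H1a
    ring
  rw [e]
  exact H1a_p7 _ _ (by linarith) (by linarith)

theorem H1a_nonneg (t : ℝ) (h0 : -1 ≤ t) (h3 : t ≤ 3) : 0 ≤ H1a t := by
  rcases le_total t (0) with hc0 | hc0
  · exact H1a_on0 t (by linarith) hc0
  rcases le_total t (1 / 8) with hc1 | hc1
  · exact H1a_on1 t (by linarith) hc1
  rcases le_total t (1 / 4) with hc2 | hc2
  · exact H1a_on2 t (by linarith) hc2
  rcases le_total t (1 / 2) with hc3 | hc3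
  · exact H1a_on3 t (by linarith) hc3
  rcases le_total t (3 / 4) with hc4 | hc4
  · exact H1a_on4 t (by linarith) hc4
  rcases le_total t (7 / 8) with hc5 | hc5
  · exact H1a_on5 t (by linarith) hc5
  rcases le_total t (1) with hc6 | hc6
  · exact H1a_on6 t (by linarith) hc6
  exact H1a_on7 t (by linarith) (by linarith)

/-- the remaining factor of a validity condition -/
noncomputable def H2a (t : ℝ) : ℝ := (1 / 512) + (1 / 256) * t ^ 1 + (65 / 512) * t ^ 2 + (-15 / 16) * t ^ 3 + (113 / 64) * t ^ 4 + (-91 / 256) * t ^ 5 + (-177 / 128) * t ^ 6 + (205 / 256) * t ^ 7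

theorem H2a_p0 (a b : ℝ) (ha : 0 ≤ a) (hb : 0 ≤ b) : 0 ≤ (1) * a ^ 0 * b ^ 7 + (9) * a ^ 1 * b ^ 6 + (6415 / 512) * a ^ 2 * b ^ 5 + (3469 / 512) * a ^ 3 * b ^ 4 + (405 / 256) * a ^ 4 * b ^ 3 + (37 / 256) * a ^ 5 * b ^ 2 + (5 / 512) * a ^ 6 * b ^ 1 + (1 / 512) * a ^ 7 * b ^ 0 := by
  positivity

theorem H2a_p1 (a b : ℝ) (ha : 0 ≤ a) (hb : 0 ≤ b) : 0 ≤ (1 / 4) * a ^ 0 * b ^ 7 + (2) * a ^ 1 * b ^ 6 + (173 / 16) * a ^ 2 * b ^ 5 + (285 / 16) * a ^ 3 * b ^ 4 + (17 / 2) * a ^ 4 * b ^ 3 + (37 / 64) * a ^ 5 * b ^ 2 + (21 / 64) * a ^ 6 * b ^ 1 + (77 / 256) * a ^ 7 * b ^ 0 := by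
  positivity

theorem H2a_p2 (a b : ℝ) (ha : 0 ≤ a) (hb : 0 ≤ b) : 0 ≤ (77 / 256) * a ^ 0 * b ^ 7 + (497 / 128) * a ^ 1 * b ^ 6 + (701 / 32) * a ^ 2 * b ^ 5 + (989 / 16) * a ^ 3 * b ^ 4 + (711 / 8) * a ^ 4 * b ^ 3 + (987 / 16) * a ^ 5 * b ^ 2 + (37 / 2) * a ^ 6 * b ^ 1 + (3) * a ^ 7 * b ^ 0 := by
  positivity

theorem H2a_p3 (a b : ℝ) (ha : 0 ≤ a) (hb : 0 ≤ b) : 0 ≤ (3 / 16384) * a ^ 0 * b ^ 7 + (31 / 16384) * a ^ 1 * b ^ 6 + (171 / 8192) * a ^ 2 * b ^ 5 + (2181 / 8192) * a ^ 3 * b ^ 4 + (29439 / 16384) * a ^ 4 * b ^ 3 + (98603 / 16384) * a ^ 5 * b ^ 2 + (19923 / 2048) * a ^ 6 * b ^ 1 + (24823 / 4096) * a ^ 7 * b ^ 0 := by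
  positivity

theorem H2a_on0 (t : ℝ) (h0 : (-1) ≤ t) (h3 : t ≤ (0)) : 0 ≤ H2a t := by
  have e : H2a t = (1) * (t - (-1)) ^ 0 * ((0) - t) ^ 7 + (9) * (t - (-1)) ^ 1 * ((0) - t) ^ 6 + (6415 / 512) * (t - (-1)) ^ 2 * ((0) - t) ^ 5 + (3469 / 512) * (t - (-1)) ^ 3 * ((0) - t) ^ 4 + (405 / 256) * (t - (-1)) ^ 4 * ((0) - t) ^ 3 + (37 / 256) * (t - (-1)) ^ 5 * ((0) - t) ^ 2 + (5 / 512) * (t - (-1)) ^ 6 * ((0) - t) ^ 1 + (1 / 512) * (t - (-1)) ^ 7 * ((0) - t) ^ 0 := by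
    unfold H2a
    ring
  rw [e]
  exact H2a_p0 _ _ (by linarith) (by linarith)

theorem H2a_on1 (t : ℝ) (h0 : (0) ≤ t) (h3 : t ≤ (1 / 2)) : 0 ≤ H2a t := by
  have e : H2a t = (1 / 4) * (t - (0)) ^ 0 * ((1 / 2) - t) ^ 7 + (2) * (t - (0)) ^ 1 * ((1 / 2) - t) ^ 6 + (173 / 16) * (t - (0)) ^ 2 * ((1 / 2) - t) ^ 5 + (285 / 16) * (t - (0)) ^ 3 * ((1 / 2) - t) ^ 4 + (17 / 2) * (t - (0)) ^ 4 * ((1 / 2) - t) ^ 3 + (37 / 64) * (t - (0)) ^ 5 * ((1 / 2) - t) ^ 2 + (21 / 64) * (t - (0)) ^ 6 * ((1 / 2) - t) ^ 1 + (77 / 256) * (t - (0)) ^ 7 * ((1 / 2) - t) ^ 0 := by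
    unfold H2a
    ring
  rw [e]
  exact H2a_p1 _ _ (by linarith) (by linarith)

theorem H2a_on2 (t : ℝ) (h0 : (1 / 2) ≤ t) (h3 : t ≤ (1)) : 0 ≤ H2a t := by
  have e : H2a t = (77 / 256) * (t - (1 / 2)) ^ 0 * ((1) - t) ^ 7 + (497 / 128) * (t - (1 / 2)) ^ 1 * ((1) - t) ^ 6 + (701 / 32) * (t - (1 / 2)) ^ 2 * ((1) - t) ^ 5 + (989 / 16) * (t - (1 / 2)) ^ 3 * ((1) - t) ^ 4 + (711 / 8) * (t - (1 / 2)) ^ 4 * ((1) - t) ^ 3 + (987 / 16) * (t - (1 / 2)) ^ 5 * ((1) - t) ^ 2 + (37 / 2) * (t - (1 / 2)) ^ 6 * ((1) - t) ^ 1 + (3) * (t - (1 / 2)) ^ 7 * ((1) - t) ^ 0 := by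
    unfold H2a
    ring
  rw [e]
  exact H2a_p2 _ _ (by linarith) (by linarith)

theorem H2a_on3 (t : ℝ) (h0 : (1) ≤ t) (h3 : t ≤ (3)) : 0 ≤ H2a t := by
  have e : H2a t = (3 / 16384) * (t - (1)) ^ 0 * ((3) - t) ^ 7 + (31 / 16384) * (t - (1)) ^ 1 * ((3) - t) ^ 6 + (171 / 8192) * (t - (1)) ^ 2 * ((3) - t) ^ 5 + (2181 / 8192) * (t - (1)) ^ 3 * ((3) - t) ^ 4 + (29439 / 16384) * (t - (1)) ^ 4 * ((3) - t) ^ 3 + (98603 / 16384) * (t - (1)) ^ 5 * ((3) - t) ^ 2 + (19923 / 2048) * (t - (1)) ^ 6 * ((3) - t) ^ 1 + (24823 / 4096) * (t - (1)) ^ 7 * ((3) - t) ^ 0 := by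
    unfold H2a
    ring
  rw [e]
  exact H2a_p3 _ _ (by linarith) (by linarith)

theorem H2a_nonneg (t : ℝ) (h0 : -1 ≤ t) (h3 : t ≤ 3) : 0 ≤ H2a t := by
  rcases le_total t (0) with hc0 | hc0
  · exact H2a_on0 t (by linarith) hc0
  rcases le_total t (1 / 2) with hc1 | hc1
  · exact H2a_on1 t (by linarith) hc1
  rcases le_total t (1) with hc2 | hc2
  · exact H2a_on2 t (by linarith) hc2
  exact H2a_on3 t (by linarith) (by linarith)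

/-- the remaining factor of a validity condition -/
noncomputable def H4a (t : ℝ) : ℝ := (3 / 8) + (-51 / 16) * t ^ 1 + (85 / 16) * t ^ 2 + (73 / 8) * t ^ 3 + (-19 / 2) * t ^ 4 + (-167 / 16) * t ^ 5 + (77 / 16) * t ^ 6 + (9 / 2) * t ^ 7

theorem H4a_p0 (a b : ℝ) (ha : 0 ≤ a) (hb : 0 ≤ b) : 0 ≤ (1) * a ^ 0 * b ^ 7 + (9) * a ^ 1 * b ^ 6 + (36) * a ^ 2 * b ^ 5 + (84) * a ^ 3 * b ^ 4 + (627 / 8) * a ^ 4 * b ^ 3 + (517 / 16) * a ^ 5 * b ^ 2 + (93 / 16) * a ^ 6 * b ^ 1 + (3 / 8) * a ^ 7 * b ^ 0 := by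
  positivity

theorem H4a_p1 (a b : ℝ) (ha : 0 ≤ a) (hb : 0 ≤ b) : 0 ≤ (786432) * a ^ 0 * b ^ 7 + (4669440) * a ^ 1 * b ^ 6 + (11675648) * a ^ 2 * b ^ 5 + (15899136) * a ^ 3 * b ^ 4 + (12698880) * a ^ 4 * b ^ 3 + (5931108) * a ^ 5 * b ^ 2 + (2991069 / 2) * a ^ 6 * b ^ 1 + (156815) * a ^ 7 * b ^ 0 := by
  positivity

theorem H4a_p2 (a b : ℝ) (ha : 0 ≤ a) (hb : 0 ≤ b) : 0 ≤ (20072320) * a ^ 0 * b ^ 7 + (115045152) * a ^ 1 * b ^ 6 + (276784704) * a ^ 2 * b ^ 5 + (360972120) * a ^ 3 * b ^ 4 + (274353528) * a ^ 4 * b ^ 3 + (120914974) * a ^ 5 * b ^ 2 + (28499136) * a ^ 6 * b ^ 1 + (5554893 / 2) * a ^ 7 * b ^ 0 := by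
  positivity

theorem H4a_p3 (a b : ℝ) (ha : 0 ≤ a) (hb : 0 ≤ b) : 0 ≤ (355513152) * a ^ 0 * b ^ 7 + (1908943392) * a ^ 1 * b ^ 6 + (4251773264) * a ^ 2 * b ^ 5 + (5066794632) * a ^ 3 * b ^ 4 + (3484838652) * a ^ 4 * b ^ 3 + (1403104374) * a ^ 5 * b ^ 2 + (325073631) * a ^ 6 * b ^ 1 + (76712611 / 2) * a ^ 7 * b ^ 0 := by
  positivity

theorem H4a_p4 (a b : ℝ) (ha : 0 ≤ a) (hb : 0 ≤ b) : 0 ≤ (76712611 / 2) * a ^ 0 * b ^ 7 + (211914646) * a ^ 1 * b ^ 6 + (724150464) * a ^ 2 * b ^ 5 + (1781552768) * a ^ 3 * b ^ 4 + (2780010496) * a ^ 4 * b ^ 3 + (2518982656) * a ^ 5 * b ^ 2 + (1206386688) * a ^ 6 * b ^ 1 + (236453888) * a ^ 7 * b ^ 0 := by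
  positivity

theorem H4a_p5 (a b : ℝ) (ha : 0 ≤ a) (hb : 0 ≤ b) : 0 ≤ (451 / 4) * a ^ 0 * b ^ 7 + (10005 / 4) * a ^ 1 * b ^ 6 + (20153) * a ^ 2 * b ^ 5 + (65969) * a ^ 3 * b ^ 4 + (107428) * a ^ 4 * b ^ 3 + (92892) * a ^ 5 * b ^ 2 + (40880) * a ^ 6 * b ^ 1 + (7216) * a ^ 7 * b ^ 0 := by
  positivity

theorem H4a_p6 (a b : ℝ) (ha : 0 ≤ a) (hb : 0 ≤ b) : 0 ≤ (451 / 8) * a ^ 0 * b ^ 7 + (4361 / 8) * a ^ 1 * b ^ 6 + (8241 / 4) * a ^ 2 * b ^ 5 + (3872) * a ^ 3 * b ^ 4 + (3832) * a ^ 4 * b ^ 3 + (1984) * a ^ 5 * b ^ 2 + (576) * a ^ 6 * b ^ 1 + (128) * a ^ 7 * b ^ 0 := by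
  positivity

theorem H4a_p7 (a b : ℝ) (ha : 0 ≤ a) (hb : 0 ≤ b) : 0 ≤ (1 / 128) * a ^ 0 * b ^ 7 + (17 / 128) * a ^ 1 * b ^ 6 + (233 / 128) * a ^ 2 * b ^ 5 + (1909 / 128) * a ^ 3 * b ^ 4 + (8299 / 128) * a ^ 4 * b ^ 3 + (19153 / 128) * a ^ 5 * b ^ 2 + (22299 / 128) * a ^ 6 * b ^ 1 + (10329 / 128) * a ^ 7 * b ^ 0 := by
  positivity

theorem H4a_on0 (t : ℝ) (h0 : (-1) ≤ t) (h3 : t ≤ (0)) : 0 ≤ H4a t := by
  have e : H4a t = (1) * (t - (-1)) ^ 0 * ((0) - t) ^ 7 + (9) * (t - (-1)) ^ 1 * ((0) - t) ^ 6 + (36) * (t - (-1)) ^ 2 * ((0) - t) ^ 5 + (84) * (t - (-1)) ^ 3 * ((0) - t) ^ 4 + (627 / 8) * (t - (-1)) ^ 4 * ((0) - t) ^ 3 + (517 / 16) * (t - (-1)) ^ 5 * ((0) - t) ^ 2 + (93 / 16) * (t - (-1)) ^ 6 * ((0) - t) ^ 1 + (3 / 8) * (t - (-1)) ^ 7 * ((0) - t) ^ 0 := by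
    unfold H4a
    ring
  rw [e]
  exact H4a_p0 _ _ (by linarith) (by linarith)

theorem H4a_on1 (t : ℝ) (h0 : (0) ≤ t) (h3 : t ≤ (1 / 8)) : 0 ≤ H4a t := by
  have e : H4a t = (786432) * (t - (0)) ^ 0 * ((1 / 8) - t) ^ 7 + (4669440) * (t - (0)) ^ 1 * ((1 / 8) - t) ^ 6 + (11675648) * (t - (0)) ^ 2 * ((1 / 8) - t) ^ 5 + (15899136) * (t - (0)) ^ 3 * ((1 / 8) - t) ^ 4 + (12698880) * (t - (0)) ^ 4 * ((1 / 8) - t) ^ 3 + (5931108) * (t - (0)) ^ 5 * ((1 / 8) - t) ^ 2 + (2991069 / 2) * (t - (0)) ^ 6 * ((1 / 8) - t) ^ 1 + (156815) * (t - (0)) ^ 7 * ((1 / 8) - t) ^ 0 := by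
    unfold H4a
    ring
  rw [e]
  exact H4a_p1 _ _ (by linarith) (by linarith)

theorem H4a_on2 (t : ℝ) (h0 : (1 / 8) ≤ t) (h3 : t ≤ (3 / 16)) : 0 ≤ H4a t := by
  have e : H4a t = (20072320) * (t - (1 / 8)) ^ 0 * ((3 / 16) - t) ^ 7 + (115045152) * (t - (1 / 8)) ^ 1 * ((3 / 16) - t) ^ 6 + (276784704) * (t - (1 / 8)) ^ 2 * ((3 / 16) - t) ^ 5 + (360972120) * (t - (1 / 8)) ^ 3 * ((3 / 16) - t) ^ 4 + (274353528) * (t - (1 / 8)) ^ 4 * ((3 / 16) - t) ^ 3 + (120914974) * (t - (1 / 8)) ^ 5 * ((3 / 16) - t) ^ 2 + (28499136) * (t - (1 / 8)) ^ 6 * ((3 / 16) - t) ^ 1 + (5554893 / 2) * (t - (1 / 8)) ^ 7 * ((3 / 16) - t) ^ 0 := by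
    unfold H4a
    ring
  rw [e]
  exact H4a_p2 _ _ (by linarith) (by linarith)

theorem H4a_on3 (t : ℝ) (h0 : (3 / 16) ≤ t) (h3 : t ≤ (7 / 32)) : 0 ≤ H4a t := by
  have e : H4a t = (355513152) * (t - (3 / 16)) ^ 0 * ((7 / 32) - t) ^ 7 + (1908943392) * (t - (3 / 16)) ^ 1 * ((7 / 32) - t) ^ 6 + (4251773264) * (t - (3 / 16)) ^ 2 * ((7 / 32) - t) ^ 5 + (5066794632) * (t - (3 / 16)) ^ 3 * ((7 / 32) - t) ^ 4 + (3484838652) * (t - (3 / 16)) ^ 4 * ((7 / 32) - t) ^ 3 + (1403104374) * (t - (3 / 16)) ^ 5 * ((7 / 32) - t) ^ 2 + (325073631) * (t - (3 / 16)) ^ 6 * ((7 / 32) - t) ^ 1 + (76712611 / 2) * (t - (3 / 16)) ^ 7 * ((7 / 32) - t) ^ 0 := by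
    unfold H4a
    ring
  rw [e]
  exact H4a_p3 _ _ (by linarith) (by linarith)

theorem H4a_on4 (t : ℝ) (h0 : (7 / 32) ≤ t) (h3 : t ≤ (1 / 4)) : 0 ≤ H4a t := by
  have e : H4a t = (76712611 / 2) * (t - (7 / 32)) ^ 0 * ((1 / 4) - t) ^ 7 + (211914646) * (t - (7 / 32)) ^ 1 * ((1 / 4) - t) ^ 6 + (724150464) * (t - (7 / 32)) ^ 2 * ((1 / 4) - t) ^ 5 + (1781552768) * (t - (7 / 32)) ^ 3 * ((1 / 4) - t) ^ 4 + (2780010496) * (t - (7 / 32)) ^ 4 * ((1 / 4) - t) ^ 3 + (2518982656) * (t - (7 / 32)) ^ 5 * ((1 / 4) - t) ^ 2 + (1206386688) * (t - (7 / 32)) ^ 6 * ((1 / 4) - t) ^ 1 + (236453888) * (t - (7 / 32)) ^ 7 * ((1 / 4) - t) ^ 0 := by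
    unfold H4a
    ring
  rw [e]
  exact H4a_p4 _ _ (by linarith) (by linarith)

theorem H4a_on5 (t : ℝ) (h0 : (1 / 4) ≤ t) (h3 : t ≤ (1 / 2)) : 0 ≤ H4a t := by
  have e : H4a t = (451 / 4) * (t - (1 / 4)) ^ 0 * ((1 / 2) - t) ^ 7 + (10005 / 4) * (t - (1 / 4)) ^ 1 * ((1 / 2) - t) ^ 6 + (20153) * (t - (1 / 4)) ^ 2 * ((1 / 2) - t) ^ 5 + (65969) * (t - (1 / 4)) ^ 3 * ((1 / 2) - t) ^ 4 + (107428) * (t - (1 / 4)) ^ 4 * ((1 / 2) - t) ^ 3 + (92892) * (t - (1 / 4)) ^ 5 * ((1 / 2) - t) ^ 2 + (40880) * (t - (1 / 4)) ^ 6 * ((1 / 2) - t) ^ 1 + (7216) * (t - (1 / 4)) ^ 7 * ((1 / 2) - t) ^ 0 := by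
    unfold H4a
    ring
  rw [e]
  exact H4a_p5 _ _ (by linarith) (by linarith)

theorem H4a_on6 (t : ℝ) (h0 : (1 / 2) ≤ t) (h3 : t ≤ (1)) : 0 ≤ H4a t := by
  have e : H4a t = (451 / 8) * (t - (1 / 2)) ^ 0 * ((1) - t) ^ 7 + (4361 / 8) * (t - (1 / 2)) ^ 1 * ((1) - t) ^ 6 + (8241 / 4) * (t - (1 / 2)) ^ 2 * ((1) - t) ^ 5 + (3872) * (t - (1 / 2)) ^ 3 * ((1) - t) ^ 4 + (3832) * (t - (1 / 2)) ^ 4 * ((1) - t) ^ 3 + (1984) * (t - (1 / 2)) ^ 5 * ((1) - t) ^ 2 + (576) * (t - (1 / 2)) ^ 6 * ((1) - t) ^ 1 + (128) * (t - (1 / 2)) ^ 7 * ((1) - t) ^ 0 := by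
    unfold H4a
    ring
  rw [e]
  exact H4a_p6 _ _ (by linarith) (by linarith)

theorem H4a_on7 (t : ℝ) (h0 : (1) ≤ t) (h3 : t ≤ (3)) : 0 ≤ H4a t := by
  have e : H4a t = (1 / 128) * (t - (1)) ^ 0 * ((3) - t) ^ 7 + (17 / 128) * (t - (1)) ^ 1 * ((3) - t) ^ 6 + (233 / 128) * (t - (1)) ^ 2 * ((3) - t) ^ 5 + (1909 / 128) * (t - (1)) ^ 3 * ((3) - t) ^ 4 + (8299 / 128) * (t - (1)) ^ 4 * ((3) - t) ^ 3 + (19153 / 128) * (t - (1)) ^ 5 * ((3) - t) ^ 2 + (22299 / 128) * (t - (1)) ^ 6 * ((3) - t) ^ 1 + (10329 / 128) * (t - (1)) ^ 7 * ((3) - t) ^ 0 := by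
    unfold H4a
    ring
  rw [e]
  exact H4a_p7 _ _ (by linarith) (by linarith)

theorem H4a_nonneg (t : ℝ) (h0 : -1 ≤ t) (h3 : t ≤ 3) : 0 ≤ H4a t := by
  rcases le_total t (0) with hc0 | hc0
  · exact H4a_on0 t (by linarith) hc0
  rcases le_total t (1 / 8) with hc1 | hc1
  · exact H4a_on1 t (by linarith) hc1
  rcases le_total t (3 / 16) with hc2 | hc2
  · exact H4a_on2 t (by linarith) hc2
  rcases le_total t (7 / 32) with hc3 | hc3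
  · exact H4a_on3 t (by linarith) hc3
  rcases le_total t (1 / 4) with hc4 | hc4
  · exact H4a_on4 t (by linarith) hc4
  rcases le_total t (1 / 2) with hc5 | hc5
  · exact H4a_on5 t (by linarith) hc5
  rcases le_total t (1) with hc6 | hc6
  · exact H4a_on6 t (by linarith) hc6
  exact H4a_on7 t (by linarith) (by linarith)

/-- the remaining factor of a validity condition -/
noncomputable def H3a (t : ℝ) : ℝ := (3 / 1600) + (-133 / 38400) * t ^ 1 + (-9 / 1024) * t ^ 2 + (4211 / 76800) * t ^ 3 + (9311 / 122880) * t ^ 4 + (-107903 / 614400) * t ^ 5 + (34337 / 614400) * t ^ 6 + (437 / 40960) * t ^ 7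

theorem H3a_p0 (a b : ℝ) (ha : 0 ≤ a) (hb : 0 ≤ b) : 0 ≤ (2288 / 75) * a ^ 0 * b ^ 7 + (159239 / 1200) * a ^ 1 * b ^ 6 + (288497 / 1200) * a ^ 2 * b ^ 5 + (9036883 / 38400) * a ^ 3 * b ^ 4 + (2588171 / 19200) * a ^ 4 * b ^ 3 + (3497113 / 76800) * a ^ 5 * b ^ 2 + (218901 / 25600) * a ^ 6 * b ^ 1 + (438011 / 614400) * a ^ 7 * b ^ 0 := by
  positivity

theorem H3a_p1 (a b : ℝ) (ha : 0 ≤ a) (hb : 0 ≤ b) : 0 ≤ (438011 / 614400) * a ^ 0 * b ^ 7 + (87853 / 61440) * a ^ 1 * b ^ 6 + (86317 / 30720) * a ^ 2 * b ^ 5 + (182217 / 25600) * a ^ 3 * b ^ 4 + (45319 / 4800) * a ^ 4 * b ^ 3 + (4871 / 800) * a ^ 5 * b ^ 2 + (1141 / 600) * a ^ 6 * b ^ 1 + (6 / 25) * a ^ 7 * b ^ 0 := by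
  positivity

theorem H3a_p2 (a b : ℝ) (ha : 0 ≤ a) (hb : 0 ≤ b) : 0 ≤ (3 / 1600) * a ^ 0 * b ^ 7 + (371 / 38400) * a ^ 1 * b ^ 6 + (251 / 25600) * a ^ 2 * b ^ 5 + (943 / 38400) * a ^ 3 * b ^ 4 + (41689 / 204800) * a ^ 4 * b ^ 3 + (86081 / 307200) * a ^ 5 * b ^ 2 + (15311 / 153600) * a ^ 6 * b ^ 1 + (857 / 76800) * a ^ 7 * b ^ 0 := by
  positivity

theorem H3a_p3 (a b : ℝ) (ha : 0 ≤ a) (hb : 0 ≤ b) : 0 ≤ (857 / 600) * a ^ 0 * b ^ 7 + (20683 / 2400) * a ^ 1 * b ^ 6 + (182777 / 9600) * a ^ 2 * b ^ 5 + (222781 / 12800) * a ^ 3 * b ^ 4 + (46733 / 9600) * a ^ 4 * b ^ 3 + (72433 / 25600) * a ^ 5 * b ^ 2 + (1143979 / 153600) * a ^ 6 * b ^ 1 + (807317 / 204800) * a ^ 7 * b ^ 0 := by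
  positivity

theorem H3a_p4 (a b : ℝ) (ha : 0 ≤ a) (hb : 0 ≤ b) : 0 ≤ (807317 / 204800) * a ^ 0 * b ^ 7 + (14665699 / 307200) * a ^ 1 * b ^ 6 + (12522607 / 51200) * a ^ 2 * b ^ 5 + (52248041 / 76800) * a ^ 3 * b ^ 4 + (5315999 / 4800) * a ^ 4 * b ^ 3 + (633871 / 600) * a ^ 5 * b ^ 2 + (82189 / 150) * a ^ 6 * b ^ 1 + (35837 / 300) * a ^ 7 * b ^ 0 := by
  positivity

theorem H3a_p5 (a b : ℝ) (ha : 0 ≤ a) (hb : 0 ≤ b) : 0 ≤ (35837 / 38400) * a ^ 0 * b ^ 7 + (423821 / 38400) * a ^ 1 * b ^ 6 + (2123327 / 38400) * a ^ 2 * b ^ 5 + (11684071 / 76800) * a ^ 3 * b ^ 4 + (152575097 / 614400) * a ^ 4 * b ^ 3 + (12316763 / 51200) * a ^ 5 * b ^ 2 + (9837539 / 76800) * a ^ 6 * b ^ 1 + (185143 / 6400) * a ^ 7 * b ^ 0 := by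
  positivity

theorem H3a_on0 (t : ℝ) (h0 : (-1) ≤ t) (h3 : t ≤ (-1 / 2)) : 0 ≤ H3a t := by
  have e : H3a t = (2288 / 75) * (t - (-1)) ^ 0 * ((-1 / 2) - t) ^ 7 + (159239 / 1200) * (t - (-1)) ^ 1 * ((-1 / 2) - t) ^ 6 + (288497 / 1200) * (t - (-1)) ^ 2 * ((-1 / 2) - t) ^ 5 + (9036883 / 38400) * (t - (-1)) ^ 3 * ((-1 / 2) - t) ^ 4 + (2588171 / 19200) * (t - (-1)) ^ 4 * ((-1 / 2) - t) ^ 3 + (3497113 / 76800) * (t - (-1)) ^ 5 * ((-1 / 2) - t) ^ 2 + (218901 / 25600) * (t - (-1)) ^ 6 * ((-1 / 2) - t) ^ 1 + (438011 / 614400) * (t - (-1)) ^ 7 * ((-1 / 2) - t) ^ 0 := by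
    unfold H3a
    ring
  rw [e]
  exact H3a_p0 _ _ (by linarith) (by linarith)

theorem H3a_on1 (t : ℝ) (h0 : (-1 / 2) ≤ t) (h3 : t ≤ (0)) : 0 ≤ H3a t := by
  have e : H3a t = (438011 / 614400) * (t - (-1 / 2)) ^ 0 * ((0) - t) ^ 7 + (87853 / 61440) * (t - (-1 / 2)) ^ 1 * ((0) - t) ^ 6 + (86317 / 30720) * (t - (-1 / 2)) ^ 2 * ((0) - t) ^ 5 + (182217 / 25600) * (t - (-1 / 2)) ^ 3 * ((0) - t) ^ 4 + (45319 / 4800) * (t - (-1 / 2)) ^ 4 * ((0) - t) ^ 3 + (4871 / 800) * (t - (-1 / 2)) ^ 5 * ((0) - t) ^ 2 + (1141 / 600) * (t - (-1 / 2)) ^ 6 * ((0) - t) ^ 1 + (6 / 25) * (t - (-1 / 2)) ^ 7 * ((0) - t) ^ 0 := by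
    unfold H3a
    ring
  rw [e]
  exact H3a_p1 _ _ (by linarith) (by linarith)

theorem H3a_on2 (t : ℝ) (h0 : (0) ≤ t) (h3 : t ≤ (1)) : 0 ≤ H3a t := by
  have e : H3a t = (3 / 1600) * (t - (0)) ^ 0 * ((1) - t) ^ 7 + (371 / 38400) * (t - (0)) ^ 1 * ((1) - t) ^ 6 + (251 / 25600) * (t - (0)) ^ 2 * ((1) - t) ^ 5 + (943 / 38400) * (t - (0)) ^ 3 * ((1) - t) ^ 4 + (41689 / 204800) * (t - (0)) ^ 4 * ((1) - t) ^ 3 + (86081 / 307200) * (t - (0)) ^ 5 * ((1) - t) ^ 2 + (15311 / 153600) * (t - (0)) ^ 6 * ((1) - t) ^ 1 + (857 / 76800) * (t - (0)) ^ 7 * ((1) - t) ^ 0 := by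
    unfold H3a
    ring
  rw [e]
  exact H3a_p2 _ _ (by linarith) (by linarith)

theorem H3a_on3 (t : ℝ) (h0 : (1) ≤ t) (h3 : t ≤ (3 / 2)) : 0 ≤ H3a t := by
  have e : H3a t = (857 / 600) * (t - (1)) ^ 0 * ((3 / 2) - t) ^ 7 + (20683 / 2400) * (t - (1)) ^ 1 * ((3 / 2) - t) ^ 6 + (182777 / 9600) * (t - (1)) ^ 2 * ((3 / 2) - t) ^ 5 + (222781 / 12800) * (t - (1)) ^ 3 * ((3 / 2) - t) ^ 4 + (46733 / 9600) * (t - (1)) ^ 4 * ((3 / 2) - t) ^ 3 + (72433 / 25600) * (t - (1)) ^ 5 * ((3 / 2) - t) ^ 2 + (1143979 / 153600) * (t - (1)) ^ 6 * ((3 / 2) - t) ^ 1 + (807317 / 204800) * (t - (1)) ^ 7 * ((3 / 2) - t) ^ 0 := by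
    unfold H3a
    ring
  rw [e]
  exact H3a_p3 _ _ (by linarith) (by linarith)

theorem H3a_on4 (t : ℝ) (h0 : (3 / 2) ≤ t) (h3 : t ≤ (2)) : 0 ≤ H3a t := by
  have e : H3a t = (807317 / 204800) * (t - (3 / 2)) ^ 0 * ((2) - t) ^ 7 + (14665699 / 307200) * (t - (3 / 2)) ^ 1 * ((2) - t) ^ 6 + (12522607 / 51200) * (t - (3 / 2)) ^ 2 * ((2) - t) ^ 5 + (52248041 / 76800) * (t - (3 / 2)) ^ 3 * ((2) - t) ^ 4 + (5315999 / 4800) * (t - (3 / 2)) ^ 4 * ((2) - t) ^ 3 + (633871 / 600) * (t - (3 / 2)) ^ 5 * ((2) - t) ^ 2 + (82189 / 150) * (t - (3 / 2)) ^ 6 * ((2) - t) ^ 1 + (35837 / 300) * (t - (3 / 2)) ^ 7 * ((2) - t) ^ 0 := by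
    unfold H3a
    ring
  rw [e]
  exact H3a_p4 _ _ (by linarith) (by linarith)

theorem H3a_on5 (t : ℝ) (h0 : (2) ≤ t) (h3 : t ≤ (3)) : 0 ≤ H3a t := by
  have e : H3a t = (35837 / 38400) * (t - (2)) ^ 0 * ((3) - t) ^ 7 + (423821 / 38400) * (t - (2)) ^ 1 * ((3) - t) ^ 6 + (2123327 / 38400) * (t - (2)) ^ 2 * ((3) - t) ^ 5 + (11684071 / 76800) * (t - (2)) ^ 3 * ((3) - t) ^ 4 + (152575097 / 614400) * (t - (2)) ^ 4 * ((3) - t) ^ 3 + (12316763 / 51200) * (t - (2)) ^ 5 * ((3) - t) ^ 2 + (9837539 / 76800) * (t - (2)) ^ 6 * ((3) - t) ^ 1 + (185143 / 6400) * (t - (2)) ^ 7 * ((3) - t) ^ 0 := by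
    unfold H3a
    ring
  rw [e]
  exact H3a_p5 _ _ (by linarith) (by linarith)

theorem H3a_nonneg (t : ℝ) (h0 : -1 ≤ t) (h3 : t ≤ 3) : 0 ≤ H3a t := by
  rcases le_total t (-1 / 2) with hc0 | hc0
  · exact H3a_on0 t (by linarith) hc0
  rcases le_total t (0) with hc1 | hc1
  · exact H3a_on1 t (by linarith) hc1
  rcases le_total t (1) with hc2 | hc2
  · exact H3a_on2 t (by linarith) hc2
  rcases le_total t (3 / 2) with hc3 | hc3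
  · exact H3a_on3 t (by linarith) hc3
  rcases le_total t (2) with hc4 | hc4
  · exact H3a_on4 t (by linarith) hc4
  exact H3a_on5 t (by linarith) (by linarith)

theorem key1a (t : ℝ) : 1 - (1 + t) * L1a t = t ^ 2 * H1a t := by
  unfold H1a L1a
  ring

theorem key2a (t : ℝ) : 1 - (1 + t) ^ 2 * L2a t = t ^ 2 * H2a t := by
  unfold H2a L2a
  ring

theorem key4a (t : ℝ) : 1 - (1 + t) ^ 4 * L4a t = t ^ 2 * H4a t := by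
  unfold H4a L4a
  ring

theorem key3a (t : ℝ) : (5 / 12) * (1 - (1 + t) * L1a t) - (107 / 600) * (1 - (1 + t) ^ 3 * U3a t) = t ^ 2 * H3a t := by
  unfold H3a L1a U3a
  ring

/-- the family is valid -/
theorem valida : Valid L1a L2a L4a U3a where
  h1 := by
    intro t h0 h3
    have := key1a t
    have h := H1a_nonneg t h0.le h3
    have h2 : 0 ≤ t ^ 2 * H1a t := by positivity
    linarith
  h2 := by
    intro t h0 h3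
    have := key2a t
    have h := H2a_nonneg t h0.le h3
    have h2 : 0 ≤ t ^ 2 * H2a t := by positivity
    linarith
  h4 := by
    intro t h0 h3
    have := key4a t
    have h := H4a_nonneg t h0.le h3
    have h2 : 0 ≤ t ^ 2 * H4a t := by positivity
    linarith
  h3 := by
    intro t h0 h3
    have := key3a t
    have h := H3a_nonneg t h0.le h3
    have h2 : 0 ≤ t ^ 2 * H3a t := by positivity
    linarith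

/-- polynomial bound of a power of the inverse mass -/
noncomputable def L1b (t : ℝ) : ℝ := (65507 / 65536) + (-7997 / 8192) * t ^ 1 + (161 / 256) * t ^ 2 + (181 / 1024) * t ^ 3 + (-143 / 512) * t ^ 4 + (-321 / 512) * t ^ 5 + (213 / 256) * t ^ 6 + (-167 / 512) * t ^ 7 + (83 / 2048) * t ^ 8

/-- polynomial bound of a power of the inverse mass -/
noncomputable def L2b (t : ℝ) : ℝ := (8123 / 8192) + (-983 / 512) * t ^ 1 + (91 / 32) * t ^ 2 + (-145 / 32) * t ^ 3 + (113 / 16) * t ^ 4 + (-233 / 32) * t ^ 5 + (241 / 64) * t ^ 6 + (-375 / 512) * t ^ 7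

/-- polynomial bound of a power of the inverse mass -/
noncomputable def L4b (t : ℝ) : ℝ := (1959 / 2048) + (-849 / 256) * t ^ 1 + (185 / 32) * t ^ 2 + (-95 / 16) * t ^ 3 + (213 / 64) * t ^ 4 + (-197 / 256) * t ^ 5

/-- polynomial bound of a power of the inverse mass -/
noncomputable def U3b (t : ℝ) : ℝ := (32973 / 32768) + (-6137 / 2048) * t ^ 1 + (2625 / 512) * t ^ 2 + (-335 / 64) * t ^ 3 + (11997 / 4096) * t ^ 4 + (-13223 / 16384) * t ^ 5 + (43835 / 524288) * t ^ 6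

/-- the remaining factor of a validity condition -/
noncomputable def H1b (t : ℝ) : ℝ := (29 / 65536) + (-1531 / 65536) * t ^ 1 + (2845 / 8192) * t ^ 2 + (-825 / 1024) * t ^ 3 + (105 / 1024) * t ^ 4 + (29 / 32) * t ^ 5 + (-105 / 512) * t ^ 6 + (-259 / 512) * t ^ 7 + (585 / 2048) * t ^ 8 + (-83 / 2048) * t ^ 9

theorem H1b_p0 (a b : ℝ) (ha : 0 ≤ a) (hb : 0 ≤ b) : 0 ≤ (1) * a ^ 0 * b ^ 9 + (329365 / 65536) * a ^ 1 * b ^ 8 + (63597 / 4096) * a ^ 2 * b ^ 7 + (439241 / 16384) * a ^ 3 * b ^ 6 + (52301 / 2048) * a ^ 4 * b ^ 5 + (445435 / 32768) * a ^ 5 * b ^ 4 + (16089 / 4096) * a ^ 6 * b ^ 3 + (9013 / 16384) * a ^ 7 * b ^ 2 + (7 / 256) * a ^ 8 * b ^ 1 + (29 / 65536) * a ^ 9 * b ^ 0 := by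
  positivity

theorem H1b_p1 (a b : ℝ) (ha : 0 ≤ a) (hb : 0 ≤ b) : 0 ≤ (15569256448) * a ^ 0 * b ^ 9 + (114437390336) * a ^ 1 * b ^ 8 + (366938685440) * a ^ 2 * b ^ 7 + (671276335104) * a ^ 3 * b ^ 6 + (768716603392) * a ^ 4 * b ^ 5 + (568401920000) * a ^ 5 * b ^ 4 + (269790668224) * a ^ 6 * b ^ 3 + (78940188474) * a ^ 7 * b ^ 2 + (831748001609 / 64) * a ^ 8 * b ^ 1 + (1956745451725 / 2048) * a ^ 9 * b ^ 0 := by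
  positivity

theorem H1b_p2 (a b : ℝ) (ha : 0 ≤ a) (hb : 0 ≤ b) : 0 ≤ (1956745451725 / 2048) * a ^ 0 * b ^ 9 + (4302741039781 / 1024) * a ^ 1 * b ^ 8 + (1099117138709 / 128) * a ^ 2 * b ^ 7 + (1399684412385 / 64) * a ^ 3 * b ^ 6 + (4212801658035 / 64) * a ^ 4 * b ^ 5 + (4091771386051 / 32) * a ^ 5 * b ^ 4 + (1161053626353 / 8) * a ^ 6 * b ^ 3 + (381815783493 / 4) * a ^ 7 * b ^ 2 + (271901648565 / 8) * a ^ 8 * b ^ 1 + (20371855421 / 4) * a ^ 9 * b ^ 0 := by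
  positivity

theorem H1b_p3 (a b : ℝ) (ha : 0 ≤ a) (hb : 0 ≤ b) : 0 ≤ (20371855421 / 2048) * a ^ 0 * b ^ 9 + (139069223901 / 1024) * a ^ 1 * b ^ 8 + (100131545301 / 128) * a ^ 2 * b ^ 7 + (159764498889 / 64) * a ^ 3 * b ^ 6 + (313758680995 / 64) * a ^ 4 * b ^ 5 + (198208805547 / 32) * a ^ 5 * b ^ 4 + (40542203601 / 8) * a ^ 6 * b ^ 3 + (10409685101 / 4) * a ^ 7 * b ^ 2 + (6113211109 / 8) * a ^ 8 * b ^ 1 + (392218357 / 4) * a ^ 9 * b ^ 0 := by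
  positivity

theorem H1b_p4 (a b : ℝ) (ha : 0 ≤ a) (hb : 0 ≤ b) : 0 ≤ (392218357 / 2048) * a ^ 0 * b ^ 9 + (2238342265 / 1024) * a ^ 1 * b ^ 8 + (1375026341 / 128) * a ^ 2 * b ^ 7 + (1914586509 / 64) * a ^ 3 * b ^ 6 + (3340820091 / 64) * a ^ 4 * b ^ 5 + (1900018879 / 32) * a ^ 5 * b ^ 4 + (353165841 / 8) * a ^ 6 * b ^ 3 + (82942449 / 4) * a ^ 7 * b ^ 2 + (44751933 / 8) * a ^ 8 * b ^ 1 + (2645777 / 4) * a ^ 9 * b ^ 0 := by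
  positivity

theorem H1b_p5 (a b : ℝ) (ha : 0 ≤ a) (hb : 0 ≤ b) : 0 ≤ (2645777 / 2048) * a ^ 0 * b ^ 9 + (13342023 / 1024) * a ^ 1 * b ^ 8 + (7184697 / 128) * a ^ 2 * b ^ 7 + (8676171 / 64) * a ^ 3 * b ^ 6 + (12952063 / 64) * a ^ 4 * b ^ 5 + (6199521 / 32) * a ^ 5 * b ^ 4 + (952005 / 8) * a ^ 6 * b ^ 3 + (181199 / 4) * a ^ 7 * b ^ 2 + (77953 / 8) * a ^ 8 * b ^ 1 + (3655 / 4) * a ^ 9 * b ^ 0 := by
  positivity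

theorem H1b_p6 (a b : ℝ) (ha : 0 ≤ a) (hb : 0 ≤ b) : 0 ≤ (3655 / 2048) * a ^ 0 * b ^ 9 + (5183 / 512) * a ^ 1 * b ^ 8 + (149 / 8) * a ^ 2 * b ^ 7 + (1815 / 64) * a ^ 3 * b ^ 6 + (17445 / 128) * a ^ 4 * b ^ 5 + (26447 / 64) * a ^ 5 * b ^ 4 + (4953 / 8) * a ^ 6 * b ^ 3 + (31263 / 64) * a ^ 7 * b ^ 2 + (50175 / 256) * a ^ 8 * b ^ 1 + (2021 / 64) * a ^ 9 * b ^ 0 := by
  positivity

theorem H1b_p7 (a b : ℝ) (ha : 0 ≤ a) (hb : 0 ≤ b) : 0 ≤ (2021 / 64) * a ^ 0 * b ^ 9 + (95337 / 256) * a ^ 1 * b ^ 8 + (121587 / 64) * a ^ 2 * b ^ 7 + (175635 / 32) * a ^ 3 * b ^ 6 + (631787 / 64) * a ^ 4 * b ^ 5 + (1463239 / 128) * a ^ 5 * b ^ 4 + (543851 / 64) * a ^ 6 * b ^ 3 + (124731 / 32) * a ^ 7 * b ^ 2 + (511199 / 512) * a ^ 8 * b ^ 1 + (222641 / 2048) * a ^ 9 * b ^ 0 := by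
  positivity

theorem H1b_p8 (a b : ℝ) (ha : 0 ≤ a) (hb : 0 ≤ b) : 0 ≤ (222641 / 2048) * a ^ 0 * b ^ 9 + (981371 / 1024) * a ^ 1 * b ^ 8 + (457897 / 128) * a ^ 2 * b ^ 7 + (116823 / 16) * a ^ 3 * b ^ 6 + (1118909 / 128) * a ^ 4 * b ^ 5 + (193807 / 32) * a ^ 5 * b ^ 4 + (69713 / 32) * a ^ 6 * b ^ 3 + (18657 / 64) * a ^ 7 * b ^ 2 + (5465 / 256) * a ^ 8 * b ^ 1 + (2503 / 128) * a ^ 9 * b ^ 0 := by
  positivity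

theorem H1b_p9 (a b : ℝ) (ha : 0 ≤ a) (hb : 0 ≤ b) : 0 ≤ (2503 / 65536) * a ^ 0 * b ^ 9 + (15529 / 16384) * a ^ 1 * b ^ 8 + (207267 / 16384) * a ^ 2 * b ^ 7 + (325199 / 4096) * a ^ 3 * b ^ 6 + (8870441 / 32768) * a ^ 4 * b ^ 5 + (4473337 / 8192) * a ^ 5 * b ^ 4 + (10971687 / 16384) * a ^ 6 * b ^ 3 + (1996645 / 4096) * a ^ 7 * b ^ 2 + (12535711 / 65536) * a ^ 8 * b ^ 1 + (498485 / 16384) * a ^ 9 * b ^ 0 := by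
  positivity

theorem H1b_on0 (t : ℝ) (h0 : (-1) ≤ t) (h3 : t ≤ (0)) : 0 ≤ H1b t := by
  have e : H1b t = (1) * (t - (-1)) ^ 0 * ((0) - t) ^ 9 + (329365 / 65536) * (t - (-1)) ^ 1 * ((0) - t) ^ 8 + (63597 / 4096) * (t - (-1)) ^ 2 * ((0) - t) ^ 7 + (439241 / 16384) * (t - (-1)) ^ 3 * ((0) - t) ^ 6 + (52301 / 2048) * (t - (-1)) ^ 4 * ((0) - t) ^ 5 + (445435 / 32768) * (t - (-1)) ^ 5 * ((0) - t) ^ 4 + (16089 / 4096) * (t - (-1)) ^ 6 * ((0) - t) ^ 3 + (9013 / 16384) * (t - (-1)) ^ 7 * ((0) - t) ^ 2 + (7 / 256) * (t - (-1)) ^ 8 * ((0) - t) ^ 1 + (29 / 65536) * (t - (-1)) ^ 9 * ((0) - t) ^ 0 := by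
    unfold H1b
    ring
  rw [e]
  exact H1b_p0 _ _ (by linarith) (by linarith)

theorem H1b_on1 (t : ℝ) (h0 : (0) ≤ t) (h3 : t ≤ (1 / 32)) : 0 ≤ H1b t := by
  have e : H1b t = (15569256448) * (t - (0)) ^ 0 * ((1 / 32) - t) ^ 9 + (114437390336) * (t - (0)) ^ 1 * ((1 / 32) - t) ^ 8 + (366938685440) * (t - (0)) ^ 2 * ((1 / 32) - t) ^ 7 + (671276335104) * (t - (0)) ^ 3 * ((1 / 32) - t) ^ 6 + (768716603392) * (t - (0)) ^ 4 * ((1 / 32) - t) ^ 5 + (568401920000) * (t - (0)) ^ 5 * ((1 / 32) - t) ^ 4 + (269790668224) * (t - (0)) ^ 6 * ((1 / 32) - t) ^ 3 + (78940188474) * (t - (0)) ^ 7 * ((1 / 32) - t) ^ 2 + (831748001609 / 64) * (t - (0)) ^ 8 * ((1 / 32) - t) ^ 1 + (1956745451725 / 2048) * (t - (0)) ^ 9 * ((1 / 32) - t) ^ 0 := by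
    unfold H1b
    ring
  rw [e]
  exact H1b_p1 _ _ (by linarith) (by linarith)

theorem H1b_on2 (t : ℝ) (h0 : (1 / 32) ≤ t) (h3 : t ≤ (1 / 16)) : 0 ≤ H1b t := by
  have e : H1b t = (1956745451725 / 2048) * (t - (1 / 32)) ^ 0 * ((1 / 16) - t) ^ 9 + (4302741039781 / 1024) * (t - (1 / 32)) ^ 1 * ((1 / 16) - t) ^ 8 + (1099117138709 / 128) * (t - (1 / 32)) ^ 2 * ((1 / 16) - t) ^ 7 + (1399684412385 / 64) * (t - (1 / 32)) ^ 3 * ((1 / 16) - t) ^ 6 + (4212801658035 / 64) * (t - (1 / 32)) ^ 4 * ((1 / 16) - t) ^ 5 + (4091771386051 / 32) * (t - (1 / 32)) ^ 5 * ((1 / 16) - t) ^ 4 + (1161053626353 / 8) * (t - (1 / 32)) ^ 6 * ((1 / 16) - t) ^ 3 + (381815783493 / 4) * (t - (1 / 32)) ^ 7 * ((1 / 16) - t) ^ 2 + (271901648565 / 8) * (t - (1 / 32)) ^ 8 * ((1 / 16) - t) ^ 1 + (20371855421 / 4) * (t - (1 / 32)) ^ 9 * ((1 / 16)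 - t) ^ 0 := by
    unfold H1b
    ring
  rw [e]
  exact H1b_p2 _ _ (by linarith) (by linarith)

theorem H1b_on3 (t : ℝ) (h0 : (1 / 16) ≤ t) (h3 : t ≤ (1 / 8)) : 0 ≤ H1b t := by
  have e : H1b t = (20371855421 / 2048) * (t - (1 / 16)) ^ 0 * ((1 / 8) - t) ^ 9 + (139069223901 / 1024) * (t - (1 / 16)) ^ 1 * ((1 / 8) - t) ^ 8 + (100131545301 / 128) * (t - (1 / 16)) ^ 2 * ((1 / 8) - t) ^ 7 + (159764498889 / 64) * (t - (1 / 16)) ^ 3 * ((1 / 8) - t) ^ 6 + (313758680995 / 64) * (t - (1 / 16)) ^ 4 * ((1 / 8) - t) ^ 5 + (198208805547 / 32) * (t - (1 / 16)) ^ 5 * ((1 / 8) - t) ^ 4 + (40542203601 / 8) * (t - (1 / 16)) ^ 6 * ((1 / 8) - t) ^ 3 + (10409685101 / 4) * (t - (1 / 16)) ^ 7 * ((1 / 8) - t) ^ 2 + (6113211109 / 8) * (t - (1 / 16)) ^ 8 * ((1 / 8) - t) ^ 1 + (392218357 / 4) * (t - (1 / 16)) ^ 9 * ((1 / 8) - t) ^ 0 :=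 by
    unfold H1b
    ring
  rw [e]
  exact H1b_p3 _ _ (by linarith) (by linarith)

theorem H1b_on4 (t : ℝ) (h0 : (1 / 8) ≤ t) (h3 : t ≤ (1 / 4)) : 0 ≤ H1b t := by
  have e : H1b t = (392218357 / 2048) * (t - (1 / 8)) ^ 0 * ((1 / 4) - t) ^ 9 + (2238342265 / 1024) * (t - (1 / 8)) ^ 1 * ((1 / 4) - t) ^ 8 + (1375026341 / 128) * (t - (1 / 8)) ^ 2 * ((1 / 4) - t) ^ 7 + (1914586509 / 64) * (t - (1 / 8)) ^ 3 * ((1 / 4) - t) ^ 6 + (3340820091 / 64) * (t - (1 / 8)) ^ 4 * ((1 / 4) - t) ^ 5 + (1900018879 / 32) * (t - (1 / 8)) ^ 5 * ((1 / 4) - t) ^ 4 + (353165841 / 8) * (t - (1 / 8)) ^ 6 * ((1 / 4) - t) ^ 3 + (82942449 / 4) * (t - (1 / 8)) ^ 7 * ((1 / 4) - t) ^ 2 + (44751933 / 8) * (t - (1 / 8)) ^ 8 * ((1 / 4) - t) ^ 1 + (2645777 / 4) * (t - (1 / 8)) ^ 9 * ((1 / 4) - t) ^ 0 := by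
    unfold H1b
    ring
  rw [e]
  exact H1b_p4 _ _ (by linarith) (by linarith)

theorem H1b_on5 (t : ℝ) (h0 : (1 / 4) ≤ t) (h3 : t ≤ (1 / 2)) : 0 ≤ H1b t := by
  have e : H1b t = (2645777 / 2048) * (t - (1 / 4)) ^ 0 * ((1 / 2) - t) ^ 9 + (13342023 / 1024) * (t - (1 / 4)) ^ 1 * ((1 / 2) - t) ^ 8 + (7184697 / 128) * (t - (1 / 4)) ^ 2 * ((1 / 2) - t) ^ 7 + (8676171 / 64) * (t - (1 / 4)) ^ 3 * ((1 / 2) - t) ^ 6 + (12952063 / 64) * (t - (1 / 4)) ^ 4 * ((1 / 2) - t) ^ 5 + (6199521 / 32) * (t - (1 / 4)) ^ 5 * ((1 / 2) - t) ^ 4 + (952005 / 8) * (t - (1 / 4)) ^ 6 * ((1 / 2) - t) ^ 3 + (181199 / 4) * (t - (1 / 4)) ^ 7 * ((1 / 2) - t) ^ 2 + (77953 / 8) * (t - (1 / 4)) ^ 8 * ((1 / 2) - t) ^ 1 + (3655 / 4) * (t - (1 / 4)) ^ 9 * ((1 / 2) - t) ^ 0 := by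
    unfold H1b
    ring
  rw [e]
  exact H1b_p5 _ _ (by linarith) (by linarith)

theorem H1b_on6 (t : ℝ) (h0 : (1 / 2) ≤ t) (h3 : t ≤ (1)) : 0 ≤ H1b t := by
  have e : H1b t = (3655 / 2048) * (t - (1 / 2)) ^ 0 * ((1) - t) ^ 9 + (5183 / 512) * (t - (1 / 2)) ^ 1 * ((1) - t) ^ 8 + (149 / 8) * (t - (1 / 2)) ^ 2 * ((1) - t) ^ 7 + (1815 / 64) * (t - (1 / 2)) ^ 3 * ((1) - t) ^ 6 + (17445 / 128) * (t - (1 / 2)) ^ 4 * ((1) - t) ^ 5 + (26447 / 64) * (t - (1 / 2)) ^ 5 * ((1) - t) ^ 4 + (4953 / 8) * (t - (1 / 2)) ^ 6 * ((1) - t) ^ 3 + (31263 / 64) * (t - (1 / 2)) ^ 7 * ((1) - t) ^ 2 + (50175 / 256) * (t - (1 / 2)) ^ 8 * ((1) - t) ^ 1 + (2021 / 64) * (t - (1 / 2)) ^ 9 * ((1) - t) ^ 0 := by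
    unfold H1b
    ring
  rw [e]
  exact H1b_p6 _ _ (by linarith) (by linarith)

theorem H1b_on7 (t : ℝ) (h0 : (1) ≤ t) (h3 : t ≤ (3 / 2)) : 0 ≤ H1b t := by
  have e : H1b t = (2021 / 64) * (t - (1)) ^ 0 * ((3 / 2) - t) ^ 9 + (95337 / 256) * (t - (1)) ^ 1 * ((3 / 2) - t) ^ 8 + (121587 / 64) * (t - (1)) ^ 2 * ((3 / 2) - t) ^ 7 + (175635 / 32) * (t - (1)) ^ 3 * ((3 / 2) - t) ^ 6 + (631787 / 64) * (t - (1)) ^ 4 * ((3 / 2) - t) ^ 5 + (1463239 / 128) * (t - (1)) ^ 5 * ((3 / 2) - t) ^ 4 + (543851 / 64) * (t - (1)) ^ 6 * ((3 / 2) - t) ^ 3 + (124731 / 32) * (t - (1)) ^ 7 * ((3 / 2) - t) ^ 2 + (511199 / 512) * (t - (1)) ^ 8 * ((3 / 2) - t) ^ 1 + (222641 / 2048) * (t - (1)) ^ 9 * ((3 / 2) - t) ^ 0 := by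
    unfold H1b
    ring
  rw [e]
  exact H1b_p7 _ _ (by linarith) (by linarith)

theorem H1b_on8 (t : ℝ) (h0 : (3 / 2) ≤ t) (h3 : t ≤ (2)) : 0 ≤ H1b t := by
  have e : H1b t = (222641 / 2048) * (t - (3 / 2)) ^ 0 * ((2) - t) ^ 9 + (981371 / 1024) * (t - (3 / 2)) ^ 1 * ((2) - t) ^ 8 + (457897 / 128) * (t - (3 / 2)) ^ 2 * ((2) - t) ^ 7 + (116823 / 16) * (t - (3 / 2)) ^ 3 * ((2) - t) ^ 6 + (1118909 / 128) * (t - (3 / 2)) ^ 4 * ((2) - t) ^ 5 + (193807 / 32) * (t - (3 / 2)) ^ 5 * ((2) - t) ^ 4 + (69713 / 32) * (t - (3 / 2)) ^ 6 * ((2) - t) ^ 3 + (18657 / 64) * (t - (3 / 2)) ^ 7 * ((2) - t) ^ 2 + (5465 / 256) * (t - (3 / 2)) ^ 8 * ((2) - t) ^ 1 + (2503 / 128) * (t - (3 / 2)) ^ 9 * ((2) - t) ^ 0 := by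
    unfold H1b
    ring
  rw [e]
  exact H1b_p8 _ _ (by linarith) (by linarith)

theorem H1b_on9 (t : ℝ) (h0 : (2) ≤ t) (h3 : t ≤ (3)) : 0 ≤ H1b t := by
  have e : H1b t = (2503 / 65536) * (t - (2)) ^ 0 * ((3) - t) ^ 9 + (15529 / 16384) * (t - (2)) ^ 1 * ((3) - t) ^ 8 + (207267 / 16384) * (t - (2)) ^ 2 * ((3) - t) ^ 7 + (325199 / 4096) * (t - (2)) ^ 3 * ((3) - t) ^ 6 + (8870441 / 32768) * (t - (2)) ^ 4 * ((3) - t) ^ 5 + (4473337 / 8192) * (t - (2)) ^ 5 * ((3) - t) ^ 4 + (10971687 / 16384) * (t - (2)) ^ 6 * ((3) - t) ^ 3 + (1996645 / 4096) * (t - (2)) ^ 7 * ((3) - t) ^ 2 + (12535711 / 65536) * (t - (2)) ^ 8 * ((3) - t) ^ 1 + (498485 / 16384) * (t - (2)) ^ 9 * ((3) - t) ^ 0 := by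
    unfold H1b
    ring
  rw [e]
  exact H1b_p9 _ _ (by linarith) (by linarith)

theorem H1b_nonneg (t : ℝ) (h0 : -1 ≤ t) (h3 : t ≤ 3) : 0 ≤ H1b t := by
  rcases le_total t (0) with hc0 | hc0
  · exact H1b_on0 t (by linarith) hc0
  rcases le_total t (1 / 32) with hc1 | hc1
  · exact H1b_on1 t (by linarith) hc1
  rcases le_total t (1 / 16) with hc2 | hc2
  · exact H1b_on2 t (by linarith) hc2
  rcases le_total t (1 / 8) with hc3 | hc3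
  · exact H1b_on3 t (by linarith) hc3
  rcases le_total t (1 / 4) with hc4 | hc4
  · exact H1b_on4 t (by linarith) hc4
  rcases le_total t (1 / 2) with hc5 | hc5
  · exact H1b_on5 t (by linarith) hc5
  rcases le_total t (1) with hc6 | hc6
  · exact H1b_on6 t (by linarith) hc6
  rcases le_total t (3 / 2) with hc7 | hc7
  · exact H1b_on7 t (by linarith) hc7
  rcases le_total t (2) with hc8 | hc8
  · exact H1b_on8 t (by linarith) hc8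
  exact H1b_on9 t (by linarith) (by linarith)

/-- the remaining factor of a validity condition -/
noncomputable def H2b (t : ℝ) : ℝ := (69 / 8192) + (-259 / 4096) * t ^ 1 + (37 / 8192) * t ^ 2 + (391 / 512) * t ^ 3 + (-27 / 32) * t ^ 4 + (-37 / 16) * t ^ 5 + (239 / 64) * t ^ 6 + (247 / 512) * t ^ 7 + (-589 / 256) * t ^ 8 + (375 / 512) * t ^ 9

theorem H2b_p0 (a b : ℝ) (ha : 0 ≤ a) (hb : 0 ≤ b) : 0 ≤ (512) * a ^ 0 * b ^ 9 + (4608) * a ^ 1 * b ^ 8 + (941029 / 64) * a ^ 2 * b ^ 7 + (1547395 / 64) * a ^ 3 * b ^ 6 + (1492317 / 64) * a ^ 4 * b ^ 5 + (883101 / 64) * a ^ 5 * b ^ 4 + (159689 / 32) * a ^ 6 * b ^ 3 + (134159 / 128) * a ^ 7 * b ^ 2 + (29027 / 256) * a ^ 8 * b ^ 1 + (2465 / 512) * a ^ 9 * b ^ 0 := by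
  positivity

theorem H2b_p1 (a b : ℝ) (ha : 0 ≤ a) (hb : 0 ≤ b) : 0 ≤ (646184960) * a ^ 0 * b ^ 9 + (4640309248) * a ^ 1 * b ^ 8 + (14519042048) * a ^ 2 * b ^ 7 + (25873055744) * a ^ 3 * b ^ 6 + (28780533888) * a ^ 4 * b ^ 5 + (20571676272) * a ^ 5 * b ^ 4 + (9353701568) * a ^ 6 * b ^ 3 + (2574436583) * a ^ 7 * b ^ 2 + (24553823517 / 64) * a ^ 8 * b ^ 1 + (12102712415 / 512) * a ^ 9 * b ^ 0 := by
  positivity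

theorem H2b_p2 (a b : ℝ) (ha : 0 ≤ a) (hb : 0 ≤ b) : 0 ≤ (6196588756480) * a ^ 0 * b ^ 9 + (44568508228992) * a ^ 1 * b ^ 8 + (139306533713792) * a ^ 2 * b ^ 7 + (247375016214752) * a ^ 3 * b ^ 6 + (273885762812868) * a ^ 4 * b ^ 5 + (195506925125597) * a ^ 5 * b ^ 4 + (180529435947827 / 2) * a ^ 6 * b ^ 3 + (212649287538611 / 8) * a ^ 7 * b ^ 2 + (620823387675191 / 128) * a ^ 8 * b ^ 1 + (241753836338835 / 512) * a ^ 9 * b ^ 0 := by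
  positivity

theorem H2b_p3 (a b : ℝ) (ha : 0 ≤ a) (hb : 0 ≤ b) : 0 ≤ (241753836338835 / 512) * a ^ 0 * b ^ 9 + (934137751699133 / 256) * a ^ 1 * b ^ 8 + (543088126503195 / 32) * a ^ 2 * b ^ 7 + (895247699161353 / 16) * a ^ 3 * b ^ 6 + (1986747237040717 / 16) * a ^ 4 * b ^ 5 + (1437058342960651 / 8) * a ^ 5 * b ^ 4 + (333098049434783 / 2) * a ^ 6 * b ^ 3 + (95504205214573) * a ^ 7 * b ^ 2 + (61783162561771 / 2) * a ^ 8 * b ^ 1 + (4317532853333) * a ^ 9 * b ^ 0 := by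
  positivity

theorem H2b_p4 (a b : ℝ) (ha : 0 ≤ a) (hb : 0 ≤ b) : 0 ≤ (4317532853333 / 512) * a ^ 0 * b ^ 9 + (13697556119555 / 128) * a ^ 1 * b ^ 8 + (4657836935245 / 8) * a ^ 2 * b ^ 7 + (3565502289367 / 2) * a ^ 3 * b ^ 6 + (3400067922955) * a ^ 4 * b ^ 5 + (4208777361620) * a ^ 5 * b ^ 4 + (3395751681312) * a ^ 6 * b ^ 3 + (1728061028736) * a ^ 7 * b ^ 2 + (504739520128) * a ^ 8 * b ^ 1 + (64619730432) * a ^ 9 * b ^ 0 := by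
  positivity

theorem H2b_p5 (a b : ℝ) (ha : 0 ≤ a) (hb : 0 ≤ b) : 0 ≤ (126210411 / 512) * a ^ 0 * b ^ 9 + (868095497 / 256) * a ^ 1 * b ^ 8 + (616261063 / 32) * a ^ 2 * b ^ 7 + (953526713 / 16) * a ^ 3 * b ^ 6 + (1795265245 / 16) * a ^ 4 * b ^ 5 + (1078492935 / 8) * a ^ 5 * b ^ 4 + (208526003 / 2) * a ^ 6 * b ^ 3 + (50377045) * a ^ 7 * b ^ 2 + (27731955 / 2) * a ^ 8 * b ^ 1 + (1662641) * a ^ 9 * b ^ 0 := by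
  positivity

theorem H2b_p6 (a b : ℝ) (ha : 0 ≤ a) (hb : 0 ≤ b) : 0 ≤ (1662641 / 512) * a ^ 0 * b ^ 9 + (2144919 / 64) * a ^ 1 * b ^ 8 + (4664809 / 32) * a ^ 2 * b ^ 7 + (351533) * a ^ 3 * b ^ 6 + (520230) * a ^ 4 * b ^ 5 + (492194) * a ^ 5 * b ^ 4 + (298894) * a ^ 6 * b ^ 3 + (112714) * a ^ 7 * b ^ 2 + (24016) * a ^ 8 * b ^ 1 + (2208) * a ^ 9 * b ^ 0 := by
  positivity

theorem H2b_p7 (a b : ℝ) (ha : 0 ≤ a) (hb : 0 ≤ b) : 0 ≤ (2208) * a ^ 0 * b ^ 9 + (15728) * a ^ 1 * b ^ 8 + (46410) * a ^ 2 * b ^ 7 + (73086) * a ^ 3 * b ^ 6 + (65602) * a ^ 4 * b ^ 5 + (32726) * a ^ 5 * b ^ 4 + (7789) * a ^ 6 * b ^ 3 + (14807 / 32) * a ^ 7 * b ^ 2 + (2639 / 64) * a ^ 8 * b ^ 1 + (24703 / 512) * a ^ 9 * b ^ 0 := by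
  positivity

theorem H2b_p8 (a b : ℝ) (ha : 0 ≤ a) (hb : 0 ≤ b) : 0 ≤ (24703 / 512) * a ^ 0 * b ^ 9 + (211771 / 256) * a ^ 1 * b ^ 8 + (108011 / 16) * a ^ 2 * b ^ 7 + (52987 / 2) * a ^ 3 * b ^ 6 + (910743 / 16) * a ^ 4 * b ^ 5 + (577863 / 8) * a ^ 5 * b ^ 4 + (55682) * a ^ 6 * b ^ 3 + (25760) * a ^ 7 * b ^ 2 + (13371 / 2) * a ^ 8 * b ^ 1 + (775) * a ^ 9 * b ^ 0 := by
  positivity

theorem H2b_p9 (a b : ℝ) (ha : 0 ≤ a) (hb : 0 ≤ b) : 0 ≤ (775 / 512) * a ^ 0 * b ^ 9 + (3777 / 256) * a ^ 1 * b ^ 8 + (8309 / 128) * a ^ 2 * b ^ 7 + (3331 / 16) * a ^ 3 * b ^ 6 + (38097 / 64) * a ^ 4 * b ^ 5 + (83253 / 64) * a ^ 5 * b ^ 4 + (116323 / 64) * a ^ 6 * b ^ 3 + (94309 / 64) * a ^ 7 * b ^ 2 + (4981 / 8) * a ^ 8 * b ^ 1 + (421 / 4) * a ^ 9 * b ^ 0 := by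
  positivity

theorem H2b_p10 (a b : ℝ) (ha : 0 ≤ a) (hb : 0 ≤ b) : 0 ≤ (421 / 4) * a ^ 0 * b ^ 9 + (10175 / 8) * a ^ 1 * b ^ 8 + (426725 / 64) * a ^ 2 * b ^ 7 + (1267619 / 64) * a ^ 3 * b ^ 6 + (2337205 / 64) * a ^ 4 * b ^ 5 + (2751365 / 64) * a ^ 5 * b ^ 4 + (511287 / 16) * a ^ 6 * b ^ 3 + (1823403 / 128) * a ^ 7 * b ^ 2 + (868633 / 256) * a ^ 8 * b ^ 1 + (167469 / 512) * a ^ 9 * b ^ 0 := by
  positivity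

theorem H2b_p11 (a b : ℝ) (ha : 0 ≤ a) (hb : 0 ≤ b) : 0 ≤ (167469) * a ^ 0 * b ^ 9 + (2784397 / 2) * a ^ 1 * b ^ 8 + (4964796) * a ^ 2 * b ^ 7 + (9854166) * a ^ 3 * b ^ 6 + (94222349 / 8) * a ^ 4 * b ^ 5 + (136218641 / 16) * a ^ 5 * b ^ 4 + (6984959 / 2) * a ^ 6 * b ^ 3 + (10711225 / 16) * a ^ 7 * b ^ 2 + (7418393 / 256) * a ^ 8 * b ^ 1 + (1042345 / 512) * a ^ 9 * b ^ 0 := by
  positivity

theorem H2b_p12 (a b : ℝ) (ha : 0 ≤ a) (hb : 0 ≤ b) : 0 ≤ (1042345 / 512) * a ^ 0 * b ^ 9 + (245339 / 32) * a ^ 1 * b ^ 8 + (15966769 / 32) * a ^ 2 * b ^ 7 + (16009493 / 4) * a ^ 3 * b ^ 6 + (13959888) * a ^ 4 * b ^ 5 + (27009522) * a ^ 5 * b ^ 4 + (31290446) * a ^ 6 * b ^ 3 + (21715082) * a ^ 7 * b ^ 2 + (8362032) * a ^ 8 * b ^ 1 + (1378720) * a ^ 9 * b ^ 0 := by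
  positivity

theorem H2b_p13 (a b : ℝ) (ha : 0 ≤ a) (hb : 0 ≤ b) : 0 ≤ (43085 / 8192) * a ^ 0 * b ^ 9 + (893571 / 8192) * a ^ 1 * b ^ 8 + (7823881 / 8192) * a ^ 2 * b ^ 7 + (38147743 / 8192) * a ^ 3 * b ^ 6 + (115024191 / 8192) * a ^ 4 * b ^ 5 + (223951609 / 8192) * a ^ 5 * b ^ 4 + (283111331 / 8192) * a ^ 6 * b ^ 3 + (225049061 / 8192) * a ^ 7 * b ^ 2 + (12802357 / 1024) * a ^ 8 * b ^ 1 + (1274085 / 512) * a ^ 9 * b ^ 0 := by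
  positivity

theorem H2b_on0 (t : ℝ) (h0 : (-1) ≤ t) (h3 : t ≤ (-1 / 2)) : 0 ≤ H2b t := by
  have e : H2b t = (512) * (t - (-1)) ^ 0 * ((-1 / 2) - t) ^ 9 + (4608) * (t - (-1)) ^ 1 * ((-1 / 2) - t) ^ 8 + (941029 / 64) * (t - (-1)) ^ 2 * ((-1 / 2) - t) ^ 7 + (1547395 / 64) * (t - (-1)) ^ 3 * ((-1 / 2) - t) ^ 6 + (1492317 / 64) * (t - (-1)) ^ 4 * ((-1 / 2) - t) ^ 5 + (883101 / 64) * (t - (-1)) ^ 5 * ((-1 / 2) - t) ^ 4 + (159689 / 32) * (t - (-1)) ^ 6 * ((-1 / 2) - t) ^ 3 + (134159 / 128) * (t - (-1)) ^ 7 * ((-1 / 2) - t) ^ 2 + (29027 / 256) * (t - (-1)) ^ 8 * ((-1 / 2) - t) ^ 1 + (2465 / 512) * (t - (-1)) ^ 9 * ((-1 / 2) - t) ^ 0 := by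
    unfold H2b
    ring
  rw [e]
  exact H2b_p0 _ _ (by linarith) (by linarith)

theorem H2b_on1 (t : ℝ) (h0 : (-1 / 2) ≤ t) (h3 : t ≤ (-7 / 16)) : 0 ≤ H2b t := by
  have e : H2b t = (646184960) * (t - (-1 / 2)) ^ 0 * ((-7 / 16) - t) ^ 9 + (4640309248) * (t - (-1 / 2)) ^ 1 * ((-7 / 16) - t) ^ 8 + (14519042048) * (t - (-1 / 2)) ^ 2 * ((-7 / 16) - t) ^ 7 + (25873055744) * (t - (-1 / 2)) ^ 3 * ((-7 / 16) - t) ^ 6 + (28780533888) * (t - (-1 / 2)) ^ 4 * ((-7 / 16) - t) ^ 5 + (20571676272) * (t - (-1 / 2)) ^ 5 * ((-7 / 16) - t) ^ 4 + (9353701568) * (t - (-1 / 2)) ^ 6 * ((-7 / 16) - t) ^ 3 + (2574436583) * (t - (-1 / 2)) ^ 7 * ((-7 / 16) - t) ^ 2 + (24553823517 / 64) * (t - (-1 / 2)) ^ 8 * ((-7 / 16) - t) ^ 1 + (12102712415 / 512) * (t - (-1 / 2)) ^ 9 * ((-7 / 16) - t) ^ 0 := by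
    unfold H2b
    ring
  rw [e]
  exact H2b_p1 _ _ (by linarith) (by linarith)

theorem H2b_on2 (t : ℝ) (h0 : (-7 / 16) ≤ t) (h3 : t ≤ (-27 / 64)) : 0 ≤ H2b t := by
  have e : H2b t = (6196588756480) * (t - (-7 / 16)) ^ 0 * ((-27 / 64) - t) ^ 9 + (44568508228992) * (t - (-7 / 16)) ^ 1 * ((-27 / 64) - t) ^ 8 + (139306533713792) * (t - (-7 / 16)) ^ 2 * ((-27 / 64) - t) ^ 7 + (247375016214752) * (t - (-7 / 16)) ^ 3 * ((-27 / 64) - t) ^ 6 + (273885762812868) * (t - (-7 / 16)) ^ 4 * ((-27 / 64) - t) ^ 5 + (195506925125597) * (t - (-7 / 16)) ^ 5 * ((-27 / 64) - t) ^ 4 + (180529435947827 / 2) * (t - (-7 / 16)) ^ 6 * ((-27 / 64) - t) ^ 3 + (212649287538611 / 8) * (t - (-7 / 16)) ^ 7 * ((-27 / 64) - t) ^ 2 + (620823387675191 / 128) * (t - (-7 / 16)) ^ 8 * ((-27 / 64) - t) ^ 1 + (241753836338835 / 512) * (t - (-7 /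 16)) ^ 9 * ((-27 / 64) - t) ^ 0 := by
    unfold H2b
    ring
  rw [e]
  exact H2b_p2 _ _ (by linarith) (by linarith)

theorem H2b_on3 (t : ℝ) (h0 : (-27 / 64) ≤ t) (h3 : t ≤ (-13 / 32)) : 0 ≤ H2b t := by
  have e : H2b t = (241753836338835 / 512) * (t - (-27 / 64)) ^ 0 * ((-13 / 32) - t) ^ 9 + (934137751699133 / 256) * (t - (-27 / 64)) ^ 1 * ((-13 / 32) - t) ^ 8 + (543088126503195 / 32) * (t - (-27 / 64)) ^ 2 * ((-13 / 32) - t) ^ 7 + (895247699161353 / 16) * (t - (-27 / 64)) ^ 3 * ((-13 / 32) - t) ^ 6 + (1986747237040717 / 16) * (t - (-27 / 64)) ^ 4 * ((-13 / 32) - t) ^ 5 + (1437058342960651 / 8) * (t - (-27 / 64)) ^ 5 * ((-13 / 32) - t) ^ 4 + (333098049434783 / 2) * (t - (-27 / 64)) ^ 6 * ((-13 / 32) - t) ^ 3 + (95504205214573) * (t - (-27 / 64)) ^ 7 * ((-13 / 32) - t) ^ 2 + (61783162561771 / 2) * (t - (-27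 / 64)) ^ 8 * ((-13 / 32) - t) ^ 1 + (4317532853333) * (t - (-27 / 64)) ^ 9 * ((-13 / 32) - t) ^ 0 := by
    unfold H2b
    ring
  rw [e]
  exact H2b_p3 _ _ (by linarith) (by linarith)

theorem H2b_on4 (t : ℝ) (h0 : (-13 / 32) ≤ t) (h3 : t ≤ (-3 / 8)) : 0 ≤ H2b t := by
  have e : H2b t = (4317532853333 / 512) * (t - (-13 / 32)) ^ 0 * ((-3 / 8) - t) ^ 9 + (13697556119555 / 128) * (t - (-13 / 32)) ^ 1 * ((-3 / 8) - t) ^ 8 + (4657836935245 / 8) * (t - (-13 / 32)) ^ 2 * ((-3 / 8) - t) ^ 7 + (3565502289367 / 2) * (t - (-13 / 32)) ^ 3 * ((-3 / 8) - t) ^ 6 + (3400067922955) * (t - (-13 / 32)) ^ 4 * ((-3 / 8) - t) ^ 5 + (4208777361620) * (t - (-13 / 32)) ^ 5 * ((-3 / 8) - t) ^ 4 + (3395751681312) * (t - (-13 / 32)) ^ 6 * ((-3 / 8) - t) ^ 3 + (1728061028736) * (t - (-13 / 32)) ^ 7 * ((-3 / 8) - t) ^ 2 + (504739520128)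 * (t - (-13 / 32)) ^ 8 * ((-3 / 8) - t) ^ 1 + (64619730432) * (t - (-13 / 32)) ^ 9 * ((-3 / 8) - t) ^ 0 := by
    unfold H2b
    ring
  rw [e]
  exact H2b_p4 _ _ (by linarith) (by linarith)

theorem H2b_on5 (t : ℝ) (h0 : (-3 / 8) ≤ t) (h3 : t ≤ (-1 / 4)) : 0 ≤ H2b t := by
  have e : H2b t = (126210411 / 512) * (t - (-3 / 8)) ^ 0 * ((-1 / 4) - t) ^ 9 + (868095497 / 256) * (t - (-3 / 8)) ^ 1 * ((-1 / 4) - t) ^ 8 + (616261063 / 32) * (t - (-3 / 8)) ^ 2 * ((-1 / 4) - t) ^ 7 + (953526713 / 16) * (t - (-3 / 8)) ^ 3 * ((-1 / 4) - t) ^ 6 + (1795265245 / 16) * (t - (-3 / 8)) ^ 4 * ((-1 / 4) - t) ^ 5 + (1078492935 / 8) * (t - (-3 / 8)) ^ 5 * ((-1 / 4) - t) ^ 4 + (208526003 / 2) * (t - (-3 / 8)) ^ 6 * ((-1 / 4) - t) ^ 3 + (50377045) * (t - (-3 / 8)) ^ 7 * ((-1 / 4) - t) ^ 2 + (27731955 / 2) * (t - (-3 / 8)) ^ 8 * ((-1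 / 4) - t) ^ 1 + (1662641) * (t - (-3 / 8)) ^ 9 * ((-1 / 4) - t) ^ 0 := by
    unfold H2b
    ring
  rw [e]
  exact H2b_p5 _ _ (by linarith) (by linarith)

theorem H2b_on6 (t : ℝ) (h0 : (-1 / 4) ≤ t) (h3 : t ≤ (0)) : 0 ≤ H2b t := by
  have e : H2b t = (1662641 / 512) * (t - (-1 / 4)) ^ 0 * ((0) - t) ^ 9 + (2144919 / 64) * (t - (-1 / 4)) ^ 1 * ((0) - t) ^ 8 + (4664809 / 32) * (t - (-1 / 4)) ^ 2 * ((0) - t) ^ 7 + (351533) * (t - (-1 / 4)) ^ 3 * ((0) - t) ^ 6 + (520230) * (t - (-1 / 4)) ^ 4 * ((0) - t) ^ 5 + (492194) * (t - (-1 / 4)) ^ 5 * ((0) - t) ^ 4 + (298894) * (t - (-1 / 4)) ^ 6 * ((0) - t) ^ 3 + (112714) * (t - (-1 / 4)) ^ 7 * ((0) - t) ^ 2 + (24016) * (t - (-1 / 4)) ^ 8 * ((0) - t) ^ 1 + (2208) * (t - (-1 / 4)) ^ 9 * ((0) - t) ^ 0 := by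
    unfold H2b
    ring
  rw [e]
  exact H2b_p6 _ _ (by linarith) (by linarith)

theorem H2b_on7 (t : ℝ) (h0 : (0) ≤ t) (h3 : t ≤ (1 / 4)) : 0 ≤ H2b t := by
  have e : H2b t = (2208) * (t - (0)) ^ 0 * ((1 / 4) - t) ^ 9 + (15728) * (t - (0)) ^ 1 * ((1 / 4) - t) ^ 8 + (46410) * (t - (0)) ^ 2 * ((1 / 4) - t) ^ 7 + (73086) * (t - (0)) ^ 3 * ((1 / 4) - t) ^ 6 + (65602) * (t - (0)) ^ 4 * ((1 / 4) - t) ^ 5 + (32726) * (t - (0)) ^ 5 * ((1 / 4) - t) ^ 4 + (7789) * (t - (0)) ^ 6 * ((1 / 4) - t) ^ 3 + (14807 / 32) * (t - (0)) ^ 7 * ((1 / 4) - t) ^ 2 + (2639 / 64) * (t - (0)) ^ 8 * ((1 / 4) - t) ^ 1 + (24703 / 512) * (t - (0)) ^ 9 * ((1 / 4) - t) ^ 0 := by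
    unfold H2b
    ring
  rw [e]
  exact H2b_p7 _ _ (by linarith) (by linarith)

theorem H2b_on8 (t : ℝ) (h0 : (1 / 4) ≤ t) (h3 : t ≤ (1 / 2)) : 0 ≤ H2b t := by
  have e : H2b t = (24703 / 512) * (t - (1 / 4)) ^ 0 * ((1 / 2) - t) ^ 9 + (211771 / 256) * (t - (1 / 4)) ^ 1 * ((1 / 2) - t) ^ 8 + (108011 / 16) * (t - (1 / 4)) ^ 2 * ((1 / 2) - t) ^ 7 + (52987 / 2) * (t - (1 / 4)) ^ 3 * ((1 / 2) - t) ^ 6 + (910743 / 16) * (t - (1 / 4)) ^ 4 * ((1 / 2) - t) ^ 5 + (577863 / 8) * (t - (1 / 4)) ^ 5 * ((1 / 2) - t) ^ 4 + (55682) * (t - (1 / 4)) ^ 6 * ((1 / 2) - t) ^ 3 + (25760) * (t - (1 / 4)) ^ 7 * ((1 / 2) - t) ^ 2 + (13371 / 2) * (t - (1 / 4)) ^ 8 * ((1 / 2) - t) ^ 1 + (775) * (t - (1 / 4)) ^ 9 * ((1 / 2) - t) ^ 0 := by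
    unfold H2b
    ring
  rw [e]
  exact H2b_p8 _ _ (by linarith) (by linarith)

theorem H2b_on9 (t : ℝ) (h0 : (1 / 2) ≤ t) (h3 : t ≤ (1)) : 0 ≤ H2b t := by
  have e : H2b t = (775 / 512) * (t - (1 / 2)) ^ 0 * ((1) - t) ^ 9 + (3777 / 256) * (t - (1 / 2)) ^ 1 * ((1) - t) ^ 8 + (8309 / 128) * (t - (1 / 2)) ^ 2 * ((1) - t) ^ 7 + (3331 / 16) * (t - (1 / 2)) ^ 3 * ((1) - t) ^ 6 + (38097 / 64) * (t - (1 / 2)) ^ 4 * ((1) - t) ^ 5 + (83253 / 64) * (t - (1 / 2)) ^ 5 * ((1) - t) ^ 4 + (116323 / 64) * (t - (1 / 2)) ^ 6 * ((1) - t) ^ 3 + (94309 / 64) * (t - (1 / 2)) ^ 7 * ((1) - t) ^ 2 + (4981 / 8) * (t - (1 / 2)) ^ 8 * ((1) - t) ^ 1 + (421 / 4) * (t - (1 / 2)) ^ 9 * ((1) - t) ^ 0 := by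
    unfold H2b
    ring
  rw [e]
  exact H2b_p9 _ _ (by linarith) (by linarith)

theorem H2b_on10 (t : ℝ) (h0 : (1) ≤ t) (h3 : t ≤ (3 / 2)) : 0 ≤ H2b t := by
  have e : H2b t = (421 / 4) * (t - (1)) ^ 0 * ((3 / 2) - t) ^ 9 + (10175 / 8) * (t - (1)) ^ 1 * ((3 / 2) - t) ^ 8 + (426725 / 64) * (t - (1)) ^ 2 * ((3 / 2) - t) ^ 7 + (1267619 / 64) * (t - (1)) ^ 3 * ((3 / 2) - t) ^ 6 + (2337205 / 64) * (t - (1)) ^ 4 * ((3 / 2) - t) ^ 5 + (2751365 / 64) * (t - (1)) ^ 5 * ((3 / 2) - t) ^ 4 + (511287 / 16) * (t - (1)) ^ 6 * ((3 / 2) - t) ^ 3 + (1823403 / 128) * (t - (1)) ^ 7 * ((3 / 2) - t) ^ 2 + (868633 / 256) * (t - (1)) ^ 8 * ((3 / 2) - t) ^ 1 + (167469 / 512) * (t - (1)) ^ 9 * ((3 / 2) - t) ^ 0 := by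
    unfold H2b
    ring
  rw [e]
  exact H2b_p10 _ _ (by linarith) (by linarith)

theorem H2b_on11 (t : ℝ) (h0 : (3 / 2) ≤ t) (h3 : t ≤ (7 / 4)) : 0 ≤ H2b t := by
  have e : H2b t = (167469) * (t - (3 / 2)) ^ 0 * ((7 / 4) - t) ^ 9 + (2784397 / 2) * (t - (3 / 2)) ^ 1 * ((7 / 4) - t) ^ 8 + (4964796) * (t - (3 / 2)) ^ 2 * ((7 / 4) - t) ^ 7 + (9854166) * (t - (3 / 2)) ^ 3 * ((7 / 4) - t) ^ 6 + (94222349 / 8) * (t - (3 / 2)) ^ 4 * ((7 / 4) - t) ^ 5 + (136218641 / 16) * (t - (3 / 2)) ^ 5 * ((7 / 4) - t) ^ 4 + (6984959 / 2) * (t - (3 / 2)) ^ 6 * ((7 / 4) - t) ^ 3 + (10711225 / 16) * (t - (3 / 2)) ^ 7 * ((7 / 4) - t) ^ 2 + (7418393 / 256) * (t - (3 / 2)) ^ 8 * ((7 / 4) - t) ^ 1 + (1042345 / 512) * (t - (3 / 2)) ^ 9 * ((7 / 4) - t) ^ 0 := by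
    unfold H2b
    ring
  rw [e]
  exact H2b_p11 _ _ (by linarith) (by linarith)

theorem H2b_on12 (t : ℝ) (h0 : (7 / 4) ≤ t) (h3 : t ≤ (2)) : 0 ≤ H2b t := by
  have e : H2b t = (1042345 / 512) * (t - (7 / 4)) ^ 0 * ((2) - t) ^ 9 + (245339 / 32) * (t - (7 / 4)) ^ 1 * ((2) - t) ^ 8 + (15966769 / 32) * (t - (7 / 4)) ^ 2 * ((2) - t) ^ 7 + (16009493 / 4) * (t - (7 / 4)) ^ 3 * ((2) - t) ^ 6 + (13959888) * (t - (7 / 4)) ^ 4 * ((2) - t) ^ 5 + (27009522) * (t - (7 / 4)) ^ 5 * ((2) - t) ^ 4 + (31290446) * (t - (7 / 4)) ^ 6 * ((2) - t) ^ 3 + (21715082) * (t - (7 / 4)) ^ 7 * ((2) - t) ^ 2 + (8362032) * (t - (7 / 4)) ^ 8 * ((2) - t) ^ 1 + (1378720) * (t - (7 / 4)) ^ 9 * ((2) - t) ^ 0 := by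
    unfold H2b
    ring
  rw [e]
  exact H2b_p12 _ _ (by linarith) (by linarith)

theorem H2b_on13 (t : ℝ) (h0 : (2) ≤ t) (h3 : t ≤ (3)) : 0 ≤ H2b t := by
  have e : H2b t = (43085 / 8192) * (t - (2)) ^ 0 * ((3) - t) ^ 9 + (893571 / 8192) * (t - (2)) ^ 1 * ((3) - t) ^ 8 + (7823881 / 8192) * (t - (2)) ^ 2 * ((3) - t) ^ 7 + (38147743 / 8192) * (t - (2)) ^ 3 * ((3) - t) ^ 6 + (115024191 / 8192) * (t - (2)) ^ 4 * ((3) - t) ^ 5 + (223951609 / 8192) * (t - (2)) ^ 5 * ((3) - t) ^ 4 + (283111331 / 8192) * (t - (2)) ^ 6 * ((3) - t) ^ 3 + (225049061 / 8192) * (t - (2)) ^ 7 * ((3) - t) ^ 2 + (12802357 / 1024) * (t - (2)) ^ 8 * ((3) - t) ^ 1 + (1274085 / 512) * (t - (2)) ^ 9 * ((3) - t) ^ 0 := by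
    unfold H2b
    ring
  rw [e]
  exact H2b_p13 _ _ (by linarith) (by linarith)

theorem H2b_nonneg (t : ℝ) (h0 : -1 ≤ t) (h3 : t ≤ 3) : 0 ≤ H2b t := by
  rcases le_total t (-1 / 2) with hc0 | hc0
  · exact H2b_on0 t (by linarith) hc0
  rcases le_total t (-7 / 16) with hc1 | hc1
  · exact H2b_on1 t (by linarith) hc1
  rcases le_total t (-27 / 64) with hc2 | hc2
  · exact H2b_on2 t (by linarith) hc2
  rcases le_total t (-13 / 32) with hc3 | hc3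
  · exact H2b_on3 t (by linarith) hc3
  rcases le_total t (-3 / 8) with hc4 | hc4
  · exact H2b_on4 t (by linarith) hc4
  rcases le_total t (-1 / 4) with hc5 | hc5
  · exact H2b_on5 t (by linarith) hc5
  rcases le_total t (0) with hc6 | hc6
  · exact H2b_on6 t (by linarith) hc6
  rcases le_total t (1 / 4) with hc7 | hc7
  · exact H2b_on7 t (by linarith) hc7
  rcases le_total t (1 / 2) with hc8 | hc8
  · exact H2b_on8 t (by linarith) hc8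
  rcases le_total t (1) with hc9 | hc9
  · exact H2b_on9 t (by linarith) hc9
  rcases le_total t (3 / 2) with hc10 | hc10
  · exact H2b_on10 t (by linarith) hc10
  rcases le_total t (7 / 4) with hc11 | hc11
  · exact H2b_on11 t (by linarith) hc11
  rcases le_total t (2) with hc12 | hc12
  · exact H2b_on12 t (by linarith) hc12
  exact H2b_on13 t (by linarith) (by linarith)

/-- the remaining factor of a validity condition -/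
noncomputable def H4b (t : ℝ) : ℝ := (89 / 2048) + (-261 / 512) * t ^ 1 + (1787 / 1024) * t ^ 2 + (-571 / 512) * t ^ 3 + (-4007 / 2048) * t ^ 4 + (419 / 128) * t ^ 5 + (69 / 64) * t ^ 6 + (-353 / 128) * t ^ 7 + (-1 / 4) * t ^ 8 + (197 / 256) * t ^ 9

theorem H4b_p0 (a b : ℝ) (ha : 0 ≤ a) (hb : 0 ≤ b) : 0 ≤ (1) * a ^ 0 * b ^ 9 + (9) * a ^ 1 * b ^ 8 + (36) * a ^ 2 * b ^ 7 + (84) * a ^ 3 * b ^ 6 + (216905 / 2048) * a ^ 4 * b ^ 5 + (154429 / 2048) * a ^ 5 * b ^ 4 + (32005 / 1024) * a ^ 6 * b ^ 3 + (7565 / 1024) * a ^ 7 * b ^ 2 + (1845 / 2048) * a ^ 8 * b ^ 1 + (89 / 2048) * a ^ 9 * b ^ 0 := by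
  positivity

theorem H4b_p1 (a b : ℝ) (ha : 0 ≤ a) (hb : 0 ≤ b) : 0 ≤ (5832704) * a ^ 0 * b ^ 9 + (43941888) * a ^ 1 * b ^ 8 + (145217536) * a ^ 2 * b ^ 7 + (275804672) * a ^ 3 * b ^ 6 + (331020688) * a ^ 4 * b ^ 5 + (259649072) * a ^ 5 * b ^ 4 + (132668232) * a ^ 6 * b ^ 3 + (84839247 / 2) * a ^ 7 * b ^ 2 + (7673445) * a ^ 8 * b ^ 1 + (152921669 / 256) * a ^ 9 * b ^ 0 := by
  positivity

theorem H4b_p2 (a b : ℝ) (ha : 0 ≤ a) (hb : 0 ≤ b) : 0 ≤ (305843338) * a ^ 0 * b ^ 9 + (2164483143) * a ^ 1 * b ^ 8 + (6630199146) * a ^ 2 * b ^ 7 + (11470472499) * a ^ 3 * b ^ 6 + (49054431787 / 4) * a ^ 4 * b ^ 5 + (66724567297 / 8) * a ^ 5 * b ^ 4 + (28791154145 / 8) * a ^ 6 * b ^ 3 + (15540206159 / 16) * a ^ 7 * b ^ 2 + (21094779405 / 128) * a ^ 8 * b ^ 1 + (4238905519 / 256) * a ^ 9 * b ^ 0 := by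
  positivity

theorem H4b_p3 (a b : ℝ) (ha : 0 ≤ a) (hb : 0 ≤ b) : 0 ≤ (4238905519 / 256) * a ^ 0 * b ^ 9 + (8527685133 / 64) * a ^ 1 * b ^ 8 + (2875199255 / 4) * a ^ 2 * b ^ 7 + (2667981129) * a ^ 3 * b ^ 6 + (6289575074) * a ^ 4 * b ^ 5 + (9345495000) * a ^ 5 * b ^ 4 + (8758682304) * a ^ 6 * b ^ 3 + (5039140096) * a ^ 7 * b ^ 2 + (1629562624) * a ^ 8 * b ^ 1 + (227316736) * a ^ 9 * b ^ 0 := by
  positivity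

theorem H4b_p4 (a b : ℝ) (ha : 0 ≤ a) (hb : 0 ≤ b) : 0 ≤ (221989 / 256) * a ^ 0 * b ^ 9 + (1812013 / 128) * a ^ 1 * b ^ 8 + (1494219 / 16) * a ^ 2 * b ^ 7 + (2606603 / 8) * a ^ 3 * b ^ 6 + (5431915 / 8) * a ^ 4 * b ^ 5 + (3579409 / 4) * a ^ 5 * b ^ 4 + (757131) * a ^ 6 * b ^ 3 + (400770) * a ^ 7 * b ^ 2 + (121293) * a ^ 8 * b ^ 1 + (16066) * a ^ 9 * b ^ 0 := by
  positivity

theorem H4b_p5 (a b : ℝ) (ha : 0 ≤ a) (hb : 0 ≤ b) : 0 ≤ (8033 / 256) * a ^ 0 * b ^ 9 + (47799 / 128) * a ^ 1 * b ^ 8 + (30825 / 16) * a ^ 2 * b ^ 7 + (182103 / 32) * a ^ 3 * b ^ 6 + (681557 / 64) * a ^ 4 * b ^ 5 + (836521 / 64) * a ^ 5 * b ^ 4 + (41729 / 4) * a ^ 6 * b ^ 3 + (10299 / 2) * a ^ 7 * b ^ 2 + (1408) * a ^ 8 * b ^ 1 + (164) * a ^ 9 * b ^ 0 := by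
  positivity

theorem H4b_p6 (a b : ℝ) (ha : 0 ≤ a) (hb : 0 ≤ b) : 0 ≤ (41 / 128) * a ^ 0 * b ^ 9 + (403 / 128) * a ^ 1 * b ^ 8 + (3075 / 256) * a ^ 2 * b ^ 7 + (2855 / 128) * a ^ 3 * b ^ 6 + (63601 / 2048) * a ^ 4 * b ^ 5 + (196349 / 2048) * a ^ 5 * b ^ 4 + (294345 / 1024) * a ^ 6 * b ^ 3 + (472725 / 1024) * a ^ 7 * b ^ 2 + (753453 / 2048) * a ^ 8 * b ^ 1 + (238649 / 2048) * a ^ 9 * b ^ 0 := by
  positivity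

theorem H4b_p7 (a b : ℝ) (ha : 0 ≤ a) (hb : 0 ≤ b) : 0 ≤ (238649 / 2048) * a ^ 0 * b ^ 9 + (3542229 / 2048) * a ^ 1 * b ^ 8 + (11627829 / 1024) * a ^ 2 * b ^ 7 + (44316501 / 1024) * a ^ 3 * b ^ 6 + (216119309 / 2048) * a ^ 4 * b ^ 5 + (349669897 / 2048) * a ^ 5 * b ^ 4 + (23465105 / 128) * a ^ 6 * b ^ 3 + (8062331 / 64) * a ^ 7 * b ^ 2 + (50280) * a ^ 8 * b ^ 1 + (71057 / 8) * a ^ 9 * b ^ 0 := by
  positivity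

theorem H4b_on0 (t : ℝ) (h0 : (-1) ≤ t) (h3 : t ≤ (0)) : 0 ≤ H4b t := by
  have e : H4b t = (1) * (t - (-1)) ^ 0 * ((0) - t) ^ 9 + (9) * (t - (-1)) ^ 1 * ((0) - t) ^ 8 + (36) * (t - (-1)) ^ 2 * ((0) - t) ^ 7 + (84) * (t - (-1)) ^ 3 * ((0) - t) ^ 6 + (216905 / 2048) * (t - (-1)) ^ 4 * ((0) - t) ^ 5 + (154429 / 2048) * (t - (-1)) ^ 5 * ((0) - t) ^ 4 + (32005 / 1024) * (t - (-1)) ^ 6 * ((0) - t) ^ 3 + (7565 / 1024) * (t - (-1)) ^ 7 * ((0) - t) ^ 2 + (1845 / 2048) * (t - (-1)) ^ 8 * ((0) - t) ^ 1 + (89 / 2048) * (t - (-1)) ^ 9 * ((0) - t) ^ 0 := by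
    unfold H4b
    ring
  rw [e]
  exact H4b_p0 _ _ (by linarith) (by linarith)

theorem H4b_on1 (t : ℝ) (h0 : (0) ≤ t) (h3 : t ≤ (1 / 8)) : 0 ≤ H4b t := by
  have e : H4b t = (5832704) * (t - (0)) ^ 0 * ((1 / 8) - t) ^ 9 + (43941888) * (t - (0)) ^ 1 * ((1 / 8) - t) ^ 8 + (145217536) * (t - (0)) ^ 2 * ((1 / 8) - t) ^ 7 + (275804672) * (t - (0)) ^ 3 * ((1 / 8) - t) ^ 6 + (331020688) * (t - (0)) ^ 4 * ((1 / 8) - t) ^ 5 + (259649072) * (t - (0)) ^ 5 * ((1 / 8) - t) ^ 4 + (132668232) * (t - (0)) ^ 6 * ((1 / 8) - t) ^ 3 + (84839247 / 2) * (t - (0)) ^ 7 * ((1 / 8) - t) ^ 2 + (7673445) * (t - (0)) ^ 8 * ((1 / 8) - t) ^ 1 + (152921669 / 256) * (t - (0)) ^ 9 * ((1 / 8) - t) ^ 0 := by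
    unfold H4b
    ring
  rw [e]
  exact H4b_p1 _ _ (by linarith) (by linarith)

theorem H4b_on2 (t : ℝ) (h0 : (1 / 8) ≤ t) (h3 : t ≤ (3 / 16)) : 0 ≤ H4b t := by
  have e : H4b t = (305843338) * (t - (1 / 8)) ^ 0 * ((3 / 16) - t) ^ 9 + (2164483143) * (t - (1 / 8)) ^ 1 * ((3 / 16) - t) ^ 8 + (6630199146) * (t - (1 / 8)) ^ 2 * ((3 / 16) - t) ^ 7 + (11470472499) * (t - (1 / 8)) ^ 3 * ((3 / 16) - t) ^ 6 + (49054431787 / 4) * (t - (1 / 8)) ^ 4 * ((3 / 16) - t) ^ 5 + (66724567297 / 8) * (t - (1 / 8)) ^ 5 * ((3 / 16) - t) ^ 4 + (28791154145 / 8) * (t - (1 / 8)) ^ 6 * ((3 / 16) - t) ^ 3 + (15540206159 / 16) * (t - (1 / 8)) ^ 7 * ((3 / 16) - t) ^ 2 + (21094779405 / 128) * (t - (1 / 8)) ^ 8 * ((3 / 16) - t) ^ 1 + (4238905519 / 256) * (t - (1 / 8)) ^ 9 * ((3 / 16) - t) ^ 0 := by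
    unfold H4b
    ring
  rw [e]
  exact H4b_p2 _ _ (by linarith) (by linarith)

theorem H4b_on3 (t : ℝ) (h0 : (3 / 16) ≤ t) (h3 : t ≤ (1 / 4)) : 0 ≤ H4b t := by
  have e : H4b t = (4238905519 / 256) * (t - (3 / 16)) ^ 0 * ((1 / 4) - t) ^ 9 + (8527685133 / 64) * (t - (3 / 16)) ^ 1 * ((1 / 4) - t) ^ 8 + (2875199255 / 4) * (t - (3 / 16)) ^ 2 * ((1 / 4) - t) ^ 7 + (2667981129) * (t - (3 / 16)) ^ 3 * ((1 / 4) - t) ^ 6 + (6289575074) * (t - (3 / 16)) ^ 4 * ((1 / 4) - t) ^ 5 + (9345495000) * (t - (3 / 16)) ^ 5 * ((1 / 4) - t) ^ 4 + (8758682304) * (t - (3 / 16)) ^ 6 * ((1 / 4) - t) ^ 3 + (5039140096) * (t - (3 / 16)) ^ 7 * ((1 / 4) - t) ^ 2 + (1629562624) * (t - (3 / 16)) ^ 8 * ((1 / 4) - t) ^ 1 + (227316736) * (t - (3 / 16)) ^ 9 * ((1 / 4) - t) ^ 0 := by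
    unfold H4b
    ring
  rw [e]
  exact H4b_p3 _ _ (by linarith) (by linarith)

theorem H4b_on4 (t : ℝ) (h0 : (1 / 4) ≤ t) (h3 : t ≤ (1 / 2)) : 0 ≤ H4b t := by
  have e : H4b t = (221989 / 256) * (t - (1 / 4)) ^ 0 * ((1 / 2) - t) ^ 9 + (1812013 / 128) * (t - (1 / 4)) ^ 1 * ((1 / 2) - t) ^ 8 + (1494219 / 16) * (t - (1 / 4)) ^ 2 * ((1 / 2) - t) ^ 7 + (2606603 / 8) * (t - (1 / 4)) ^ 3 * ((1 / 2) - t) ^ 6 + (5431915 / 8) * (t - (1 / 4)) ^ 4 * ((1 / 2) - t) ^ 5 + (3579409 / 4) * (t - (1 / 4)) ^ 5 * ((1 / 2) - t) ^ 4 + (757131) * (t - (1 / 4)) ^ 6 * ((1 / 2) - t) ^ 3 + (400770) * (t - (1 / 4)) ^ 7 * ((1 / 2) - t) ^ 2 + (121293) * (t - (1 / 4)) ^ 8 * ((1 / 2) - t) ^ 1 + (16066) * (t - (1 / 4)) ^ 9 * ((1 / 2) - t) ^ 0 := by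
    unfold H4b
    ring
  rw [e]
  exact H4b_p4 _ _ (by linarith) (by linarith)

theorem H4b_on5 (t : ℝ) (h0 : (1 / 2) ≤ t) (h3 : t ≤ (1)) : 0 ≤ H4b t := by
  have e : H4b t = (8033 / 256) * (t - (1 / 2)) ^ 0 * ((1) - t) ^ 9 + (47799 / 128) * (t - (1 / 2)) ^ 1 * ((1) - t) ^ 8 + (30825 / 16) * (t - (1 / 2)) ^ 2 * ((1) - t) ^ 7 + (182103 / 32) * (t - (1 / 2)) ^ 3 * ((1) - t) ^ 6 + (681557 / 64) * (t - (1 / 2)) ^ 4 * ((1) - t) ^ 5 + (836521 / 64) * (t - (1 / 2)) ^ 5 * ((1) - t) ^ 4 + (41729 / 4) * (t - (1 / 2)) ^ 6 * ((1) - t) ^ 3 + (10299 / 2) * (t - (1 / 2)) ^ 7 * ((1) - t) ^ 2 + (1408) * (t - (1 / 2)) ^ 8 * ((1) - t) ^ 1 + (164) * (t - (1 / 2)) ^ 9 * ((1) - t) ^ 0 := by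
    unfold H4b
    ring
  rw [e]
  exact H4b_p5 _ _ (by linarith) (by linarith)

theorem H4b_on6 (t : ℝ) (h0 : (1) ≤ t) (h3 : t ≤ (2)) : 0 ≤ H4b t := by
  have e : H4b t = (41 / 128) * (t - (1)) ^ 0 * ((2) - t) ^ 9 + (403 / 128) * (t - (1)) ^ 1 * ((2) - t) ^ 8 + (3075 / 256) * (t - (1)) ^ 2 * ((2) - t) ^ 7 + (2855 / 128) * (t - (1)) ^ 3 * ((2) - t) ^ 6 + (63601 / 2048) * (t - (1)) ^ 4 * ((2) - t) ^ 5 + (196349 / 2048) * (t - (1)) ^ 5 * ((2) - t) ^ 4 + (294345 / 1024) * (t - (1)) ^ 6 * ((2) - t) ^ 3 + (472725 / 1024) * (t - (1)) ^ 7 * ((2) - t) ^ 2 + (753453 / 2048) * (t - (1)) ^ 8 * ((2) - t) ^ 1 + (238649 / 2048) * (t - (1)) ^ 9 * ((2) - t) ^ 0 := by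
    unfold H4b
    ring
  rw [e]
  exact H4b_p6 _ _ (by linarith) (by linarith)

theorem H4b_on7 (t : ℝ) (h0 : (2) ≤ t) (h3 : t ≤ (3)) : 0 ≤ H4b t := by
  have e : H4b t = (238649 / 2048) * (t - (2)) ^ 0 * ((3) - t) ^ 9 + (3542229 / 2048) * (t - (2)) ^ 1 * ((3) - t) ^ 8 + (11627829 / 1024) * (t - (2)) ^ 2 * ((3) - t) ^ 7 + (44316501 / 1024) * (t - (2)) ^ 3 * ((3) - t) ^ 6 + (216119309 / 2048) * (t - (2)) ^ 4 * ((3) - t) ^ 5 + (349669897 / 2048) * (t - (2)) ^ 5 * ((3) - t) ^ 4 + (23465105 / 128) * (t - (2)) ^ 6 * ((3) - t) ^ 3 + (8062331 / 64) * (t - (2)) ^ 7 * ((3) - t) ^ 2 + (50280) * (t - (2)) ^ 8 * ((3) - t) ^ 1 + (71057 / 8) * (t - (2)) ^ 9 * ((3) - t) ^ 0 := by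
    unfold H4b
    ring
  rw [e]
  exact H4b_p7 _ _ (by linarith) (by linarith)

theorem H4b_nonneg (t : ℝ) (h0 : -1 ≤ t) (h3 : t ≤ 3) : 0 ≤ H4b t := by
  rcases le_total t (0) with hc0 | hc0
  · exact H4b_on0 t (by linarith) hc0
  rcases le_total t (1 / 8) with hc1 | hc1
  · exact H4b_on1 t (by linarith) hc1
  rcases le_total t (3 / 16) with hc2 | hc2
  · exact H4b_on2 t (by linarith) hc2
  rcases le_total t (1 / 4) with hc3 | hc3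
  · exact H4b_on3 t (by linarith) hc3
  rcases le_total t (1 / 2) with hc4 | hc4
  · exact H4b_on4 t (by linarith) hc4
  rcases le_total t (1) with hc5 | hc5
  · exact H4b_on5 t (by linarith) hc5
  rcases le_total t (2) with hc6 | hc6
  · exact H4b_on6 t (by linarith) hc6
  exact H4b_on7 t (by linarith) (by linarith)

/-- the remaining factor of a validity condition -/
noncomputable def H3b (t : ℝ) : ℝ := (213 / 163840) + (-18931 / 3276800) * t ^ 1 + (-114299 / 19660800) * t ^ 2 + (983839 / 19660800) * t ^ 3 + (-65879 / 2457600) * t ^ 4 + (-279891 / 3276800) * t ^ 5 + (8254837 / 62914560) * t ^ 6 + (-23748709 / 314572800) * t ^ 7 + (6235483 / 314572800) * t ^ 8 + (-124331 / 62914560) * t ^ 9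

theorem H3b_p0 (a b : ℝ) (ha : 0 ≤ a) (hb : 0 ≤ b) : 0 ≤ (9152 / 75) * a ^ 0 * b ^ 9 + (51787457 / 76800) * a ^ 1 * b ^ 8 + (30822707 / 19200) * a ^ 2 * b ^ 7 + (3511943059 / 1638400) * a ^ 3 * b ^ 6 + (1718180239 / 983040) * a ^ 4 * b ^ 5 + (3482797499 / 3932160) * a ^ 5 * b ^ 4 + (2657323133 / 9830400) * a ^ 6 * b ^ 3 + (1187220653 / 26214400) * a ^ 7 * b ^ 2 + (269873899 / 78643200) * a ^ 8 * b ^ 1 + (31453417 / 314572800) * a ^ 9 * b ^ 0 := by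
  positivity

theorem H3b_p1 (a b : ℝ) (ha : 0 ≤ a) (hb : 0 ≤ b) : 0 ≤ (1006509344 / 75) * a ^ 0 * b ^ 9 + (5872924724 / 75) * a ^ 1 * b ^ 8 + (4706854816 / 25) * a ^ 2 * b ^ 7 + (36286238137 / 150) * a ^ 3 * b ^ 6 + (185308867009 / 960) * a ^ 4 * b ^ 5 + (5206851222029 / 38400) * a ^ 5 * b ^ 4 + (3033009028523 / 25600) * a ^ 6 * b ^ 3 + (6747728575033 / 76800) * a ^ 7 * b ^ 2 + (1443720048424901 / 39321600) * a ^ 8 * b ^ 1 + (1965120987603409 / 314572800) * a ^ 9 * b ^ 0 := by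
  positivity

theorem H3b_p2 (a b : ℝ) (ha : 0 ≤ a) (hb : 0 ≤ b) : 0 ≤ (1965120987603409 / 314572800) * a ^ 0 * b ^ 9 + (11911208694731077 / 157286400) * a ^ 1 * b ^ 8 + (2621249005413307 / 6553600) * a ^ 2 * b ^ 7 + (2354126704656133 / 1966080) * a ^ 3 * b ^ 6 + (7338134247862037 / 3276800) * a ^ 4 * b ^ 5 + (13376835660646067 / 4915200) * a ^ 5 * b ^ 4 + (883273449986479 / 409600) * a ^ 6 * b ^ 3 + (662104639054157 / 614400) * a ^ 7 * b ^ 2 + (126580511447187 / 409600) * a ^ 8 * b ^ 1 + (7953161335359 / 204800) * a ^ 9 * b ^ 0 := by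
  positivity

theorem H3b_p3 (a b : ℝ) (ha : 0 ≤ a) (hb : 0 ≤ b) : 0 ≤ (7953161335359 / 104857600) * a ^ 0 * b ^ 9 + (44077422303753 / 52428800) * a ^ 1 * b ^ 8 + (79068409374257 / 19660800) * a ^ 2 * b ^ 7 + (35791159921049 / 3276800) * a ^ 3 * b ^ 6 + (183075221585531 / 9830400) * a ^ 4 * b ^ 5 + (33979127917927 / 1638400) * a ^ 5 * b ^ 4 + (743515843949 / 49152) * a ^ 6 * b ^ 3 + (1430512091029 / 204800) * a ^ 7 * b ^ 2 + (2281214737909 / 1228800) * a ^ 8 * b ^ 1 + (26632218743 / 122880) * a ^ 9 * b ^ 0 := by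
  positivity

theorem H3b_p4 (a b : ℝ) (ha : 0 ≤ a) (hb : 0 ≤ b) : 0 ≤ (26632218743 / 62914560) * a ^ 0 * b ^ 9 + (328533698099 / 78643200) * a ^ 1 * b ^ 8 + (115858036379 / 6553600) * a ^ 2 * b ^ 7 + (41502216053 / 983040) * a ^ 3 * b ^ 6 + (805383691 / 12800) * a ^ 4 * b ^ 5 + (73063247 / 1200) * a ^ 5 * b ^ 4 + (61370959 / 1600) * a ^ 6 * b ^ 3 + (18243013 / 1200) * a ^ 7 * b ^ 2 + (172291 / 50) * a ^ 8 * b ^ 1 + (1704 / 5) * a ^ 9 * b ^ 0 := by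
  positivity

theorem H3b_p5 (a b : ℝ) (ha : 0 ≤ a) (hb : 0 ≤ b) : 0 ≤ (1704 / 5) * a ^ 0 * b ^ 9 + (134429 / 50) * a ^ 1 * b ^ 8 + (10973509 / 1200) * a ^ 2 * b ^ 7 + (84307499 / 4800) * a ^ 3 * b ^ 6 + (6282059 / 300) * a ^ 4 * b ^ 5 + (205043989 / 12800) * a ^ 5 * b ^ 4 + (7703616373 / 983040) * a ^ 6 * b ^ 3 + (46399359751 / 19660800) * a ^ 7 * b ^ 2 + (31412920291 / 78643200) * a ^ 8 * b ^ 1 + (9389327621 / 314572800) * a ^ 9 * b ^ 0 := by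
  positivity

theorem H3b_p6 (a b : ℝ) (ha : 0 ≤ a) (hb : 0 ≤ b) : 0 ≤ (9389327621 / 314572800) * a ^ 0 * b ^ 9 + (21678108007 / 157286400) * a ^ 1 * b ^ 8 + (218817799 / 819200) * a ^ 2 * b ^ 7 + (2577175247 / 4915200) * a ^ 3 * b ^ 6 + (14217032161 / 9830400) * a ^ 4 * b ^ 5 + (13937153527 / 4915200) * a ^ 5 * b ^ 4 + (132318559 / 40960) * a ^ 6 * b ^ 3 + (161254969 / 76800) * a ^ 7 * b ^ 2 + (896036881 / 1228800) * a ^ 8 * b ^ 1 + (64801043 / 614400) * a ^ 9 * b ^ 0 := by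
  positivity

theorem H3b_p7 (a b : ℝ) (ha : 0 ≤ a) (hb : 0 ≤ b) : 0 ≤ (64801043 / 314572800) * a ^ 0 * b ^ 9 + (10669891 / 3932160) * a ^ 1 * b ^ 8 + (1162702949 / 78643200) * a ^ 2 * b ^ 7 + (11377153 / 262144) * a ^ 3 * b ^ 6 + (1492997057 / 19660800) * a ^ 4 * b ^ 5 + (203276309 / 2457600) * a ^ 5 * b ^ 4 + (277987843 / 4915200) * a ^ 6 * b ^ 3 + (386977 / 16384) * a ^ 7 * b ^ 2 + (1695481 / 307200) * a ^ 8 * b ^ 1 + (8537 / 15360) * a ^ 9 * b ^ 0 := by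
  positivity

theorem H3b_p8 (a b : ℝ) (ha : 0 ≤ a) (hb : 0 ≤ b) : 0 ≤ (8537 / 7864320) * a ^ 0 * b ^ 9 + (609509 / 78643200) * a ^ 1 * b ^ 8 + (986649 / 52428800) * a ^ 2 * b ^ 7 + (6421499 / 314572800) * a ^ 3 * b ^ 6 + (2749451 / 78643200) * a ^ 4 * b ^ 5 + (7784497 / 78643200) * a ^ 5 * b ^ 4 + (427719 / 3276800) * a ^ 6 * b ^ 3 + (69101 / 983040) * a ^ 7 * b ^ 2 + (148931 / 9830400) * a ^ 8 * b ^ 1 + (5539 / 4915200) * a ^ 9 * b ^ 0 := by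
  positivity

theorem H3b_p9 (a b : ℝ) (ha : 0 ≤ a) (hb : 0 ≤ b) : 0 ≤ (22156 / 75) * a ^ 0 * b ^ 9 + (349579 / 150) * a ^ 1 * b ^ 8 + (156799 / 20) * a ^ 2 * b ^ 7 + (34969493 / 2400) * a ^ 3 * b ^ 6 + (413690939 / 25600) * a ^ 4 * b ^ 5 + (1648795987 / 153600) * a ^ 5 * b ^ 4 + (6629267473 / 1638400) * a ^ 6 * b ^ 3 + (15523116991 / 19660800) * a ^ 7 * b ^ 2 + (2842654007 / 26214400) * a ^ 8 * b ^ 1 + (103774983 / 4194304) * a ^ 9 * b ^ 0 := by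
  positivity

theorem H3b_p10 (a b : ℝ) (ha : 0 ≤ a) (hb : 0 ≤ b) : 0 ≤ (103774983 / 4194304) * a ^ 0 * b ^ 9 + (17664063161 / 52428800) * a ^ 1 * b ^ 8 + (1608105701 / 614400) * a ^ 2 * b ^ 7 + (11294034403 / 983040) * a ^ 3 * b ^ 6 + (292957520233 / 9830400) * a ^ 4 * b ^ 5 + (78305184329 / 1638400) * a ^ 5 * b ^ 4 + (29560717621 / 614400) * a ^ 6 * b ^ 3 + (569782513 / 19200) * a ^ 7 * b ^ 2 + (12615024121 / 1228800) * a ^ 8 * b ^ 1 + (187624763 / 122880) * a ^ 9 * b ^ 0 := by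
  positivity

theorem H3b_p11 (a b : ℝ) (ha : 0 ≤ a) (hb : 0 ≤ b) : 0 ≤ (187624763 / 62914560) * a ^ 0 * b ^ 9 + (3178579721 / 78643200) * a ^ 1 * b ^ 8 + (3706184941 / 15728640) * a ^ 2 * b ^ 7 + (3808881061 / 4915200) * a ^ 3 * b ^ 6 + (10371698083 / 6553600) * a ^ 4 * b ^ 5 + (10205585821 / 4915200) * a ^ 5 * b ^ 4 + (1711438499 / 983040) * a ^ 6 * b ^ 3 + (547146139 / 614400) * a ^ 7 * b ^ 2 + (1581207 / 6400) * a ^ 8 * b ^ 1 + (43251 / 1600) * a ^ 9 * b ^ 0 := by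
  positivity

theorem H3b_on0 (t : ℝ) (h0 : (-1) ≤ t) (h3 : t ≤ (-1 / 2)) : 0 ≤ H3b t := by
  have e : H3b t = (9152 / 75) * (t - (-1)) ^ 0 * ((-1 / 2) - t) ^ 9 + (51787457 / 76800) * (t - (-1)) ^ 1 * ((-1 / 2) - t) ^ 8 + (30822707 / 19200) * (t - (-1)) ^ 2 * ((-1 / 2) - t) ^ 7 + (3511943059 / 1638400) * (t - (-1)) ^ 3 * ((-1 / 2) - t) ^ 6 + (1718180239 / 983040) * (t - (-1)) ^ 4 * ((-1 / 2) - t) ^ 5 + (3482797499 / 3932160) * (t - (-1)) ^ 5 * ((-1 / 2) - t) ^ 4 + (2657323133 / 9830400) * (t - (-1)) ^ 6 * ((-1 / 2) - t) ^ 3 + (1187220653 / 26214400) * (t - (-1)) ^ 7 * ((-1 / 2) - t) ^ 2 + (269873899 / 78643200) * (t - (-1)) ^ 8 * ((-1 / 2) - t) ^ 1 + (31453417 / 314572800) * (t - (-1)) ^ 9 * ((-1 / 2) - t) ^ 0 := by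
    unfold H3b
    ring
  rw [e]
  exact H3b_p0 _ _ (by linarith) (by linarith)

theorem H3b_on1 (t : ℝ) (h0 : (-1 / 2) ≤ t) (h3 : t ≤ (-7 / 16)) : 0 ≤ H3b t := by
  have e : H3b t = (1006509344 / 75) * (t - (-1 / 2)) ^ 0 * ((-7 / 16) - t) ^ 9 + (5872924724 / 75) * (t - (-1 / 2)) ^ 1 * ((-7 / 16) - t) ^ 8 + (4706854816 / 25) * (t - (-1 / 2)) ^ 2 * ((-7 / 16) - t) ^ 7 + (36286238137 / 150) * (t - (-1 / 2)) ^ 3 * ((-7 / 16) - t) ^ 6 + (185308867009 / 960) * (t - (-1 / 2)) ^ 4 * ((-7 / 16) - t) ^ 5 + (5206851222029 / 38400) * (t - (-1 / 2)) ^ 5 * ((-7 / 16) - t) ^ 4 + (3033009028523 / 25600) * (t - (-1 / 2)) ^ 6 * ((-7 / 16) - t) ^ 3 + (6747728575033 / 76800) * (t - (-1 / 2)) ^ 7 * ((-7 / 16) - t) ^ 2 + (1443720048424901 / 39321600) * (t - (-1 / 2)) ^ 8 * ((-7 / 16) - t) ^ 1 + (1965120987603409 / 314572800) *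 (t - (-1 / 2)) ^ 9 * ((-7 / 16) - t) ^ 0 := by
    unfold H3b
    ring
  rw [e]
  exact H3b_p1 _ _ (by linarith) (by linarith)

theorem H3b_on2 (t : ℝ) (h0 : (-7 / 16) ≤ t) (h3 : t ≤ (-3 / 8)) : 0 ≤ H3b t := by
  have e : H3b t = (1965120987603409 / 314572800) * (t - (-7 / 16)) ^ 0 * ((-3 / 8) - t) ^ 9 + (11911208694731077 / 157286400) * (t - (-7 / 16)) ^ 1 * ((-3 / 8) - t) ^ 8 + (2621249005413307 / 6553600) * (t - (-7 / 16)) ^ 2 * ((-3 / 8) - t) ^ 7 + (2354126704656133 / 1966080) * (t - (-7 / 16)) ^ 3 * ((-3 / 8) - t) ^ 6 + (7338134247862037 / 3276800) * (t - (-7 / 16)) ^ 4 * ((-3 / 8) - t) ^ 5 + (13376835660646067 / 4915200) * (t - (-7 / 16)) ^ 5 * ((-3 / 8) - t) ^ 4 + (883273449986479 / 409600) * (t - (-7 / 16)) ^ 6 * ((-3 / 8) - t) ^ 3 + (662104639054157 / 614400) * (t - (-7 / 16)) ^ 7 * ((-3 / 8) - t)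 ^ 2 + (126580511447187 / 409600) * (t - (-7 / 16)) ^ 8 * ((-3 / 8) - t) ^ 1 + (7953161335359 / 204800) * (t - (-7 / 16)) ^ 9 * ((-3 / 8) - t) ^ 0 := by
    unfold H3b
    ring
  rw [e]
  exact H3b_p2 _ _ (by linarith) (by linarith)

theorem H3b_on3 (t : ℝ) (h0 : (-3 / 8) ≤ t) (h3 : t ≤ (-1 / 4)) : 0 ≤ H3b t := by
  have e : H3b t = (7953161335359 / 104857600) * (t - (-3 / 8)) ^ 0 * ((-1 / 4) - t) ^ 9 + (44077422303753 / 52428800) * (t - (-3 / 8)) ^ 1 * ((-1 / 4) - t) ^ 8 + (79068409374257 / 19660800) * (t - (-3 / 8)) ^ 2 * ((-1 / 4) - t) ^ 7 + (35791159921049 / 3276800) * (t - (-3 / 8)) ^ 3 * ((-1 / 4) - t) ^ 6 + (183075221585531 / 9830400) * (t - (-3 / 8)) ^ 4 * ((-1 / 4) - t) ^ 5 + (33979127917927 / 1638400) * (t - (-3 / 8)) ^ 5 * ((-1 / 4) - t) ^ 4 + (743515843949 / 49152) * (t - (-3 / 8)) ^ 6 * ((-1 / 4)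 - t) ^ 3 + (1430512091029 / 204800) * (t - (-3 / 8)) ^ 7 * ((-1 / 4) - t) ^ 2 + (2281214737909 / 1228800) * (t - (-3 / 8)) ^ 8 * ((-1 / 4) - t) ^ 1 + (26632218743 / 122880) * (t - (-3 / 8)) ^ 9 * ((-1 / 4) - t) ^ 0 := by
    unfold H3b
    ring
  rw [e]
  exact H3b_p3 _ _ (by linarith) (by linarith)

theorem H3b_on4 (t : ℝ) (h0 : (-1 / 4) ≤ t) (h3 : t ≤ (0)) : 0 ≤ H3b t := by
  have e : H3b t = (26632218743 / 62914560) * (t - (-1 / 4)) ^ 0 * ((0) - t) ^ 9 + (328533698099 / 78643200) * (t - (-1 / 4)) ^ 1 * ((0) - t) ^ 8 + (115858036379 / 6553600) * (t - (-1 / 4)) ^ 2 * ((0) - t) ^ 7 + (41502216053 / 983040) * (t - (-1 / 4)) ^ 3 * ((0) - t) ^ 6 + (805383691 / 12800) * (t - (-1 / 4)) ^ 4 * ((0) - t) ^ 5 + (73063247 / 1200) * (t - (-1 / 4)) ^ 5 * ((0) - t) ^ 4 + (61370959 / 1600) * (t - (-1 / 4)) ^ 6 * ((0) - t)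 ^ 3 + (18243013 / 1200) * (t - (-1 / 4)) ^ 7 * ((0) - t) ^ 2 + (172291 / 50) * (t - (-1 / 4)) ^ 8 * ((0) - t) ^ 1 + (1704 / 5) * (t - (-1 / 4)) ^ 9 * ((0) - t) ^ 0 := by
    unfold H3b
    ring
  rw [e]
  exact H3b_p4 _ _ (by linarith) (by linarith)

theorem H3b_on5 (t : ℝ) (h0 : (0) ≤ t) (h3 : t ≤ (1 / 4)) : 0 ≤ H3b t := by
  have e : H3b t = (1704 / 5) * (t - (0)) ^ 0 * ((1 / 4) - t) ^ 9 + (134429 / 50) * (t - (0)) ^ 1 * ((1 / 4) - t) ^ 8 + (10973509 / 1200) * (t - (0)) ^ 2 * ((1 / 4) - t) ^ 7 + (84307499 / 4800) * (t - (0)) ^ 3 * ((1 / 4) - t) ^ 6 + (6282059 / 300) * (t - (0)) ^ 4 * ((1 / 4) - t) ^ 5 + (205043989 / 12800) * (t - (0)) ^ 5 * ((1 / 4) - t) ^ 4 + (7703616373 / 983040) * (t - (0)) ^ 6 * ((1 / 4) - t) ^ 3 + (46399359751 / 19660800) * (t - (0)) ^ 7 * ((1 / 4) - t) ^ 2 + (31412920291 / 78643200)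 * (t - (0)) ^ 8 * ((1 / 4) - t) ^ 1 + (9389327621 / 314572800) * (t - (0)) ^ 9 * ((1 / 4) - t) ^ 0 := by
    unfold H3b
    ring
  rw [e]
  exact H3b_p5 _ _ (by linarith) (by linarith)

theorem H3b_on6 (t : ℝ) (h0 : (1 / 4) ≤ t) (h3 : t ≤ (1 / 2)) : 0 ≤ H3b t := by
  have e : H3b t = (9389327621 / 314572800) * (t - (1 / 4)) ^ 0 * ((1 / 2) - t) ^ 9 + (21678108007 / 157286400) * (t - (1 / 4)) ^ 1 * ((1 / 2) - t) ^ 8 + (218817799 / 819200) * (t - (1 / 4)) ^ 2 * ((1 / 2) - t) ^ 7 + (2577175247 / 4915200) * (t - (1 / 4)) ^ 3 * ((1 / 2) - t) ^ 6 + (14217032161 / 9830400) * (t - (1 / 4)) ^ 4 * ((1 / 2) - t) ^ 5 + (13937153527 / 4915200) * (t - (1 / 4)) ^ 5 * ((1 / 2) - t) ^ 4 + (132318559 / 40960) * (t - (1 / 4)) ^ 6 * ((1 / 2) - t) ^ 3 + (161254969 / 76800) * (t - (1 / 4)) ^ 7 * ((1 / 2) - t) ^ 2 + (896036881 / 1228800)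 * (t - (1 / 4)) ^ 8 * ((1 / 2) - t) ^ 1 + (64801043 / 614400) * (t - (1 / 4)) ^ 9 * ((1 / 2) - t) ^ 0 := by
    unfold H3b
    ring
  rw [e]
  exact H3b_p6 _ _ (by linarith) (by linarith)

theorem H3b_on7 (t : ℝ) (h0 : (1 / 2) ≤ t) (h3 : t ≤ (1)) : 0 ≤ H3b t := by
  have e : H3b t = (64801043 / 314572800) * (t - (1 / 2)) ^ 0 * ((1) - t) ^ 9 + (10669891 / 3932160) * (t - (1 / 2)) ^ 1 * ((1) - t) ^ 8 + (1162702949 / 78643200) * (t - (1 / 2)) ^ 2 * ((1) - t) ^ 7 + (11377153 / 262144) * (t - (1 / 2)) ^ 3 * ((1) - t) ^ 6 + (1492997057 / 19660800) * (t - (1 / 2)) ^ 4 * ((1) - t) ^ 5 + (203276309 / 2457600) * (t - (1 / 2)) ^ 5 * ((1) - t) ^ 4 + (277987843 / 4915200) * (t - (1 / 2)) ^ 6 * ((1) - t) ^ 3 + (386977 / 16384) * (t - (1 / 2)) ^ 7 * ((1) - t) ^ 2 + (1695481 / 307200) * (t - (1 / 2)) ^ 8 * ((1) - t) ^ 1 +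 (8537 / 15360) * (t - (1 / 2)) ^ 9 * ((1) - t) ^ 0 := by
    unfold H3b
    ring
  rw [e]
  exact H3b_p7 _ _ (by linarith) (by linarith)

theorem H3b_on8 (t : ℝ) (h0 : (1) ≤ t) (h3 : t ≤ (2)) : 0 ≤ H3b t := by
  have e : H3b t = (8537 / 7864320) * (t - (1)) ^ 0 * ((2) - t) ^ 9 + (609509 / 78643200) * (t - (1)) ^ 1 * ((2) - t) ^ 8 + (986649 / 52428800) * (t - (1)) ^ 2 * ((2) - t) ^ 7 + (6421499 / 314572800) * (t - (1)) ^ 3 * ((2) - t) ^ 6 + (2749451 / 78643200) * (t - (1)) ^ 4 * ((2) - t) ^ 5 + (7784497 / 78643200) * (t - (1)) ^ 5 * ((2) - t) ^ 4 + (427719 / 3276800) * (t - (1)) ^ 6 * ((2) - t) ^ 3 + (69101 / 983040) * (t - (1)) ^ 7 * ((2) - t) ^ 2 + (148931 / 9830400) * (t - (1)) ^ 8 * ((2) - t) ^ 1 + (5539 / 4915200) * (t - (1)) ^ 9 * ((2) - t) ^ 0 := by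
    unfold H3b
    ring
  rw [e]
  exact H3b_p8 _ _ (by linarith) (by linarith)

theorem H3b_on9 (t : ℝ) (h0 : (2) ≤ t) (h3 : t ≤ (9 / 4)) : 0 ≤ H3b t := by
  have e : H3b t = (22156 / 75) * (t - (2)) ^ 0 * ((9 / 4) - t) ^ 9 + (349579 / 150) * (t - (2)) ^ 1 * ((9 / 4) - t) ^ 8 + (156799 / 20) * (t - (2)) ^ 2 * ((9 / 4) - t) ^ 7 + (34969493 / 2400) * (t - (2)) ^ 3 * ((9 / 4) - t) ^ 6 + (413690939 / 25600) * (t - (2)) ^ 4 * ((9 / 4) - t) ^ 5 + (1648795987 / 153600) * (t - (2)) ^ 5 * ((9 / 4) - t) ^ 4 + (6629267473 / 1638400) * (t - (2)) ^ 6 * ((9 / 4) - t) ^ 3 + (15523116991 / 19660800) * (t - (2)) ^ 7 * ((9 / 4) - t) ^ 2 + (2842654007 / 26214400) * (t - (2)) ^ 8 * ((9 / 4) - t) ^ 1 + (103774983 / 4194304) * (t - (2)) ^ 9 * ((9 / 4) - t) ^ 0 := by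
    unfold H3b
    ring
  rw [e]
  exact H3b_p9 _ _ (by linarith) (by linarith)

theorem H3b_on10 (t : ℝ) (h0 : (9 / 4) ≤ t) (h3 : t ≤ (5 / 2)) : 0 ≤ H3b t := by
  have e : H3b t = (103774983 / 4194304) * (t - (9 / 4)) ^ 0 * ((5 / 2) - t) ^ 9 + (17664063161 / 52428800) * (t - (9 / 4)) ^ 1 * ((5 / 2) - t) ^ 8 + (1608105701 / 614400) * (t - (9 / 4)) ^ 2 * ((5 / 2) - t) ^ 7 + (11294034403 / 983040) * (t - (9 / 4)) ^ 3 * ((5 / 2) - t) ^ 6 + (292957520233 / 9830400) * (t - (9 / 4)) ^ 4 * ((5 / 2) - t) ^ 5 + (78305184329 / 1638400) * (t - (9 / 4)) ^ 5 * ((5 / 2) - t) ^ 4 + (29560717621 / 614400) * (t - (9 / 4)) ^ 6 * ((5 / 2) - t) ^ 3 + (569782513 / 19200) * (t - (9 / 4)) ^ 7 * ((5 / 2) - t) ^ 2 + (12615024121 / 1228800) * (t - (9 / 4)) ^ 8 * ((5 / 2) - t) ^ 1 + (187624763 / 122880) * (t - (9 / 4)) ^ 9 * ((5 / 2)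 - t) ^ 0 := by
    unfold H3b
    ring
  rw [e]
  exact H3b_p10 _ _ (by linarith) (by linarith)

theorem H3b_on11 (t : ℝ) (h0 : (5 / 2) ≤ t) (h3 : t ≤ (3)) : 0 ≤ H3b t := by
  have e : H3b t = (187624763 / 62914560) * (t - (5 / 2)) ^ 0 * ((3) - t) ^ 9 + (3178579721 / 78643200) * (t - (5 / 2)) ^ 1 * ((3) - t) ^ 8 + (3706184941 / 15728640) * (t - (5 / 2)) ^ 2 * ((3) - t) ^ 7 + (3808881061 / 4915200) * (t - (5 / 2)) ^ 3 * ((3) - t) ^ 6 + (10371698083 / 6553600) * (t - (5 / 2)) ^ 4 * ((3) - t) ^ 5 + (10205585821 / 4915200) * (t - (5 / 2)) ^ 5 * ((3) - t) ^ 4 + (1711438499 / 983040) * (t - (5 / 2)) ^ 6 * ((3) - t) ^ 3 + (547146139 / 614400) * (t - (5 / 2)) ^ 7 * ((3) - t) ^ 2 + (1581207 / 6400) * (t - (5 / 2)) ^ 8 * ((3) - t) ^ 1 + (43251 / 1600) * (t - (5 / 2)) ^ 9 * ((3) - t) ^ 0 := by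
    unfold H3b
    ring
  rw [e]
  exact H3b_p11 _ _ (by linarith) (by linarith)

theorem H3b_nonneg (t : ℝ) (h0 : -1 ≤ t) (h3 : t ≤ 3) : 0 ≤ H3b t := by
  rcases le_total t (-1 / 2) with hc0 | hc0
  · exact H3b_on0 t (by linarith) hc0
  rcases le_total t (-7 / 16) with hc1 | hc1
  · exact H3b_on1 t (by linarith) hc1
  rcases le_total t (-3 / 8) with hc2 | hc2
  · exact H3b_on2 t (by linarith) hc2
  rcases le_total t (-1 / 4) with hc3 | hc3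
  · exact H3b_on3 t (by linarith) hc3
  rcases le_total t (0) with hc4 | hc4
  · exact H3b_on4 t (by linarith) hc4
  rcases le_total t (1 / 4) with hc5 | hc5
  · exact H3b_on5 t (by linarith) hc5
  rcases le_total t (1 / 2) with hc6 | hc6
  · exact H3b_on6 t (by linarith) hc6
  rcases le_total t (1) with hc7 | hc7
  · exact H3b_on7 t (by linarith) hc7
  rcases le_total t (2) with hc8 | hc8
  · exact H3b_on8 t (by linarith) hc8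
  rcases le_total t (9 / 4) with hc9 | hc9
  · exact H3b_on9 t (by linarith) hc9
  rcases le_total t (5 / 2) with hc10 | hc10
  · exact H3b_on10 t (by linarith) hc10
  exact H3b_on11 t (by linarith) (by linarith)

theorem key1b (t : ℝ) : 1 - (1 + t) * L1b t = t ^ 0 * H1b t := by
  unfold H1b L1b
  ring

theorem key2b (t : ℝ) : 1 - (1 + t) ^ 2 * L2b t = t ^ 0 * H2b t := by
  unfold H2b L2b
  ring

theorem key4b (t : ℝ) : 1 - (1 + t) ^ 4 * L4b t = t ^ 0 * H4b t := by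
  unfold H4b L4b
  ring

theorem key3b (t : ℝ) : (5 / 12) * (1 - (1 + t) * L1b t) - (107 / 600) * (1 - (1 + t) ^ 3 * U3b t) = t ^ 0 * H3b t := by
  unfold H3b L1b U3b
  ring

/-- the family is valid -/
theorem validb : Valid L1b L2b L4b U3b where
  h1 := by
    intro t h0 h3
    have := key1b t
    have h := H1b_nonneg t h0.le h3
    have h2 : 0 ≤ t ^ 0 * H1b t := by positivity
    linarith
  h2 := by
    intro t h0 h3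
    have := key2b t
    have h := H2b_nonneg t h0.le h3
    have h2 : 0 ≤ t ^ 0 * H2b t := by positivity
    linarith
  h4 := by
    intro t h0 h3
    have := key4b t
    have h := H4b_nonneg t h0.le h3
    have h2 : 0 ≤ t ^ 0 * H4b t := by positivity
    linarith
  h3 := by
    intro t h0 h3
    have := key3b t
    have h := H3b_nonneg t h0.le h3
    have h2 : 0 ≤ t ^ 0 * H3b t := by positivity
    linarith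

end Vale.Agent.Lib.P154Q4.TT.K2T
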