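import Vale.Agent.Lib.P154Q4.TT.K2Point

/-!
The polynomial identity of the second kernel of the full simplex as an integer expression, for a
family of polynomial lower bounds given by integer coefficients.
-/

namespace Vale.Agent.Lib.P154Q4.TT.K2T

open Vale.Agent.Lib.P154Q4.Kron Vale.Agent.Lib.P154Q4.Kron.Ex Vale.Agent.Lib.P154Q4.Cells Vale.Agent.Lib.P154Q4.K2

/-- the sum of four expressions -/
def sumE (x1 x2 x3 x4 : Ex) : Ex := add x1 (add x2 (add x3 x4))

/-- the shifted sum of four expressions -/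
def tE (x1 x2 x3 x4 : Ex) : Ex := add x1 (add x2 (add x3 (add x4 (c (-4)))))

/-- first Fourier coordinate of four expressions -/
def F1E (x1 x2 x3 x4 : Ex) : Ex := add x1 (add x2 (add (mul (c (-1)) x3) (mul (c (-1)) x4)))

/-- second Fourier coordinate of four expressions -/
def F2E (x1 x2 x3 x4 : Ex) : Ex := add x1 (add (mul (c (-1)) x2) (add x3 (mul (c (-1)) x4)))

/-- third Fourier coordinate of four expressions -/
def F3E (x1 x2 x3 x4 : Ex) : Ex := add x1 (add (mul (c (-1)) x2) (add (mul (c (-1)) x3) x4))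

/-- the squared length of the Fourier coordinates -/
def NE (x1 x2 x3 x4 : Ex) : Ex := sig1Ex (F1E x1 x2 x3 x4) (F2E x1 x2 x3 x4) (F3E x1 x2 x3 x4)

/-- the quartic invariant of the Fourier coordinates -/
def QE (x1 x2 x3 x4 : Ex) : Ex := sig2Ex (F1E x1 x2 x3 x4) (F2E x1 x2 x3 x4) (F3E x1 x2 x3 x4)

/-- the cubic symmetric function -/
def KE (x1 x2 x3 x4 : Ex) : Ex :=
  add (mul (mul x1 x2) x3) (add (mul (mul x1 x2) x4) (add (mul (mul x1 x3) x4) (mul (mul x2 x3) x4)))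

/-- the quartic combination -/
def YE (x1 x2 x3 x4 : Ex) : Ex :=
  add (mul (c 19) (mul (NE x1 x2 x3 x4) (NE x1 x2 x3 x4))) (mul (c 50) (QE x1 x2 x3 x4))

/-- the product of the length and the cubic symmetric function -/
def ZE (x1 x2 x3 x4 : Ex) : Ex := mul (NE x1 x2 x3 x4) (KE x1 x2 x3 x4)

/-- the surrogate as an integer expression -/
def SEx (k : ℤ) (la lb ld le : List ℤ) (x1 x2 x3 x4 : Ex) : Ex :=
  add (mul (c k) (sumE x1 x2 x3 x4))
    (add (mul (NE x1 x2 x3 x4) (polyEx (tE x1 x2 x3 x4) la))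
      (add (mul (KE x1 x2 x3 x4) (polyEx (tE x1 x2 x3 x4) lb))
        (add (mul (YE x1 x2 x3 x4) (polyEx (tE x1 x2 x3 x4) ld))
          (mul (ZE x1 x2 x3 x4) (polyEx (tE x1 x2 x3 x4) le)))))

/-- the hypotheses linking integer coefficients to the four polynomial functions -/
structure CoOK (k : ℤ) (la lb ld le : List ℤ) (Sc : ℝ) (L1 L2 L4 U3 : ℝ → ℝ) : Prop where
  hk : (k : ℝ) = -19200 * Sc
  ha : ∀ T : ℝ, polyV T la = 4000 * Sc * L1 (T / 4)
  hb : ∀ T : ℝ, polyV T lb = 19200 * Sc * L2 (T / 4)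
  hd : ∀ T : ℝ, polyV T ld = -Sc * U3 (T / 4)
  he : ∀ T : ℝ, polyV T le = 200 * Sc * L4 (T / 4)

theorem eval_SEx {k : ℤ} {la lb ld le : List ℤ} {Sc : ℝ} {L1 L2 L4 U3 : ℝ → ℝ}
    (h : CoOK k la lb ld le Sc L1 L2 L4 U3) (y : ℕ → ℝ) (x1 x2 x3 x4 : Ex) :
    (SEx k la lb ld le x1 x2 x3 x4).eval y
      = 153600 * Sc * SF L1 L2 L4 U3 (x1.eval y) (x2.eval y) (x3.eval y) (x4.eval y) := by
  have eT : (tE x1 x2 x3 x4).eval y / 4 = Dd (x1.eval y) (x2.eval y) (x3.eval y) (x4.eval y) - 1 := by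
    simp only [tE, Ex.eval, Dd]
    push_cast
    ring
  have eN : (NE x1 x2 x3 x4).eval y = 16 * NN (x1.eval y) (x2.eval y) (x3.eval y) (x4.eval y) := by
    simp only [NE, eval_sig1Ex, F1E, F2E, F3E, Ex.eval, sig1, NN, nF1, nF2, nF3]
    push_cast
    ring
  have eQ : (QE x1 x2 x3 x4).eval y = 256 * QQ (x1.eval y) (x2.eval y) (x3.eval y) (x4.eval y) := by
    simp only [QE, eval_sig2Ex, F1E, F2E, F3E, Ex.eval, sig2, QQ, nF1, nF2, nF3]
    push_cast
    ring
  have eK : (KE x1 x2 x3 x4).eval y = 64 * KK (x1.eval y) (x2.eval y) (x3.eval y) (x4.eval y) := by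
    simp only [KE, Ex.eval, KK]
    ring
  have eY : (YE x1 x2 x3 x4).eval y = 153600 * YY (x1.eval y) (x2.eval y) (x3.eval y) (x4.eval y) := by
    simp only [YE, Ex.eval, eN, eQ, YY]
    push_cast
    ring
  have eZ : (ZE x1 x2 x3 x4).eval y
      = 1024 * (NN (x1.eval y) (x2.eval y) (x3.eval y) (x4.eval y)
        * KK (x1.eval y) (x2.eval y) (x3.eval y) (x4.eval y)) := by
    simp only [ZE, Ex.eval, eN, eK]
    ring
  have eS : (sumE x1 x2 x3 x4).eval y = 4 * Dd (x1.eval y) (x2.eval y) (x3.eval y) (x4.eval y) := by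
    simp only [sumE, Ex.eval, Dd]
    ring
  simp only [SEx, Ex.eval, eval_polyEx, eN, eK, eY, eZ, eS, h.ha, h.hb, h.hd, h.he, eT, h.hk, SF]
  ring

/-- the scaled class function at the first point -/
def fxEx : Ex :=
  add (mul (c (600)) (piiEx (v 3) (v 4) (v 5)))
    (add (mul (c (-138)) (mul (sig1Ex (v 3) (v 4) (v 5)) (sig1Ex (v 3) (v 4) (v 5))))
      (add (mul (c (-100)) (sig2Ex (v 3) (v 4) (v 5)))
        (mul (c (400)) (mul (sig1Ex (v 3) (v 4) (v 5)) (piiEx (v 3) (v 4) (v 5))))))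

/-- the scaled class function at the second point -/
def fyEx : Ex :=
  add (mul (c (600)) (piiEx (v 0) (v 1) (v 2)))
    (add (mul (c (-138)) (mul (sig1Ex (v 0) (v 1) (v 2)) (sig1Ex (v 0) (v 1) (v 2))))
      (add (mul (c (-100)) (sig2Ex (v 0) (v 1) (v 2)))
        (mul (c (400)) (mul (sig1Ex (v 0) (v 1) (v 2)) (piiEx (v 0) (v 1) (v 2))))))

/-- the surrogate at one arrangement -/
def GgE (k : ℤ) (la lb ld le : List ℤ) (p q r s : Ex) : Ex :=
  SEx k la lb ld le (mul A1 p) (mul A2 q) (mul A3 r) (mul A4 s)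

/-- the vanishing expression of the identity -/
def idE (k : ℤ) (la lb ld le : List ℤ) (TP Tal Tbe : Terms) (C0 C1 C2 C3 : ℤ) : Ex :=
  add (mul (c C0) (sum24 (GgE k la lb ld le) P1 P2 P3 P4))
    (add (mul (c C1) (outerEx Fs Ft TP))
      (add (mul (c C2) (mul (outerEx Ft F0 Tal) fxEx))
        (mul (c C3) (mul (outerEx Fs F0 Tbe) fyEx))))

/-- the real identity obtained from the certificate -/
theorem id_real {k : ℤ} {la lb ld le : List ℤ} {Sc : ℝ} {L1 L2 L4 U3 : ℝ → ℝ}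
    (hco : CoOK k la lb ld le Sc L1 L2 L4 U3)
    {TP Tal Tbe : Terms} {C0 C1 C2 C3 : ℤ}
    (ok : ∀ Y : ℕ → ℝ, (idE k la lb ld le TP Tal Tbe C0 C1 C2 C3).eval Y = 0)
    {a b c d p q r s : ℝ} (h1 : a + b + c + d = 1) (h2 : p + q + r + s = 1) :
    (C0 : ℝ) * (24 * (153600 * Sc * avg24 (fun p q r s => SF L1 L2 L4 U3 (4 * a * (4 * p)) (4 * b * (4 * q))
        (4 * c * (4 * r)) (4 * d * (4 * s))) p q r s))
      + (C1 : ℝ) * Pval TP (f1 a b c d) (f2 a b c d) (f3 a b c d) (f1 p q r s) (f2 p q r s) (f3 p q r s)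
      + (C2 : ℝ) * (Pval Tal (f1 p q r s) (f2 p q r s) (f3 p q r s) 0 0 0 * (75 * fT a b c d))
      + (C3 : ℝ) * (Pval Tbe (f1 a b c d) (f2 a b c d) (f3 a b c d) 0 0 0 * (75 * fT p q r s)) = 0 := by
  let Y : ℕ → ℝ := fun i =>
    match i with
    | 0 => f1 p q r s
    | 1 => f2 p q r s
    | 2 => f3 p q r s
    | 3 => f1 a b c d
    | 4 => f2 a b c d
    | _ => f3 a b c d
  have hz := ok Y
  have v0 : Y 0 = f1 p q r s := rfl
  have v1 : Y 1 = f2 p q r s := rfl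
  have v2 : Y 2 = f3 p q r s := rfl
  have v3 : Y 3 = f1 a b c d := rfl
  have v4 : Y 4 = f2 a b c d := rfl
  have v5 : Y 5 = f3 a b c d := rfl
  have eA1 : A1.eval Y = 4 * a := by
    simp only [K2.A1, Ex.eval, v3, v4, v5, f1, f2, f3]; push_cast; linarith
  have eA2 : A2.eval Y = 4 * b := by
    simp only [K2.A2, Ex.eval, v3, v4, v5, f1, f2, f3]; push_cast; linarith
  have eA3 : A3.eval Y = 4 * c := by
    simp only [K2.A3, Ex.eval, v3, v4, v5, f1, f2, f3]; push_cast; linarith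
  have eA4 : A4.eval Y = 4 * d := by
    simp only [K2.A4, Ex.eval, v3, v4, v5, f1, f2, f3]; push_cast; linarith
  have eP1 : P1.eval Y = 4 * p := by
    simp only [K2.P1, Ex.eval, v0, v1, v2, f1, f2, f3]; push_cast; linarith
  have eP2 : P2.eval Y = 4 * q := by
    simp only [K2.P2, Ex.eval, v0, v1, v2, f1, f2, f3]; push_cast; linarith
  have eP3 : P3.eval Y = 4 * r := by
    simp only [K2.P3, Ex.eval, v0, v1, v2, f1, f2, f3]; push_cast; linarith
  have eP4 : P4.eval Y = 4 * s := by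
    simp only [K2.P4, Ex.eval, v0, v1, v2, f1, f2, f3]; push_cast; linarith
  have hGg : ∀ x y z w : Ex, (GgE k la lb ld le x y z w).eval Y
      = (fun x y z w => 153600 * Sc * SF L1 L2 L4 U3 (4 * a * x) (4 * b * y) (4 * c * z) (4 * d * w))
          (x.eval Y) (y.eval Y) (z.eval Y) (w.eval Y) := by
    intro x y z w
    simp only [GgE, eval_SEx hco, Ex.eval, eA1, eA2, eA3, eA4]
  have hs := eval_sum24 Y (GgE k la lb ld le)
    (fun x y z w => 153600 * Sc * SF L1 L2 L4 U3 (4 * a * x) (4 * b * y) (4 * c * z) (4 * d * w))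
    hGg P1 P2 P3 P4
  have hFs : ∀ m, (Fs m).eval Y = monoVal (sig1 (f1 a b c d) (f2 a b c d) (f3 a b c d))
      (pii (f1 a b c d) (f2 a b c d) (f3 a b c d)) (sig2 (f1 a b c d) (f2 a b c d) (f3 a b c d)) m := by
    intro m
    simp only [Fs, eval_monoEx, eval_sig1Ex, eval_piiEx, eval_sig2Ex, Ex.eval, v3, v4, v5]
  have hFt : ∀ m, (Ft m).eval Y = monoVal (sig1 (f1 p q r s) (f2 p q r s) (f3 p q r s))
      (pii (f1 p q r s) (f2 p q r s) (f3 p q r s)) (sig2 (f1 p q r s) (f2 p q r s) (f3 p q r s)) m := by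
    intro m
    simp only [Ft, eval_monoEx, eval_sig1Ex, eval_piiEx, eval_sig2Ex, Ex.eval, v0, v1, v2]
  have hF0 : ∀ m, (F0 m).eval Y = monoVal (sig1 0 0 0) (pii 0 0 0) (sig2 0 0 0) m := by
    intro m
    simp only [F0, eval_monoEx]
    simp [Ex.eval, sig1, pii, sig2]
  have ePP := eval_outerEx Y Fs Ft _ _ hFs hFt TP
  have ePA := eval_outerEx Y Ft F0 _ _ hFt hF0 Tal
  have ePB := eval_outerEx Y Fs F0 _ _ hFs hF0 Tbe
  have ef : fxEx.eval Y = 75 * fT a b c d := by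
    simp only [fxEx, Ex.eval, eval_sig1Ex, eval_piiEx, eval_sig2Ex, v3, v4, v5, fT, fI]
    push_cast
    ring
  have eg : fyEx.eval Y = 75 * fT p q r s := by
    simp only [fyEx, Ex.eval, eval_sig1Ex, eval_piiEx, eval_sig2Ex, v0, v1, v2, fT, fI]
    push_cast
    ring
  have ehz := hz
  unfold idE at ehz
  simp only [Ex.eval] at ehz
  rw [hs, ePP, ePA, ePB, ef, eg, eP1, eP2, eP3, eP4] at ehz
  have hav : avg24 (fun x y z w => 153600 * Sc * SF L1 L2 L4 U3 (4 * a * x) (4 * b * y) (4 * c * z) (4 * d * w))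
        (4 * p) (4 * q) (4 * r) (4 * s)
      = 153600 * Sc * avg24 (fun p q r s => SF L1 L2 L4 U3 (4 * a * (4 * p)) (4 * b * (4 * q)) (4 * c * (4 * r))
        (4 * d * (4 * s))) p q r s := by
    simp only [avg24]
    ring
  rw [hav] at ehz
  unfold Pval
  linarith

end Vale.Agent.Lib.P154Q4.TT.K2T
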