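import Vale.Agent.Lib.P154Q4.TT.K2IdT
import Vale.Agent.Lib.P154Q4.TT.ZeroGrid

/-!
The identity for one family of bounds, checked at some points of a grid for the last two variables.
-/

namespace Vale.Agent.Lib.P154Q4.TT.K2T

open Vale.Agent.Lib.P154Q4.TT
open Vale.Agent.Lib.P154Q4.Kron Vale.Agent.Lib.P154Q4.Kron.Ex Vale.Agent.Lib.P154Q4.Cells Vale.Agent.Lib.P154Q4.K2

theorem okida_2_4 : certZZ 4 (nth [122, 1324, 13344, 133544]) (substE 4 (-1) (substE 5 (-3) ida)) = true := by decide +kernel

theorem okida_2_5 : certZZ 4 (nth [122, 1324, 13344, 133544]) (substE 4 (0) (substE 5 (-3) ida)) = true := by decide +kernel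

theorem okida_2_6 : certZZ 4 (nth [122, 1324, 13344, 133544]) (substE 4 (1) (substE 5 (-3) ida)) = true := by decide +kernel

theorem okida_2_7 : certZZ 4 (nth [122, 1324, 13344, 133544]) (substE 4 (2) (substE 5 (-3) ida)) = true := by decide +kernel

end Vale.Agent.Lib.P154Q4.TT.K2T
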