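import Vale.Agent.Lib.P154Q4.TT.K2IdCa9g0
import Vale.Agent.Lib.P154Q4.TT.K2IdCa9g1
import Vale.Agent.Lib.P154Q4.TT.K2IdCa9g2

/-!
The identity for one family of bounds at one value of the last variable.
-/

namespace Vale.Agent.Lib.P154Q4.TT.K2T

open Vale.Agent.Lib.P154Q4.TT
open Vale.Agent.Lib.P154Q4.Kron Vale.Agent.Lib.P154Q4.Kron.Ex Vale.Agent.Lib.P154Q4.Cells Vale.Agent.Lib.P154Q4.K2

theorem zeroa5_9 (Y : ℕ → ℝ) : (substE 5 (4) ida).eval Y = 0 := by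
  refine zero_of_grid 4 _ [(-5), (-4), (-3), (-2), (-1), (0), (1), (2), (3), (4), (5)] (by decide) (by decide +kernel) ?_ Y
  intro a ha Y
  simp only [List.mem_cons, List.not_mem_nil, or_false] at ha
  rcases ha with rfl | rfl | rfl | rfl | rfl | rfl | rfl | rfl | rfl | rfl | rfl
  · exact certZZ_sound 4 _ _ okida_9_0 Y
  · exact certZZ_sound 4 _ _ okida_9_1 Y
  · exact certZZ_sound 4 _ _ okida_9_2 Y
  · exact certZZ_sound 4 _ _ okida_9_3 Y
  · exact certZZ_sound 4 _ _ okida_9_4 Y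
  · exact certZZ_sound 4 _ _ okida_9_5 Y
  · exact certZZ_sound 4 _ _ okida_9_6 Y
  · exact certZZ_sound 4 _ _ okida_9_7 Y
  · exact certZZ_sound 4 _ _ okida_9_8 Y
  · exact certZZ_sound 4 _ _ okida_9_9 Y
  · exact certZZ_sound 4 _ _ okida_9_10 Y

end Vale.Agent.Lib.P154Q4.TT.K2T
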