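import Vale.Agent.Lib.P154Q4.TT.K2Data
import Vale.Agent.Lib.P154Q4.TT.K2Fam

/-!
The coefficients of the two families of bounds as integers, and the two identities.
-/

namespace Vale.Agent.Lib.P154Q4.TT.K2T

open Vale.Agent.Lib.P154Q4.Kron Vale.Agent.Lib.P154Q4.Kron.Ex Vale.Agent.Lib.P154Q4.Cells Vale.Agent.Lib.P154Q4.K2

/-- integer coefficients of the family -/
def cla1 : List ℤ := [(33554432000), (-8388608000), (2031616000), (-307200000), (-95744000), (35840000), (6208000), (-2768000), (172000)]

/-- integer coefficients of the family -/
def cla2 : List ℤ := [(161061273600), (-80530636800), (30179328000), (-10066329600), (3067084800), (-756940800), (117350400), (-7872000)]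

/-- integer coefficients of the family -/
def cla3 : List ℤ := [(-8388608), (6291456), (-3112960), (1171456), (-290816), (37632), (-1730)]

/-- integer coefficients of the family -/
def cla4 : List ℤ := [(1677721600), (-1677721600), (1009254400), (-401408000), (86425600), (-7372800)]

theorem coOKa : CoOK (-161061273600) cla1 cla2 cla3 cla4 8388608 L1a L2a L4a U3a where
  hk := by norm_num
  ha := by
    intro T
    simp only [cla1, polyV, L1a]
    push_cast
    ring
  hb := by
    intro T
    simp only [cla2, polyV, L2a]
    push_cast
    ring
  hd := by
    intro T
    simp only [cla3, polyV, U3a]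
    push_cast
    ring
  he := by
    intro T
    simp only [cla4, polyV, L4a]
    push_cast
    ring

/-- the vanishing expression of the identity for the family -/
def ida : Ex := idE (-161061273600) cla1 cla2 cla3 cla4 TP0 Tal Tbe (1) (-1048576) (-3221225472) (-12884901888)

/-- integer coefficients of the family -/
def clb1 : List ℤ := [(8586133504000), (-2096365568000), (337641472000), (23724032000), (-9371648000), (-5259264000), (1744896000), (-171008000), (5312000)]

/-- integer coefficients of the family -/
def clb2 : List ℤ := [(40884397670400), (-19790403993600), (7328287948800), (-2919235584000), (1137495244800), (-293181849600), (37906022400), (-1843200000)]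

/-- integer coefficients of the family -/
def clb3 : List ℤ := [(-2160918528), (1608777728), (-688128000), (175636480), (-24569856), (1692544), (-43835)]

/-- integer coefficients of the family -/
def clb4 : List ℤ := [(410832076800), (-356096409600), (155189248000), (-39845888000), (5583667200), (-322764800)]

theorem coOKb : CoOK (-41231686041600) clb1 clb2 clb3 clb4 2147483648 L1b L2b L4b U3b where
  hk := by norm_num
  ha := by
    intro T
    simp only [clb1, polyV, L1b]
    push_cast
    ring
  hb := by
    intro T
    simp only [clb2, polyV, L2b]
    push_cast
    ring
  hd := by
    intro T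
    simp only [clb3, polyV, U3b]
    push_cast
    ring
  he := by
    intro T
    simp only [clb4, polyV, L4b]
    push_cast
    ring

/-- the vanishing expression of the identity for the family -/
def idb : Ex := idE (-41231686041600) clb1 clb2 clb3 clb4 TP1 Tal Tbe (1) (-4194304) (-824633720832) (-3298534883328)

end Vale.Agent.Lib.P154Q4.TT.K2T
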