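import Vale.Agent.Lib.P154Q4.TT.Class

/-!
Pointwise polynomial lower bound of the weighted class function of the full simplex.
-/

namespace Vale.Agent.Lib.P154Q4.TT.K2T

open Vale.Agent.Lib.P154Q4.K2 Vale.Agent.Lib.P154Q4.Cells

/-- the total mass -/
noncomputable def Dd (x1 x2 x3 x4 : ℝ) : ℝ := (x1 + x2 + x3 + x4) / 4

/-- Fourier coordinates of the products -/
noncomputable def nF1 (x1 x2 x3 x4 : ℝ) : ℝ := (x1 + x2 - x3 - x4) / 4

/-- Fourier coordinates of the products -/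
noncomputable def nF2 (x1 x2 x3 x4 : ℝ) : ℝ := (x1 - x2 + x3 - x4) / 4

/-- Fourier coordinates of the products -/
noncomputable def nF3 (x1 x2 x3 x4 : ℝ) : ℝ := (x1 - x2 - x3 + x4) / 4

/-- the squared length of the products -/
noncomputable def NN (x1 x2 x3 x4 : ℝ) : ℝ :=
  nF1 x1 x2 x3 x4 ^ 2 + nF2 x1 x2 x3 x4 ^ 2 + nF3 x1 x2 x3 x4 ^ 2

/-- the fourth order invariant of the products -/
noncomputable def QQ (x1 x2 x3 x4 : ℝ) : ℝ :=
  nF1 x1 x2 x3 x4 ^ 2 * nF2 x1 x2 x3 x4 ^ 2 + nF1 x1 x2 x3 x4 ^ 2 * nF3 x1 x2 x3 x4 ^ 2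
    + nF2 x1 x2 x3 x4 ^ 2 * nF3 x1 x2 x3 x4 ^ 2

/-- the cubic symmetric function of the products -/
noncomputable def KK (x1 x2 x3 x4 : ℝ) : ℝ :=
  (x1 * x2 * x3 + x1 * x2 * x4 + x1 * x3 * x4 + x2 * x3 * x4) / 64

/-- the quartic combination entering the surrogate -/
noncomputable def YY (x1 x2 x3 x4 : ℝ) : ℝ :=
  (19 / 600) * NN x1 x2 x3 x4 ^ 2 + (1 / 12) * QQ x1 x2 x3 x4

/-- the surrogate with four arbitrary functions of the shifted mass -/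
noncomputable def SF (L1 L2 L4 U3 : ℝ → ℝ) (x1 x2 x3 x4 : ℝ) : ℝ :=
  -(Dd x1 x2 x3 x4) / 2
    + (5 / 12) * NN x1 x2 x3 x4 * L1 (Dd x1 x2 x3 x4 - 1)
    + 8 * KK x1 x2 x3 x4 * L2 (Dd x1 x2 x3 x4 - 1)
    - YY x1 x2 x3 x4 * U3 (Dd x1 x2 x3 x4 - 1)
    + (4 / 3) * (NN x1 x2 x3 x4 * KK x1 x2 x3 x4) * L4 (Dd x1 x2 x3 x4 - 1)

/-- validity of a family of four functions on the range of the shifted mass -/
structure Valid (L1 L2 L4 U3 : ℝ → ℝ) : Prop where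
  h1 : ∀ t, -1 < t → t ≤ 3 → (1 + t) * L1 t ≤ 1
  h2 : ∀ t, -1 < t → t ≤ 3 → (1 + t) ^ 2 * L2 t ≤ 1
  h4 : ∀ t, -1 < t → t ≤ 3 → (1 + t) ^ 4 * L4 t ≤ 1
  h3 : ∀ t, -1 < t → t ≤ 3 →
    (107 / 600) * (1 - (1 + t) ^ 3 * U3 t) ≤ (5 / 12) * (1 - (1 + t) * L1 t)

/-- the exact value in terms of the invariants of the products -/
theorem core_alg (D N P Q : ℝ) (hD : D ≠ 0) :
    D * fI (N / (4 * D ^ 2)) (P / (8 * D ^ 3)) (Q / (16 * D ^ 4))
      = 8 * ((D ^ 3 - N * D + 2 * P) / 16) / D ^ 2 - D / 2 + (5 / 12) * N / D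
        - ((19 / 600) * N ^ 2 + (1 / 12) * Q) / D ^ 3
        + (4 / 3) * (N * ((D ^ 3 - N * D + 2 * P) / 16)) / D ^ 4 := by
  unfold fI
  field_simp
  ring

/-- the surrogate in abstract values is below the exact value -/
theorem surrogate_le {D N Q K a1 a2 a4 u3 : ℝ} (hD : 0 < D) (hN : 0 ≤ N) (hQ : 0 ≤ Q) (hK : 0 ≤ K)
    (hN3 : N ≤ 3 * D ^ 2) (hQ3 : 3 * Q ≤ N ^ 2) (h1 : D * a1 ≤ 1) (h2 : D ^ 2 * a2 ≤ 1)
    (h4 : D ^ 4 * a4 ≤ 1) (h3 : (107 / 600) * (1 - D ^ 3 * u3) ≤ (5 / 12) * (1 - D * a1)) :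
    -D / 2 + (5 / 12) * N * a1 + 8 * K * a2 - ((19 / 600) * N ^ 2 + (1 / 12) * Q) * u3
        + (4 / 3) * (N * K) * a4
      ≤ 8 * K / D ^ 2 - D / 2 + (5 / 12) * N / D - ((19 / 600) * N ^ 2 + (1 / 12) * Q) / D ^ 3
        + (4 / 3) * (N * K) / D ^ 4 := by
  have hD2 : 0 < D ^ 2 := by positivity
  have hD3 : 0 < D ^ 3 := by positivity
  have hD4 : 0 < D ^ 4 := by positivity
  have b2 : a2 ≤ 1 / D ^ 2 := by
    rw [le_div_iff₀ hD2]
    linarith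
  have b4 : a4 ≤ 1 / D ^ 4 := by
    rw [le_div_iff₀ hD4]
    linarith
  have t2 : 8 * K * a2 ≤ 8 * K / D ^ 2 := by
    have := mul_le_mul_of_nonneg_left b2 (show 0 ≤ 8 * K by positivity)
    calc 8 * K * a2 ≤ 8 * K * (1 / D ^ 2) := this
      _ = 8 * K / D ^ 2 := by ring
  have t4 : (4 / 3) * (N * K) * a4 ≤ (4 / 3) * (N * K) / D ^ 4 := by
    have := mul_le_mul_of_nonneg_left b4 (show 0 ≤ (4 / 3) * (N * K) by positivity)
    calc (4 / 3) * (N * K) * a4 ≤ (4 / 3) * (N * K) * (1 / D ^ 4) := this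
      _ = (4 / 3) * (N * K) / D ^ 4 := by ring
  obtain ⟨Y, hY⟩ : ∃ Y, Y = (19 / 600) * N ^ 2 + (1 / 12) * Q := ⟨_, rfl⟩
  rw [← hY]
  have hY0 : 0 ≤ Y := by rw [hY]; positivity
  have hYle : Y ≤ (107 / 600) * (D ^ 2 * N) := by
    have h5 : N ^ 2 ≤ 3 * D ^ 2 * N := by nlinarith
    rw [hY]
    nlinarith
  have hmid : (5 / 12) * N * a1 - Y * u3 ≤ (5 / 12) * N / D - Y / D ^ 3 := by
    have e1 : (5 / 12) * N / D - (5 / 12) * N * a1 = (5 / 12) * N * ((1 - D * a1) / D) := by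
      field_simp
    have e2 : Y / D ^ 3 - Y * u3 = Y * ((1 - D ^ 3 * u3) / D ^ 3) := by
      field_simp
    have hnn : 0 ≤ (1 - D * a1) / D := div_nonneg (by linarith) hD.le
    rcases le_total (1 - D ^ 3 * u3) 0 with hc | hc
    · have : Y * ((1 - D ^ 3 * u3) / D ^ 3) ≤ 0 :=
        mul_nonpos_of_nonneg_of_nonpos hY0 (div_nonpos_of_nonpos_of_nonneg hc hD3.le)
      have h6 : 0 ≤ (5 / 12) * N * ((1 - D * a1) / D) := by positivity
      linarith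
    · have h7 : Y * ((1 - D ^ 3 * u3) / D ^ 3)
          ≤ (107 / 600) * (D ^ 2 * N) * ((1 - D ^ 3 * u3) / D ^ 3) :=
        mul_le_mul_of_nonneg_right hYle (by positivity)
      have e3 : (107 / 600) * (D ^ 2 * N) * ((1 - D ^ 3 * u3) / D ^ 3)
          = N / D * ((107 / 600) * (1 - D ^ 3 * u3)) := by
        field_simp
      have e4 : (5 / 12) * N * ((1 - D * a1) / D) = N / D * ((5 / 12) * (1 - D * a1)) := by
        ring
      have h8 : N / D * ((107 / 600) * (1 - D ^ 3 * u3)) ≤ N / D * ((5 / 12) * (1 - D * a1)) :=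
        mul_le_mul_of_nonneg_left h3 (by positivity)
      linarith
  linarith

theorem fi_post (n1 n2 n3 n4 : ℝ) (hS : n1 + n2 + n3 + n4 ≠ 0) :
    fT (n1 / (n1 + n2 + n3 + n4)) (n2 / (n1 + n2 + n3 + n4)) (n3 / (n1 + n2 + n3 + n4))
        (n4 / (n1 + n2 + n3 + n4))
      = fI (NN (16 * n1) (16 * n2) (16 * n3) (16 * n4)
            / (4 * Dd (16 * n1) (16 * n2) (16 * n3) (16 * n4) ^ 2))
          ((nF1 (16 * n1) (16 * n2) (16 * n3) (16 * n4) * nF2 (16 * n1) (16 * n2) (16 * n3) (16 * n4)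
              * nF3 (16 * n1) (16 * n2) (16 * n3) (16 * n4))
            / (8 * Dd (16 * n1) (16 * n2) (16 * n3) (16 * n4) ^ 3))
          (QQ (16 * n1) (16 * n2) (16 * n3) (16 * n4)
            / (16 * Dd (16 * n1) (16 * n2) (16 * n3) (16 * n4) ^ 4)) := by
  unfold fT
  congr 1
  · unfold sig1 NN nF1 nF2 nF3 Dd f1 f2 f3
    field_simp
    ring
  · unfold pii nF1 nF2 nF3 Dd f1 f2 f3
    field_simp
    ring
  · unfold sig2 QQ nF1 nF2 nF3 Dd f1 f2 f3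
    field_simp
    ring

/-- the pointwise lower bound for nonnegative products of bounded total mass -/
theorem SF_le {L1 L2 L4 U3 : ℝ → ℝ} (hv : Valid L1 L2 L4 U3) (n1 n2 n3 n4 : ℝ) (h1 : 0 ≤ n1)
    (h2 : 0 ≤ n2) (h3 : 0 ≤ n3) (h4 : 0 ≤ n4) (hS' : n1 + n2 + n3 + n4 ≤ 1) :
    SF L1 L2 L4 U3 (16 * n1) (16 * n2) (16 * n3) (16 * n4)
      ≤ 4 * (n1 + n2 + n3 + n4) *
        fT (n1 / (n1 + n2 + n3 + n4)) (n2 / (n1 + n2 + n3 + n4)) (n3 / (n1 + n2 + n3 + n4))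
          (n4 / (n1 + n2 + n3 + n4)) := by
  have hS0 : 0 ≤ n1 + n2 + n3 + n4 := by positivity
  rcases hS0.eq_or_lt with hz | hpos
  · have z1 : n1 = 0 := by linarith
    have z2 : n2 = 0 := by linarith
    have z3 : n3 = 0 := by linarith
    have z4 : n4 = 0 := by linarith
    subst z1 z2 z3 z4
    unfold SF YY QQ NN KK nF1 nF2 nF3 Dd
    norm_num
  obtain ⟨D, hD⟩ : ∃ D, D = Dd (16 * n1) (16 * n2) (16 * n3) (16 * n4) := ⟨_, rfl⟩
  have hDe : D = 4 * (n1 + n2 + n3 + n4) := by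
    rw [hD]
    unfold Dd
    ring
  have hD0 : 0 < D := by rw [hDe]; linarith
  have hD4 : D ≤ 4 := by rw [hDe]; linarith
  rw [fi_post n1 n2 n3 n4 hpos.ne', ← hDe]
  rw [← hD]
  have ht0 : -1 < D - 1 := by linarith
  have ht1 : D - 1 ≤ 3 := by linarith
  have ee : 1 + (D - 1) = D := by ring
  have v1 := hv.h1 (D - 1) ht0 ht1
  have v2 := hv.h2 (D - 1) ht0 ht1
  have v4 := hv.h4 (D - 1) ht0 ht1
  have v3 := hv.h3 (D - 1) ht0 ht1
  rw [ee] at v1 v2 v4 v3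
  rw [core_alg D _ _ _ hD0.ne']
  have hK := show (D ^ 3 - NN (16 * n1) (16 * n2) (16 * n3) (16 * n4) * D
        + 2 * (nF1 (16 * n1) (16 * n2) (16 * n3) (16 * n4)
          * nF2 (16 * n1) (16 * n2) (16 * n3) (16 * n4)
          * nF3 (16 * n1) (16 * n2) (16 * n3) (16 * n4))) / 16
      = KK (16 * n1) (16 * n2) (16 * n3) (16 * n4) by
    rw [hD]
    unfold KK NN nF1 nF2 nF3 Dd
    ring
  rw [hK]
  have b1 : (nF1 (16 * n1) (16 * n2) (16 * n3) (16 * n4)) ^ 2 ≤ D ^ 2 := by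
    rw [hDe]
    unfold nF1
    nlinarith [mul_nonneg (add_nonneg h1 h2) (add_nonneg h3 h4)]
  have b2 : (nF2 (16 * n1) (16 * n2) (16 * n3) (16 * n4)) ^ 2 ≤ D ^ 2 := by
    rw [hDe]
    unfold nF2
    nlinarith [mul_nonneg (add_nonneg h1 h3) (add_nonneg h2 h4)]
  have b3 : (nF3 (16 * n1) (16 * n2) (16 * n3) (16 * n4)) ^ 2 ≤ D ^ 2 := by
    rw [hDe]
    unfold nF3
    nlinarith [mul_nonneg (add_nonneg h1 h4) (add_nonneg h2 h3)]
  have hN : 0 ≤ NN (16 * n1) (16 * n2) (16 * n3) (16 * n4) := by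
    unfold NN
    positivity
  have hQ : 0 ≤ QQ (16 * n1) (16 * n2) (16 * n3) (16 * n4) := by
    unfold QQ
    positivity
  have hKn : 0 ≤ KK (16 * n1) (16 * n2) (16 * n3) (16 * n4) := by
    unfold KK
    positivity
  have hN3 : NN (16 * n1) (16 * n2) (16 * n3) (16 * n4) ≤ 3 * D ^ 2 := by
    unfold NN
    linarith
  have hQ3 : 3 * QQ (16 * n1) (16 * n2) (16 * n3) (16 * n4)
      ≤ NN (16 * n1) (16 * n2) (16 * n3) (16 * n4) ^ 2 := by
    unfold QQ NN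
    nlinarith [sq_nonneg (nF1 (16 * n1) (16 * n2) (16 * n3) (16 * n4) ^ 2
        - nF2 (16 * n1) (16 * n2) (16 * n3) (16 * n4) ^ 2),
      sq_nonneg (nF1 (16 * n1) (16 * n2) (16 * n3) (16 * n4) ^ 2
        - nF3 (16 * n1) (16 * n2) (16 * n3) (16 * n4) ^ 2),
      sq_nonneg (nF2 (16 * n1) (16 * n2) (16 * n3) (16 * n4) ^ 2
        - nF3 (16 * n1) (16 * n2) (16 * n3) (16 * n4) ^ 2)]
  have key := surrogate_le hD0 hN hQ hKn hN3 hQ3 v1 v2 v4 v3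
  unfold SF YY
  rw [← hD]
  linarith

/-- the surrogate is below the weighted class function at one arrangement -/
theorem SF_le_wt {L1 L2 L4 U3 : ℝ → ℝ} (hv : Valid L1 L2 L4 U3) {a b c d p q r s : ℝ}
    (h : Simp a b c d) (h' : Simp p q r s) :
    SF L1 L2 L4 U3 (4 * a * (4 * p)) (4 * b * (4 * q)) (4 * c * (4 * r)) (4 * d * (4 * s))
      ≤ wt fT a b c d p q r s := by
  have ha := h.ha
  have hb := h.hb
  have hc := h.hc
  have hd := h.hd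
  have hs1 := h.hs
  obtain ⟨hp1, hq1, hr1, hs2⟩ := h'.le_one
  have hp0 := h'.ha
  have hq0 := h'.hb
  have hr0 := h'.hc
  have hs0 := h'.hd
  have e1 : 4 * a * (4 * p) = 16 * (a * p) := by ring
  have e2 : 4 * b * (4 * q) = 16 * (b * q) := by ring
  have e3 : 4 * c * (4 * r) = 16 * (c * r) := by ring
  have e4 : 4 * d * (4 * s) = 16 * (d * s) := by ring
  rw [e1, e2, e3, e4]
  unfold wt
  refine SF_le hv _ _ _ _ (by positivity) (by positivity) (by positivity) (by positivity) ?_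
  nlinarith [mul_le_mul_of_nonneg_left hp1 ha, mul_le_mul_of_nonneg_left hq1 hb,
      mul_le_mul_of_nonneg_left hr1 hc, mul_le_mul_of_nonneg_left hs2 hd]

/-- the surrogate is below the weighted class function after averaging over the arrangements -/
theorem avg_SF_le_wt {L1 L2 L4 U3 : ℝ → ℝ} (hv : Valid L1 L2 L4 U3) {a b c d p q r s : ℝ}
    (h : Simp a b c d) (h' : Simp p q r s) :
    avg24 (fun p q r s => SF L1 L2 L4 U3 (4 * a * (4 * p)) (4 * b * (4 * q)) (4 * c * (4 * r))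
        (4 * d * (4 * s))) p q r s
      ≤ avg24 (fun p q r s => wt fT a b c d p q r s) p q r s := by
  have i0 := SF_le_wt hv (p := p) (q := q) (r := r) (s := s) h ⟨h'.ha, h'.hb, h'.hc, h'.hd, by linarith [h'.hs]⟩
  have i1 := SF_le_wt hv (p := p) (q := q) (r := s) (s := r) h ⟨h'.ha, h'.hb, h'.hd, h'.hc, by linarith [h'.hs]⟩
  have i2 := SF_le_wt hv (p := p) (q := r) (r := q) (s := s) h ⟨h'.ha, h'.hc, h'.hb, h'.hd, by linarith [h'.hs]⟩
  have i3 := SF_le_wt hv (p := p) (q := r) (r := s) (s := q) h ⟨h'.ha, h'.hc, h'.hd, h'.hb, by linarith [h'.hs]⟩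
  have i4 := SF_le_wt hv (p := p) (q := s) (r := q) (s := r) h ⟨h'.ha, h'.hd, h'.hb, h'.hc, by linarith [h'.hs]⟩
  have i5 := SF_le_wt hv (p := p) (q := s) (r := r) (s := q) h ⟨h'.ha, h'.hd, h'.hc, h'.hb, by linarith [h'.hs]⟩
  have i6 := SF_le_wt hv (p := q) (q := p) (r := r) (s := s) h ⟨h'.hb, h'.ha, h'.hc, h'.hd, by linarith [h'.hs]⟩
  have i7 := SF_le_wt hv (p := q) (q := p) (r := s) (s := r) h ⟨h'.hb, h'.ha, h'.hd, h'.hc, by linarith [h'.hs]⟩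
  have i8 := SF_le_wt hv (p := q) (q := r) (r := p) (s := s) h ⟨h'.hb, h'.hc, h'.ha, h'.hd, by linarith [h'.hs]⟩
  have i9 := SF_le_wt hv (p := q) (q := r) (r := s) (s := p) h ⟨h'.hb, h'.hc, h'.hd, h'.ha, by linarith [h'.hs]⟩
  have i10 := SF_le_wt hv (p := q) (q := s) (r := p) (s := r) h ⟨h'.hb, h'.hd, h'.ha, h'.hc, by linarith [h'.hs]⟩
  have i11 := SF_le_wt hv (p := q) (q := s) (r := r) (s := p) h ⟨h'.hb, h'.hd, h'.hc, h'.ha, by linarith [h'.hs]⟩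
  have i12 := SF_le_wt hv (p := r) (q := p) (r := q) (s := s) h ⟨h'.hc, h'.ha, h'.hb, h'.hd, by linarith [h'.hs]⟩
  have i13 := SF_le_wt hv (p := r) (q := p) (r := s) (s := q) h ⟨h'.hc, h'.ha, h'.hd, h'.hb, by linarith [h'.hs]⟩
  have i14 := SF_le_wt hv (p := r) (q := q) (r := p) (s := s) h ⟨h'.hc, h'.hb, h'.ha, h'.hd, by linarith [h'.hs]⟩
  have i15 := SF_le_wt hv (p := r) (q := q) (r := s) (s := p) h ⟨h'.hc, h'.hb, h'.hd, h'.ha, by linarith [h'.hs]⟩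
  have i16 := SF_le_wt hv (p := r) (q := s) (r := p) (s := q) h ⟨h'.hc, h'.hd, h'.ha, h'.hb, by linarith [h'.hs]⟩
  have i17 := SF_le_wt hv (p := r) (q := s) (r := q) (s := p) h ⟨h'.hc, h'.hd, h'.hb, h'.ha, by linarith [h'.hs]⟩
  have i18 := SF_le_wt hv (p := s) (q := p) (r := q) (s := r) h ⟨h'.hd, h'.ha, h'.hb, h'.hc, by linarith [h'.hs]⟩
  have i19 := SF_le_wt hv (p := s) (q := p) (r := r) (s := q) h ⟨h'.hd, h'.ha, h'.hc, h'.hb, by linarith [h'.hs]⟩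
  have i20 := SF_le_wt hv (p := s) (q := q) (r := p) (s := r) h ⟨h'.hd, h'.hb, h'.ha, h'.hc, by linarith [h'.hs]⟩
  have i21 := SF_le_wt hv (p := s) (q := q) (r := r) (s := p) h ⟨h'.hd, h'.hb, h'.hc, h'.ha, by linarith [h'.hs]⟩
  have i22 := SF_le_wt hv (p := s) (q := r) (r := p) (s := q) h ⟨h'.hd, h'.hc, h'.ha, h'.hb, by linarith [h'.hs]⟩
  have i23 := SF_le_wt hv (p := s) (q := r) (r := q) (s := p) h ⟨h'.hd, h'.hc, h'.hb, h'.ha, by linarith [h'.hs]⟩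
  unfold avg24
  linarith

end Vale.Agent.Lib.P154Q4.TT.K2T
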