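import Vale.Agent.Lib.P154Q4.TT.K2
import Vale.Agent.Lib.P154Q4.TT.K1
import Vale.Agent.Lib.P154Q4.TT.Chan
import Vale.Agent.Lib.P154Q4.Tree
import Vale.Agent.Lib.P154Q4.GWLink

/-!
Nonreconstruction at and below the Kesten-Stigum bound for the four-state ferromagnetic Potts
channel on Galton-Watson trees, for every admissible eigenvalue.
-/

namespace Vale.Agent.Lib.P154Q4.TT

open Filter Topology Vale.Agent.Lib.P154Q4.K2
open Vale.Agent.Lib.P154 (gwProb gwTerm gwError poissonLaw reconError)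

/-- the kernel data of the full simplex -/
theorem kernT : Kern fT fT K1.A1m K1.B1m K2T.alT K2T.beT Simp (1 / 16) where
  msg_simp := fun _ _ _ _ h => h
  bd_fK := bd_fT
  bd_fM := bd_fT
  bd_A := K1.bd_A1m
  bd_B := K1.bd_B1m
  bd_al := K2T.bd_alT
  bd_be := K2T.bd_beT
  A_nn := K1.A1m_nonneg
  B_nn := K1.B1m_nonneg
  al_nn := K2T.alT_nonneg
  be_nn := K2T.beT_nonneg
  g_nn := by norm_num
  g_le := by norm_num
  k1 := fun _ _ _ _ _ _ _ _ h hm => K1.k1_main h hm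
  k2 := fun _ _ _ _ _ _ _ _ h hm => K2T.k2_main h hm
  fK_centre := fT_centre
  fK_vertex := fT_vertex

/-- Any offspring law with mean `d`, `0 <= lam <= 1`, `d * lam ^ 2 <= 1`, with either strict
inequality or some offspring number at least two of positive probability. -/
theorem q4_gw_all {p : ℕ → ℝ} (hp0 : ∀ k, 0 ≤ p k) (hp1 : HasSum p 1) {d : ℝ}
    (hpd : HasSum (fun k : ℕ => (k : ℝ) * p k) d) {lam : ℝ} (h0 : 0 ≤ lam) (h1 : lam ≤ 1)
    (hKS : d * lam ^ 2 ≤ 1) (hb : (∃ k, 2 ≤ k ∧ 0 < p k) ∨ d * lam ^ 2 < 1) :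
    (∀ n, HasSum (gwProb 4 p lam n) 1) ∧ (∀ n, Summable (gwTerm 4 p lam n)) ∧
      Tendsto (gwError 4 p lam) atTop (𝓝 0) :=
  gw_main kernT (by norm_num) hp0 hp1 hpd (chanOK_T h0 h1) hKS hb

/-- nonreconstruction for four states on the regular tree with `d >= 2` children per vertex, for
`0 <= lam` and `d * lam ^ 2 <= 1`. -/
theorem q4_dary_all {d : ℕ} (hd : 2 ≤ d) {lam : ℝ} (h0 : 0 ≤ lam) (hKS : (d : ℝ) * lam ^ 2 ≤ 1) :
    Tendsto (reconError d 4 lam) atTop (𝓝 0) := by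
  have hd2 : (2 : ℝ) ≤ d := by exact_mod_cast hd
  have hl : lam ≤ 1 := by
    by_contra hc
    rw [not_le] at hc
    have : (1 : ℝ) ^ 2 < lam ^ 2 := pow_lt_pow_left₀ hc (by norm_num) (by norm_num)
    nlinarith [sq_nonneg lam]
  exact dary_main kernT (by norm_num) hd (chanOK_T h0 hl) hKS

/-- The Poisson tree: `0 <= lam <= 1`, `d * lam ^ 2 <= 1`. -/
theorem q4_poisson_all {d : ℝ} (hd : 0 < d) {lam : ℝ} (h0 : 0 ≤ lam) (h1 : lam ≤ 1)
    (hKS : d * lam ^ 2 ≤ 1) :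
    (∀ n, HasSum (gwProb 4 (poissonLaw d) lam n) 1) ∧
      (∀ n, Summable (gwTerm 4 (poissonLaw d) lam n)) ∧
      Tendsto (gwError 4 (poissonLaw d) lam) atTop (𝓝 0) :=
  poisson_main kernT (by norm_num) hd (chanOK_T h0 h1) hKS

end Vale.Agent.Lib.P154Q4.TT
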