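import Vale.Agent.Lib.P154Q4.TT.Class

/-!
Polynomials in the invariants of the doubled Fourier coordinates.
-/

namespace Vale.Agent.Lib.P154Q4.TT

open Vale.Agent.Lib.P154Q4.Cells Vale.Agent.Lib.P154Q4.K2

/-- scaling of an inner list of coefficients -/
def scaleI (k : ℕ) (l : List (Mono × ℤ)) : List (Mono × ℤ) :=
  l.map (fun u => (u.1, ((2 ^ (k + deg u.1) : ℕ) : ℤ) * u.2))

/-- the polynomial in the coordinates whose value at a point is the value of the given polynomial
at the doubled point -/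
def scaleT (T : Terms) : Terms := T.map (fun t => (t.1, scaleI (deg t.1) t.2))

theorem innerVal_scaleI (g : Mono → ℝ) (k : ℕ) (l : List (Mono × ℤ)) :
    innerVal g (scaleI k l) = 2 ^ k * innerVal (fun m => 2 ^ deg m * g m) l := by
  induction l with
  | nil => simp [scaleI, innerVal]
  | cons u l ih =>
    have : scaleI k (u :: l) = (u.1, ((2 ^ (k + deg u.1) : ℕ) : ℤ) * u.2) :: scaleI k l := rfl
    rw [this]
    simp only [innerVal, ih]
    push_cast
    rw [pow_add]
    ring

theorem outerVal_scaleT (f g : Mono → ℝ) (T : Terms) :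
    outerVal f g (scaleT T)
      = outerVal (fun m => 2 ^ deg m * f m) (fun m => 2 ^ deg m * g m) T := by
  induction T with
  | nil => simp [scaleT, outerVal]
  | cons t l ih =>
    have : scaleT (t :: l) = (t.1, scaleI (deg t.1) t.2) :: scaleT l := rfl
    rw [this]
    simp only [outerVal, ih, innerVal_scaleI]
    ring

theorem monoVal_two (x y z : ℝ) (m : Mono) :
    monoVal (sig1 (2 * x) (2 * y) (2 * z)) (pii (2 * x) (2 * y) (2 * z)) (sig2 (2 * x) (2 * y) (2 * z)) m
      = 2 ^ deg m * monoVal (sig1 x y z) (pii x y z) (sig2 x y z) m := by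
  have h1 : sig1 (2 * x) (2 * y) (2 * z) = 2 ^ 2 * sig1 x y z := by simp only [sig1]; ring
  have h2 : pii (2 * x) (2 * y) (2 * z) = 2 ^ 3 * pii x y z := by simp only [pii]; ring
  have h3 : sig2 (2 * x) (2 * y) (2 * z) = 2 ^ 4 * sig2 x y z := by simp only [sig2]; ring
  have hd : deg m = 2 * m.1 + 3 * m.2.1 + 4 * m.2.2 := rfl
  simp only [monoVal, h1, h2, h3, mul_pow, ← pow_mul, hd, pow_add]
  ring

theorem Pval_scaleT (T : Terms) (x y z x' y' z' : ℝ) :
    Pval (scaleT T) x y z x' y' z'
      = Pval T (2 * x) (2 * y) (2 * z) (2 * x') (2 * y') (2 * z') := by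
  unfold Pval
  rw [outerVal_scaleT]
  congr 1
  · funext m
    rw [monoVal_two]
  · funext m
    rw [monoVal_two]

/-- the fundamental cell in the doubled coordinates -/
def S0x : Cell := ⟨3, (3, 3, 3), (3, 0, 0), (1, 1, -1), (0, 0, 0)⟩

theorem inCell_S0x {x y z : ℝ} (h : InCell K2.S0 x y z) : InCell S0x (2 * x) (2 * y) (2 * z) := by
  obtain ⟨b0, b1, b2, b3, h0, h1, h2, h3, hs, hx, hy, hz⟩ := h
  refine ⟨b0, b1, b2, b3, h0, h1, h2, h3, hs, ?_, ?_, ?_⟩
  · simp only [K2.S0] at hx
    simp only [S0x]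
    push_cast at hx ⊢
    linarith
  · simp only [K2.S0] at hy
    simp only [S0x]
    push_cast at hy ⊢
    linarith
  · simp only [K2.S0] at hz
    simp only [S0x]
    push_cast at hz ⊢
    linarith

end Vale.Agent.Lib.P154Q4.TT
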